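import Vale.Agent.P267.H399.Calc

/-!
# P267 / XT-CONE: pointwise calculus (`κ = 0`)

`S0 u x`, `S1 w x`, `S2 b x`: smooth at `x`; Leibniz rules for bilinear maps; locality.
-/

set_option linter.unusedSectionVars false

open scoped Manifold ContDiff ComplexConjugate Matrix
open Set Filter Topology

noncomputable section

namespace Vale.Agent.P267.H692

open Vale.Agent.P267.FL

variable {V : Type*} [NormedAddCommGroup V] [NormedSpace ℂ V]
variable {W : Type*} [NormedAddCommGroup W] [NormedSpace ℂ W]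
variable {Z : Type*} [NormedAddCommGroup Z] [NormedSpace ℂ Z]

theorem dzb_bil (B : V →L[ℂ] W →L[ℂ] Z) {f : C2 → V} {g : C2 → W} {z : C2}
    (hf : DifferentiableAt ℝ f z) (hg : DifferentiableAt ℝ g z) (j : Fin 2) :
    dzb j (fun y => B (f y) (g y)) z = B (dzb j f z) (g z) + B (f z) (dzb j g z) := by
  have h : HasFDerivAt (𝕜 := ℝ) (fun y => B (f y) (g y)) _ z :=
    (B.bilinearRestrictScalars ℝ).hasFDerivAt_of_bilinear hf.hasFDerivAt hg.hasFDerivAt
  unfold dzb
  rw [h.fderiv]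
  simp only [add_apply, ContinuousLinearMap.precompR_apply, ContinuousLinearMap.precompL_apply,
    ContinuousLinearMap.compL_apply, ContinuousLinearMap.comp_apply,
    ContinuousLinearMap.bilinearRestrictScalars_apply_apply, map_smul, map_add, smul_apply,
    smul_add]
  module

theorem contDiffAt_bil (B : V →L[ℂ] W →L[ℂ] Z) {n : WithTop ℕ∞} {f : C2 → V} {g : C2 → W} {z : C2}
    (hf : ContDiffAt ℝ n f z) (hg : ContDiffAt ℝ n g z) :
    ContDiffAt ℝ n (fun y => B (f y) (g y)) z := by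
  have h1 : IsBoundedBilinearMap ℝ fun p : V × W => (B.bilinearRestrictScalars ℝ) p.1 p.2 :=
    (B.bilinearRestrictScalars ℝ).isBoundedBilinearMap
  exact (h1.contDiff.contDiffAt (x := (f z, g z))).comp z (hf.prodMk hg)

variable {M : Type*} [TopologicalSpace M] [ChartedSpace C2 M]

/-- smooth at `x` -/
def S0 (u : M → V) (x : M) : Prop :=
  ContDiffAt ℝ ∞ (loc0 0 (chartAt C2 x) u) (chartAt C2 x x)

/-- smooth at `x` -/
def S1 (w : M → Fin 2 → V) (x : M) : Prop :=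
  ContDiffAt ℝ ∞ (loc1 0 (chartAt C2 x) w) (chartAt C2 x x)

/-- smooth at `x` -/
def S2 (b : M → V) (x : M) : Prop :=
  ContDiffAt ℝ ∞ (loc2 0 (chartAt C2 x) b) (chartAt C2 x x)

theorem tendsto_symm (x : M) :
    Tendsto (chartAt C2 x).symm (𝓝 (chartAt C2 x x)) (𝓝 x) := by
  have := (chartAt C2 x).continuousAt_symm (mem_chart_target C2 x)
  rw [ContinuousAt, (chartAt C2 x).left_inv (mem_chart_source C2 x)] at this
  exact this

theorem loc0_congr {u v : M → V} {x : M} (h : u =ᶠ[𝓝 x] v) :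
    loc0 0 (chartAt C2 x) u =ᶠ[𝓝 (chartAt C2 x x)] loc0 0 (chartAt C2 x) v := by
  filter_upwards [(tendsto_symm x).eventually h] with z hz
  rw [loc0, loc0, hz]

theorem loc1_congr {u v : M → Fin 2 → V} {x : M} (h : u =ᶠ[𝓝 x] v) :
    loc1 0 (chartAt C2 x) u =ᶠ[𝓝 (chartAt C2 x x)] loc1 0 (chartAt C2 x) v := by
  filter_upwards [(tendsto_symm x).eventually h] with z hz
  funext i
  rw [loc1, loc1, hz]

theorem loc2_congr {u v : M → V} {x : M} (h : u =ᶠ[𝓝 x] v) :
    loc2 0 (chartAt C2 x) u =ᶠ[𝓝 (chartAt C2 x x)] loc2 0 (chartAt C2 x) v := by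
  filter_upwards [(tendsto_symm x).eventually h] with z hz
  rw [loc2, loc2, hz]

theorem S0.congr {u v : M → V} {x : M} (hu : S0 u x) (h : u =ᶠ[𝓝 x] v) : S0 v x :=
  ContDiffAt.congr_of_eventuallyEq hu (loc0_congr h).symm

theorem S1.congr {u v : M → Fin 2 → V} {x : M} (hu : S1 u x) (h : u =ᶠ[𝓝 x] v) : S1 v x :=
  ContDiffAt.congr_of_eventuallyEq hu (loc1_congr h).symm

theorem S2.congr {u v : M → V} {x : M} (hu : S2 u x) (h : u =ᶠ[𝓝 x] v) : S2 v x :=
  ContDiffAt.congr_of_eventuallyEq hu (loc2_congr h).symm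

theorem dbar0_congr {u v : M → V} {x : M} (h : u =ᶠ[𝓝 x] v) (i : Fin 2) :
    dbar0 0 u x i = dbar0 0 v x i := dzb_congr (loc0_congr h) i

theorem dbar1_congr {u v : M → Fin 2 → V} {x : M} (h : u =ᶠ[𝓝 x] v) :
    dbar1 0 u x = dbar1 0 v x := by
  unfold dbar1
  have h1 : ∀ i, (fun z => loc1 0 (chartAt C2 x) u z i) =ᶠ[𝓝 (chartAt C2 x x)]
      fun z => loc1 0 (chartAt C2 x) v z i := fun i => by
    filter_upwards [loc1_congr h] with z hz
    rw [hz]
  rw [dzb_congr (h1 1), dzb_congr (h1 0)]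

theorem S0.diff {u : M → V} {x : M} (h : S0 u x) :
    DifferentiableAt ℝ (loc0 0 (chartAt C2 x) u) (chartAt C2 x x) :=
  ContDiffAt.differentiableAt h (by simp)

theorem S1.diff {w : M → Fin 2 → V} {x : M} (h : S1 w x) (i : Fin 2) :
    DifferentiableAt ℝ (fun z => loc1 0 (chartAt C2 x) w z i) (chartAt C2 x x) :=
  differentiableAt_pi.1 (ContDiffAt.differentiableAt h (by simp)) i

theorem S1.comp {w : M → Fin 2 → V} {x : M} (h : S1 w x) (i : Fin 2) :
    ContDiffAt ℝ ∞ (fun z => loc1 0 (chartAt C2 x) w z i) (chartAt C2 x x) :=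
  contDiffAt_pi.1 h i

/-! ### bilinear operations -/

theorem loc0_bil (B : V →L[ℂ] W →L[ℂ] Z) (e : Ch M) (u : M → V) (v : M → W) (z : C2) :
    loc0 0 e (fun y => B (u y) (v y)) z = B (loc0 0 e u z) (loc0 0 e v z) := by
  simp [loc0]

theorem loc1_bil (B : V →L[ℂ] W →L[ℂ] Z) (e : Ch M) (u : M → V) (w : M → Fin 2 → W) (z : C2)
    (i : Fin 2) :
    loc1 0 e (fun y i => B (u y) (w y i)) z i = B (loc0 0 e u z) (loc1 0 e w z i) := by
  simp [loc0, loc1]

theorem loc1_bil' (B : V →L[ℂ] W →L[ℂ] Z) (e : Ch M) (w : M → Fin 2 → V) (v : M → W) (z : C2)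
    (i : Fin 2) :
    loc1 0 e (fun y i => B (w y i) (v y)) z i = B (loc1 0 e w z i) (loc0 0 e v z) := by
  simp [loc0, loc1]

theorem loc2_bil (B : V →L[ℂ] W →L[ℂ] Z) (e : Ch M) (u : M → V) (b : M → W) (z : C2) :
    loc2 0 e (fun y => B (u y) (b y)) z = B (loc0 0 e u z) (loc2 0 e b z) := by
  simp [loc0, loc2]

theorem loc2_wedge (B : V →L[ℂ] W →L[ℂ] Z) (e : Ch M) (w : M → Fin 2 → V) (w' : M → Fin 2 → W)
    (z : C2) :
    loc2 0 e (fun y => B (w y 0) (w' y 1) - B (w y 1) (w' y 0)) z =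
      B (loc1 0 e w z 0) (loc1 0 e w' z 1) - B (loc1 0 e w z 1) (loc1 0 e w' z 0) := by
  simp only [loc2, loc1, zpow_zero, one_smul, Fin.sum_univ_two, map_add, map_smul, add_apply,
    smul_apply, Matrix.det_fin_two, map_sub, map_mul]
  module

theorem S0.bil (B : V →L[ℂ] W →L[ℂ] Z) {u : M → V} {v : M → W} {x : M} (hu : S0 u x)
    (hv : S0 v x) : S0 (fun y => B (u y) (v y)) x := by
  have := contDiffAt_bil B hu hv
  refine this.congr_of_eventuallyEq (Eventually.of_forall fun z => loc0_bil B _ _ _ z)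

theorem S1.bil (B : V →L[ℂ] W →L[ℂ] Z) {u : M → V} {w : M → Fin 2 → W} {x : M} (hu : S0 u x)
    (hw : S1 w x) : S1 (fun y i => B (u y) (w y i)) x := by
  refine contDiffAt_pi.2 fun i => ?_
  have := contDiffAt_bil B hu (hw.comp i)
  exact this.congr_of_eventuallyEq (Eventually.of_forall fun z => loc1_bil B _ _ _ z i)

theorem S1.bil' (B : V →L[ℂ] W →L[ℂ] Z) {w : M → Fin 2 → V} {v : M → W} {x : M} (hw : S1 w x)
    (hv : S0 v x) : S1 (fun y i => B (w y i) (v y)) x := by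
  refine contDiffAt_pi.2 fun i => ?_
  have := contDiffAt_bil B (hw.comp i) hv
  exact this.congr_of_eventuallyEq (Eventually.of_forall fun z => loc1_bil' B _ _ _ z i)

theorem S2.bil (B : V →L[ℂ] W →L[ℂ] Z) {u : M → V} {b : M → W} {x : M} (hu : S0 u x)
    (hb : S2 b x) : S2 (fun y => B (u y) (b y)) x := by
  have := contDiffAt_bil B hu hb
  exact this.congr_of_eventuallyEq (Eventually.of_forall fun z => loc2_bil B _ _ _ z)

theorem S2.wedge (B : V →L[ℂ] W →L[ℂ] Z) {w : M → Fin 2 → V} {w' : M → Fin 2 → W} {x : M}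
    (hw : S1 w x) (hw' : S1 w' x) :
    S2 (fun y => B (w y 0) (w' y 1) - B (w y 1) (w' y 0)) x := by
  have := (contDiffAt_bil B (hw.comp 0) (hw'.comp 1)).sub
    (contDiffAt_bil B (hw.comp 1) (hw'.comp 0))
  exact this.congr_of_eventuallyEq (Eventually.of_forall fun z => loc2_wedge B _ _ _ z)

theorem dbar0_bil [IsManifold 𝓘(ℂ, C2) ω M] (B : V →L[ℂ] W →L[ℂ] Z) {u : M → V} {v : M → W} {x : M}
    (hu : S0 u x) (hv : S0 v x) (i : Fin 2) :
    dbar0 0 (fun y => B (u y) (v y)) x i =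
      B (dbar0 0 u x i) (v x) + B (u x) (dbar0 0 v x i) := by
  have h1 : loc0 0 (chartAt C2 x) (fun y => B (u y) (v y)) =
      fun z => B (loc0 0 (chartAt C2 x) u z) (loc0 0 (chartAt C2 x) v z) :=
    funext fun z => loc0_bil B _ _ _ z
  rw [dbar0, h1, dzb_bil B hu.diff hv.diff, loc0_chartAt, loc0_chartAt]
  rfl

theorem dbar1_bil [IsManifold 𝓘(ℂ, C2) ω M] (B : V →L[ℂ] W →L[ℂ] Z) {u : M → V}
    {w : M → Fin 2 → W} {x : M} (hu : S0 u x) (hw : S1 w x) :
    dbar1 0 (fun y i => B (u y) (w y i)) x =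
      (B (dbar0 0 u x 0) (w x 1) - B (dbar0 0 u x 1) (w x 0)) + B (u x) (dbar1 0 w x) := by
  have h1 : ∀ i, (fun z => loc1 0 (chartAt C2 x) (fun y i => B (u y) (w y i)) z i) =
      fun z => B (loc0 0 (chartAt C2 x) u z) (loc1 0 (chartAt C2 x) w z i) :=
    fun i => funext fun z => loc1_bil B _ _ _ z i
  rw [dbar1, h1, h1, dzb_bil B hu.diff (hw.diff 1), dzb_bil B hu.diff (hw.diff 0),
    loc0_chartAt, loc1_chartAt, dbar1, map_sub]
  unfold dbar0
  abel

/-! ### linear operations -/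

theorem loc0_add (e : Ch M) (u v : M → V) (z : C2) :
    loc0 0 e (fun y => u y + v y) z = loc0 0 e u z + loc0 0 e v z := by simp [loc0]

theorem loc1_add (e : Ch M) (u v : M → Fin 2 → V) (z : C2) (i : Fin 2) :
    loc1 0 e (fun y i => u y i + v y i) z i = loc1 0 e u z i + loc1 0 e v z i := by
  simp [loc1, Finset.sum_add_distrib]

theorem loc2_add (e : Ch M) (u v : M → V) (z : C2) :
    loc2 0 e (fun y => u y + v y) z = loc2 0 e u z + loc2 0 e v z := by simp [loc2]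

theorem S0.add {u v : M → V} {x : M} (hu : S0 u x) (hv : S0 v x) : S0 (fun y => u y + v y) x :=
  ContDiffAt.congr_of_eventuallyEq (ContDiffAt.add hu hv)
    (Eventually.of_forall fun z => loc0_add _ _ _ z)

theorem S1.add {u v : M → Fin 2 → V} {x : M} (hu : S1 u x) (hv : S1 v x) :
    S1 (fun y i => u y i + v y i) x :=
  contDiffAt_pi.2 fun i => ContDiffAt.congr_of_eventuallyEq ((hu.comp i).add (hv.comp i))
    (Eventually.of_forall fun z => loc1_add _ _ _ z i)

theorem S2.add {u v : M → V} {x : M} (hu : S2 u x) (hv : S2 v x) : S2 (fun y => u y + v y) x :=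
  ContDiffAt.congr_of_eventuallyEq (ContDiffAt.add hu hv)
    (Eventually.of_forall fun z => loc2_add _ _ _ z)

theorem loc0_clm (T : V →L[ℂ] W) (e : Ch M) (u : M → V) (z : C2) :
    loc0 0 e (fun y => T (u y)) z = T (loc0 0 e u z) := by simp [loc0]

theorem loc1_clm (T : V →L[ℂ] W) (e : Ch M) (u : M → Fin 2 → V) (z : C2) (i : Fin 2) :
    loc1 0 e (fun y i => T (u y i)) z i = T (loc1 0 e u z i) := by simp [loc1]

theorem loc2_clm (T : V →L[ℂ] W) (e : Ch M) (u : M → V) (z : C2) :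
    loc2 0 e (fun y => T (u y)) z = T (loc2 0 e u z) := by simp [loc2]

theorem contDiff_clm (T : V →L[ℂ] W) {n : WithTop ℕ∞} : ContDiff ℝ n fun v => T v :=
  (T.restrictScalars ℝ).contDiff

theorem S0.clm (T : V →L[ℂ] W) {u : M → V} {x : M} (hu : S0 u x) : S0 (fun y => T (u y)) x :=
  ContDiffAt.congr_of_eventuallyEq ((contDiff_clm T).contDiffAt.comp _ hu)
    (Eventually.of_forall fun z => loc0_clm T _ _ z)

theorem S1.clm (T : V →L[ℂ] W) {u : M → Fin 2 → V} {x : M} (hu : S1 u x) :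
    S1 (fun y i => T (u y i)) x :=
  contDiffAt_pi.2 fun i => ContDiffAt.congr_of_eventuallyEq
    ((contDiff_clm T).contDiffAt.comp _ (hu.comp i))
    (Eventually.of_forall fun z => loc1_clm T _ _ z i)

theorem S2.clm (T : V →L[ℂ] W) {u : M → V} {x : M} (hu : S2 u x) : S2 (fun y => T (u y)) x :=
  ContDiffAt.congr_of_eventuallyEq ((contDiff_clm T).contDiffAt.comp _ hu)
    (Eventually.of_forall fun z => loc2_clm T _ _ z)

theorem S0.neg {u : M → V} {x : M} (hu : S0 u x) : S0 (fun y => -u y) x :=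
  hu.clm (-ContinuousLinearMap.id ℂ V)

theorem S1.neg {u : M → Fin 2 → V} {x : M} (hu : S1 u x) : S1 (fun y i => -u y i) x :=
  hu.clm (-ContinuousLinearMap.id ℂ V)

theorem S2.neg {u : M → V} {x : M} (hu : S2 u x) : S2 (fun y => -u y) x :=
  hu.clm (-ContinuousLinearMap.id ℂ V)

theorem S0.sub {u v : M → V} {x : M} (hu : S0 u x) (hv : S0 v x) : S0 (fun y => u y - v y) x := by
  simpa only [sub_eq_add_neg] using hu.add hv.neg

theorem S1.sub {u v : M → Fin 2 → V} {x : M} (hu : S1 u x) (hv : S1 v x) :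
    S1 (fun y i => u y i - v y i) x := by
  simpa only [sub_eq_add_neg] using hu.add hv.neg

theorem S2.sub {u v : M → V} {x : M} (hu : S2 u x) (hv : S2 v x) : S2 (fun y => u y - v y) x := by
  simpa only [sub_eq_add_neg] using hu.add hv.neg

theorem S0.const (c : V) (x : M) : S0 (fun _ => c) x := by
  have : loc0 0 (chartAt C2 x) (fun _ : M => c) = fun _ => c := by funext z; simp [loc0]
  rw [S0, this]
  exact contDiffAt_const

theorem S1.zero (x : M) : S1 (fun _ _ => (0 : V)) x := by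
  have : loc1 0 (chartAt C2 x) (fun (_ : M) _ => (0 : V)) = fun _ => 0 := by
    funext z i; simp [loc1]
  rw [S1, this]
  exact contDiffAt_const

theorem S2.zero (x : M) : S2 (fun _ => (0 : V)) x := by
  have : loc2 0 (chartAt C2 x) (fun _ : M => (0 : V)) = fun _ => 0 := by
    funext z; simp [loc2]
  rw [S2, this]
  exact contDiffAt_const

theorem dbar0_clm (T : V →L[ℂ] W) {u : M → V} {x : M} (hu : S0 u x) (i : Fin 2) :
    dbar0 0 (fun y => T (u y)) x i = T (dbar0 0 u x i) := by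
  have h1 : loc0 0 (chartAt C2 x) (fun y => T (u y)) = fun z => T (loc0 0 (chartAt C2 x) u z) :=
    funext fun z => loc0_clm T _ _ z
  rw [dbar0, h1, dzb_clm T hu.diff]
  rfl

theorem dbar1_clm (T : V →L[ℂ] W) {w : M → Fin 2 → V} {x : M} (hw : S1 w x) :
    dbar1 0 (fun y i => T (w y i)) x = T (dbar1 0 w x) := by
  have h1 : ∀ i, (fun z => loc1 0 (chartAt C2 x) (fun y i => T (w y i)) z i) =
      fun z => T (loc1 0 (chartAt C2 x) w z i) := fun i => funext fun z => loc1_clm T _ _ z i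
  rw [dbar1, h1, h1, dzb_clm T (hw.diff 1), dzb_clm T (hw.diff 0), dbar1, map_sub]

theorem dbar0_add {u v : M → V} {x : M} (hu : S0 u x) (hv : S0 v x) (i : Fin 2) :
    dbar0 0 (fun y => u y + v y) x i = dbar0 0 u x i + dbar0 0 v x i := by
  have h1 : loc0 0 (chartAt C2 x) (fun y => u y + v y) =
      fun z => loc0 0 (chartAt C2 x) u z + loc0 0 (chartAt C2 x) v z :=
    funext fun z => loc0_add _ _ _ z
  rw [dbar0, h1, dzb_add hu.diff hv.diff]
  rfl

theorem dbar1_add {u v : M → Fin 2 → V} {x : M} (hu : S1 u x) (hv : S1 v x) :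
    dbar1 0 (fun y i => u y i + v y i) x = dbar1 0 u x + dbar1 0 v x := by
  have h1 : ∀ i, (fun z => loc1 0 (chartAt C2 x) (fun y i => u y i + v y i) z i) =
      fun z => loc1 0 (chartAt C2 x) u z i + loc1 0 (chartAt C2 x) v z i :=
    fun i => funext fun z => loc1_add _ _ _ z i
  rw [dbar1, h1, h1, dzb_add (hu.diff 1) (hv.diff 1), dzb_add (hu.diff 0) (hv.diff 0), dbar1, dbar1]
  abel

theorem dbar0_neg {u : M → V} {x : M} (hu : S0 u x) (i : Fin 2) :
    dbar0 0 (fun y => -u y) x i = -dbar0 0 u x i :=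
  dbar0_clm (-ContinuousLinearMap.id ℂ V) hu i

theorem dbar1_neg {u : M → Fin 2 → V} {x : M} (hu : S1 u x) :
    dbar1 0 (fun y i => -u y i) x = -dbar1 0 u x :=
  dbar1_clm (-ContinuousLinearMap.id ℂ V) hu

theorem dbar0_sub {u v : M → V} {x : M} (hu : S0 u x) (hv : S0 v x) (i : Fin 2) :
    dbar0 0 (fun y => u y - v y) x i = dbar0 0 u x i - dbar0 0 v x i := by
  have := dbar0_add hu hv.neg i
  rw [dbar0_neg hv] at this
  simpa only [sub_eq_add_neg] using this

theorem dbar1_sub {u v : M → Fin 2 → V} {x : M} (hu : S1 u x) (hv : S1 v x) :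
    dbar1 0 (fun y i => u y i - v y i) x = dbar1 0 u x - dbar1 0 v x := by
  have := dbar1_add hu hv.neg
  rw [dbar1_neg hv] at this
  simpa only [sub_eq_add_neg] using this

theorem dbar0_const (c : V) (x : M) (i : Fin 2) : dbar0 0 (fun _ => c) x i = 0 := by
  have : loc0 0 (chartAt C2 x) (fun _ : M => c) = fun _ => c := by funext z; simp [loc0]
  rw [dbar0, this, dzb_const]

theorem dbar1_zero (x : M) : dbar1 0 (fun _ _ => (0 : V)) x = 0 := by
  have : loc1 0 (chartAt C2 x) (fun (_ : M) _ => (0 : V)) = fun _ _ => 0 := by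
    funext z i; simp [loc1]
  rw [dbar1, this]
  simp

/-! ### scalar multiplication -/

theorem S0.smul {φ : M → ℂ} {u : M → V} {x : M} (hφ : S0 φ x) (hu : S0 u x) :
    S0 (fun y => φ y • u y) x := S0.bil (ContinuousLinearMap.lsmul ℂ ℂ) hφ hu

theorem S0.mul {φ u : M → ℂ} {x : M} (hφ : S0 φ x) (hu : S0 u x) :
    S0 (fun y => φ y * u y) x := S0.bil (ContinuousLinearMap.lsmul ℂ ℂ) hφ hu

theorem S1.smul {φ : M → ℂ} {w : M → Fin 2 → V} {x : M} (hφ : S0 φ x) (hw : S1 w x) :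
    S1 (fun y i => φ y • w y i) x := S1.bil (ContinuousLinearMap.lsmul ℂ ℂ) hφ hw

theorem S1.mul {φ : M → ℂ} {w : M → Fin 2 → ℂ} {x : M} (hφ : S0 φ x) (hw : S1 w x) :
    S1 (fun y i => φ y * w y i) x := S1.bil (ContinuousLinearMap.lsmul ℂ ℂ) hφ hw

theorem S1.smul' {w : M → Fin 2 → ℂ} {u : M → V} {x : M} (hw : S1 w x) (hu : S0 u x) :
    S1 (fun y i => w y i • u y) x := S1.bil' (ContinuousLinearMap.lsmul ℂ ℂ) hw hu

theorem S2.smul {φ : M → ℂ} {b : M → V} {x : M} (hφ : S0 φ x) (hb : S2 b x) :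
    S2 (fun y => φ y • b y) x := S2.bil (ContinuousLinearMap.lsmul ℂ ℂ) hφ hb

theorem S2.mul {φ : M → ℂ} {b : M → ℂ} {x : M} (hφ : S0 φ x) (hb : S2 b x) :
    S2 (fun y => φ y * b y) x := S2.bil (ContinuousLinearMap.lsmul ℂ ℂ) hφ hb

theorem S2.smul' {b : M → ℂ} {u : M → V} {x : M} (hb : S2 b x) (hu : S0 u x) :
    S2 (fun y => b y • u y) x := by
  have := S2.bil ((ContinuousLinearMap.lsmul ℂ ℂ : ℂ →L[ℂ] V →L[ℂ] V).flip) hu hb
  simpa using this

theorem dbar0_smul [IsManifold 𝓘(ℂ, C2) ω M] {φ : M → ℂ} {u : M → V} {x : M} (hφ : S0 φ x)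
    (hu : S0 u x) (i : Fin 2) :
    dbar0 0 (fun y => φ y • u y) x i = dbar0 0 φ x i • u x + φ x • dbar0 0 u x i :=
  dbar0_bil (ContinuousLinearMap.lsmul ℂ ℂ) hφ hu i

theorem dbar0_mul [IsManifold 𝓘(ℂ, C2) ω M] {φ u : M → ℂ} {x : M} (hφ : S0 φ x)
    (hu : S0 u x) (i : Fin 2) :
    dbar0 0 (fun y => φ y * u y) x i = dbar0 0 φ x i * u x + φ x * dbar0 0 u x i :=
  dbar0_bil (ContinuousLinearMap.lsmul ℂ ℂ) hφ hu i

theorem dbar1_smul [IsManifold 𝓘(ℂ, C2) ω M] {φ : M → ℂ} {w : M → Fin 2 → V} {x : M}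
    (hφ : S0 φ x) (hw : S1 w x) :
    dbar1 0 (fun y i => φ y • w y i) x =
      (dbar0 0 φ x 0 • w x 1 - dbar0 0 φ x 1 • w x 0) + φ x • dbar1 0 w x :=
  dbar1_bil (ContinuousLinearMap.lsmul ℂ ℂ) hφ hw

theorem dbar1_mul [IsManifold 𝓘(ℂ, C2) ω M] {φ : M → ℂ} {w : M → Fin 2 → ℂ} {x : M}
    (hφ : S0 φ x) (hw : S1 w x) :
    dbar1 0 (fun y i => φ y * w y i) x =
      (dbar0 0 φ x 0 * w x 1 - dbar0 0 φ x 1 * w x 0) + φ x * dbar1 0 w x :=
  dbar1_bil (ContinuousLinearMap.lsmul ℂ ℂ) hφ hw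

/-! ### composition with smooth functions -/

theorem S0.conj {u : M → ℂ} {x : M} (hu : S0 u x) : S0 (fun y => conj (u y)) x := by
  have := (Complex.conjCLE.contDiff (n := ∞)).contDiffAt.comp _ hu
  refine ContDiffAt.congr_of_eventuallyEq this (Eventually.of_forall fun z => ?_)
  simp [loc0]

theorem S0.inv {u : M → ℂ} {x : M} (hu : S0 u x) (h0 : u x ≠ 0) : S0 (fun y => (u y)⁻¹) x := by
  have h1 : loc0 0 (chartAt C2 x) u (chartAt C2 x x) ≠ 0 := by
    simpa [loc0, (chartAt C2 x).left_inv (mem_chart_source C2 x)] using h0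
  have := ContDiffAt.inv hu h1
  refine ContDiffAt.congr_of_eventuallyEq this (Eventually.of_forall fun z => ?_)
  simp [loc0]

theorem S0.cexp {u : M → ℂ} {x : M} (hu : S0 u x) : S0 (fun y => Complex.exp (u y)) x := by
  have := ContDiffAt.cexp hu
  refine ContDiffAt.congr_of_eventuallyEq this (Eventually.of_forall fun z => ?_)
  simp [loc0]

/-- composition of a real smooth function of one variable with a real function -/
theorem S0.real_comp {f : M → ℝ} {g : ℝ → ℝ} {x : M} (hf : S0 (fun y => (f y : ℂ)) x)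
    (hg : ContDiff ℝ ∞ g) : S0 (fun y => ((g (f y) : ℝ) : ℂ)) x := by
  have h1 : ContDiff ℝ ∞ fun z : ℂ => ((g z.re : ℝ) : ℂ) :=
    Complex.ofRealCLM.contDiff.comp (hg.comp Complex.reCLM.contDiff)
  have := h1.contDiffAt.comp _ hf
  refine ContDiffAt.congr_of_eventuallyEq this (Eventually.of_forall fun z => ?_)
  simp [loc0]

theorem dbar0_cexp [IsManifold 𝓘(ℂ, C2) ω M] {u : M → ℂ} {x : M} (hu : S0 u x) (i : Fin 2) :
    dbar0 0 (fun y => Complex.exp (u y)) x i = Complex.exp (u x) * dbar0 0 u x i := by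
  have h1 : loc0 0 (chartAt C2 x) (fun y => Complex.exp (u y)) =
      fun z => Complex.exp (loc0 0 (chartAt C2 x) u z) := funext fun z => by simp [loc0]
  have h2 : HasFDerivAt (𝕜 := ℝ) (fun z => Complex.exp (loc0 0 (chartAt C2 x) u z)) _
      (chartAt C2 x x) := hu.diff.hasFDerivAt.cexp
  rw [dbar0, h1, dzb, h2.fderiv]
  simp only [smul_apply, loc0_chartAt, smul_eq_mul, dbar0, dzb]
  ring

/-! ### `∂̄` of smooth is smooth, `∂̄∂̄ = 0` -/

variable [IsManifold 𝓘(ℂ, C2) ω M]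

theorem loc1_dbar0_eventually {u : M → V} {x : M} (hu : S0 u x) :
    ∀ᶠ z in 𝓝 (chartAt C2 x x), ∀ i, loc1 0 (chartAt C2 x) (dbar0 0 u) z i =
      dzb i (loc0 0 (chartAt C2 x) u) z := by
  have h1 : ∀ᶠ z in 𝓝 (chartAt C2 x x), ContDiffAt ℝ 1 (loc0 0 (chartAt C2 x) u) z :=
    ContDiffAt.eventually (hu.of_le (by simp)) (by simp)
  filter_upwards [h1, (chartAt C2 x).open_target.mem_nhds (mem_chart_target C2 x)] with z hz hz' i
  exact loc1_dbar0 (chart_mem_atlas C2 x) hz' (hz.differentiableAt (by simp)) i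

theorem S0.dbar {u : M → V} {x : M} (hu : S0 u x) : S1 (dbar0 0 u) x := by
  refine contDiffAt_pi.2 fun i => ?_
  have h1 : ContDiffAt ℝ ∞ (dzb i (loc0 0 (chartAt C2 x) u)) (chartAt C2 x x) :=
    contDiffAt_dzb hu (by simp) i
  refine h1.congr_of_eventuallyEq ?_
  filter_upwards [loc1_dbar0_eventually hu] with z hz
  exact hz i

theorem S1.dbar {w : M → Fin 2 → V} {x : M} (hw : S1 w x) : S2 (dbar1 0 w) x := by
  have h1 : ∀ i j, ContDiffAt ℝ ∞ (dzb i fun z => loc1 0 (chartAt C2 x) w z j) (chartAt C2 x x) :=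
    fun i j => contDiffAt_dzb (hw.comp j) (by simp) i
  refine ((h1 0 1).sub (h1 1 0)).congr_of_eventuallyEq ?_
  have h2 : ∀ᶠ z in 𝓝 (chartAt C2 x x), ContDiffAt ℝ 1 (loc1 0 (chartAt C2 x) w) z :=
    ContDiffAt.eventually (hw.of_le (by simp)) (by simp)
  filter_upwards [h2, (chartAt C2 x).open_target.mem_nhds (mem_chart_target C2 x)] with z hz hz'
  exact loc2_dbar1 (chart_mem_atlas C2 x) hz' (hz.differentiableAt (by simp))

theorem dbar1_dbar0 {u : M → V} {x : M} (hu : S0 u x) : dbar1 0 (dbar0 0 u) x = 0 := by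
  have h1 : ∀ i, (fun z => loc1 0 (chartAt C2 x) (dbar0 0 u) z i) =ᶠ[𝓝 (chartAt C2 x x)]
      dzb i (loc0 0 (chartAt C2 x) u) := fun i => by
    filter_upwards [loc1_dbar0_eventually hu] with z hz using hz i
  rw [dbar1, dzb_congr (h1 1), dzb_congr (h1 0), dzb_dzb_comm (hu.of_le (WithTop.coe_le_coe.2 le_top)), sub_self]

theorem reg0 {u : M → V} : Reg0 ∞ 0 u ↔ ∀ x, S0 u x := reg0_iff
theorem reg1 {w : M → Fin 2 → V} : Reg1 ∞ 0 w ↔ ∀ x, S1 w x := reg1_iff
theorem reg2 {b : M → V} : Reg2 ∞ 0 b ↔ ∀ x, S2 b x := reg2_iff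

theorem S0.continuousAt {u : M → V} {x : M} (hu : S0 u x) : ContinuousAt u x := by
  have h1 : ContinuousAt (loc0 0 (chartAt C2 x) u) (chartAt C2 x x) := ContDiffAt.continuousAt hu
  have h2 : ContinuousAt (fun y => loc0 0 (chartAt C2 x) u (chartAt C2 x y)) x :=
    ContinuousAt.comp h1 ((chartAt C2 x).continuousAt (mem_chart_source C2 x))
  refine h2.congr ?_
  filter_upwards [(chartAt C2 x).open_source.mem_nhds (mem_chart_source C2 x)] with y hy
  simp [loc0, (chartAt C2 x).left_inv hy]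

end Vale.Agent.P267.H692
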