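import Vale.Agent.P267.H692.Nrm

/-!
# P267 / XT-CONE: the cone of `α`, part 1: (C-i), (C-ii), pole functions
-/

set_option linter.unusedSectionVars false

open scoped Manifold ContDiff ComplexConjugate Matrix ComplexOrder
open Set Filter Topology

noncomputable section

namespace Vale.Agent.P267.H692

open Vale.Agent.P267.FL Vale.Agent.P267.XT

variable {M : Type} [TopologicalSpace M] [ChartedSpace C2 M] [IsManifold 𝓘(ℂ, C2) ω M]
variable {ι : Type} [Fintype ι] [DecidableEq ι]

/-! ### linear algebra of the projector -/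

theorem proj_eq {P : Matrix ι ι ℂ} (hP : Pᴴ = P) (hPP : P * P = P) (htr : P.trace = 1)
    {v : EuclideanSpace ℂ ι} (hv : LB.act P v = v) (hv0 : v ≠ 0) (i j : ι) :
    P i j = v i * conj (v j) * ((∑ l, v l * conj (v l))⁻¹ : ℂ) := by
  set c : ℂ := ∑ l, v l * conj (v l) with hc
  have hc0 : c ≠ 0 := by
    have h1 : c = ((∑ l, ‖v l‖ ^ 2 : ℝ) : ℂ) := by
      rw [hc]; push_cast
      exact Finset.sum_congr rfl fun l _ => by
        rw [Complex.mul_conj, Complex.normSq_eq_norm_sq]; push_cast; rfl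
    rw [h1]
    norm_cast
    intro h0
    apply hv0
    ext l
    have := (Finset.sum_eq_zero_iff_of_nonneg (fun l _ => sq_nonneg ‖v l‖)).1 h0 l
      (Finset.mem_univ l)
    simpa using this
  have hcc : conj c = c := by
    rw [hc, map_sum]
    exact Finset.sum_congr rfl fun l _ => by rw [map_mul, Complex.conj_conj, mul_comm]
  set Q : Matrix ι ι ℂ := Matrix.of fun i j => v i * conj (v j) * c⁻¹ with hQ
  have hPv : ∀ i, ∑ l, P i l * v l = v i := fun i => by
    have := congrArg (fun w : EuclideanSpace ℂ ι => w i) hv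
    simpa [LB.act, Matrix.mulVec, dotProduct] using this
  have hQH : Qᴴ = Q := by
    ext i j
    simp only [hQ, Matrix.conjTranspose_apply, Matrix.of_apply, RCLike.star_def, map_mul,
      Complex.conj_conj, map_inv₀, hcc]
    ring
  have hPQ : P * Q = Q := by
    ext i j
    simp only [hQ, Matrix.mul_apply, Matrix.of_apply]
    rw [← hPv i, Finset.sum_mul, Finset.sum_mul]
    exact Finset.sum_congr rfl fun l _ => by ring
  have hQP : Q * P = Q := by
    have := congrArg Matrix.conjTranspose hPQ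
    rwa [Matrix.conjTranspose_mul, hP, hQH] at this
  have hQQ : Q * Q = Q := by
    ext i j
    simp only [hQ, Matrix.mul_apply, Matrix.of_apply]
    have : ∀ l, v i * conj (v l) * c⁻¹ * (v l * conj (v j) * c⁻¹) =
        (v l * conj (v l)) * (v i * conj (v j) * c⁻¹ * c⁻¹) := fun l => by ring
    simp only [this]
    rw [← Finset.sum_mul, ← hc]
    field_simp
  have hQtr : Q.trace = 1 := by
    simp only [Matrix.trace, hQ, Matrix.diag_apply, Matrix.of_apply]
    rw [← Finset.sum_mul, ← hc, mul_inv_cancel₀ hc0]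
  have hR : (P - Q)ᴴ * (P - Q) = P - Q := by
    rw [Matrix.conjTranspose_sub, hP, hQH, Matrix.mul_sub, Matrix.sub_mul, Matrix.sub_mul, hPP,
      hPQ, hQP, hQQ]
    abel
  have hz : P - Q = 0 := by
    rw [← Matrix.trace_conjTranspose_mul_self_eq_zero_iff, hR, Matrix.trace_sub, htr, hQtr,
      sub_self]
  have := congrFun (congrFun (sub_eq_zero.1 hz) i) j
  rw [this, hQ]
  rfl

theorem dual_eq_zero (L : LB M ι) {x : M} {v w : EuclideanSpace ℂ ι}
    (hv : LB.act (L.P x) v = v) (hv0 : v ≠ 0) (hw : LB.act (L.dual.P x) w = w)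
    (h : pair v w = 0) : w = 0 := by
  ext i
  have h1 := congrArg (fun w : EuclideanSpace ℂ ι => w i) hw
  simp only [LB.act, LB.dual, Matrix.mulVec, dotProduct, Matrix.transpose_apply] at h1
  rw [← h1]
  have h2 : ∀ l, L.P x l i * w l =
      (v l * w l) * (conj (v i) * ((∑ l, v l * conj (v l))⁻¹ : ℂ)) := fun l => by
    rw [proj_eq (L.herm x) (L.idem x) (L.tr x) hv hv0]; ring
  simp only [h2]
  rw [← Finset.sum_mul]
  have h3 : ∑ l, v l * w l = 0 := h
  rw [h3, zero_mul]
  rfl

/-- the inverse of the section `α`: `ᾱ / |α|²` -/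
def ainv (α : M → EuclideanSpace ℂ ι) (x : M) : EuclideanSpace ℂ ι :=
  (∑ l, α x l * conj (α x l))⁻¹ • WithLp.toLp 2 fun i => conj (α x i)

theorem pair_ainv {α : M → EuclideanSpace ℂ ι} {x : M} (h : α x ≠ 0) :
    pair (α x) (ainv α x) = 1 := by
  rw [ainv, pair_smul_right]
  have h1 : pair (α x) (WithLp.toLp 2 fun i => conj (α x i)) = ∑ l, α x l * conj (α x l) := rfl
  rw [h1]
  refine inv_mul_cancel₀ ?_
  have h1 : (∑ l, α x l * conj (α x l)) = ((∑ l, ‖α x l‖ ^ 2 : ℝ) : ℂ) := by
    push_cast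
    exact Finset.sum_congr rfl fun l _ => by
      rw [Complex.mul_conj, Complex.normSq_eq_norm_sq]; push_cast; rfl
  rw [h1]
  norm_cast
  intro h0
  apply h
  ext l
  have := (Finset.sum_eq_zero_iff_of_nonneg (fun l _ => sq_nonneg ‖α x l‖)).1 h0 l
    (Finset.mem_univ l)
  simpa using this

theorem sec_ainv {L : LB M ι} {α : M → EuclideanSpace ℂ ι} (hα : L.Sec α) :
    L.dual.Sec (ainv α) := by
  intro x
  have h1 : LB.act (L.dual.P x) (WithLp.toLp 2 fun i => conj (α x i)) =
      WithLp.toLp 2 fun i => conj (α x i) := by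
    ext i
    have h2 := congrArg (fun w : EuclideanSpace ℂ ι => w i) (hα x)
    simp only [LB.act, Matrix.mulVec, dotProduct] at h2
    simp only [LB.act, LB.dual, Matrix.mulVec, dotProduct, Matrix.transpose_apply]
    rw [← h2, map_sum]
    refine Finset.sum_congr rfl fun l _ => ?_
    have h3 := congrFun (congrFun (L.herm x) l) i
    simp only [Matrix.conjTranspose_apply, RCLike.star_def] at h3
    rw [map_mul, h3]
  rw [ainv, act_eq_clm, map_smul, ← act_eq_clm, h1]

/-! ### smoothness of `ainv`, `act` -/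

theorem S0.comp_coord {α : M → EuclideanSpace ℂ ι} {x : M} (h : S0 α x) (i : ι) :
    S0 (fun y => α y i) x := h.clm (EuclideanSpace.proj (𝕜 := ℂ) i)

theorem S0.sum {V : Type*} [NormedAddCommGroup V] [NormedSpace ℂ V] {κ : Type*} (s : Finset κ)
    {u : κ → M → V} {x : M} (h : ∀ i ∈ s, S0 (u i) x) : S0 (fun y => ∑ i ∈ s, u i y) x := by
  classical
  induction s using Finset.induction_on with
  | empty => simpa using S0.const (0 : V) x
  | insert i s hi ih =>
    simp only [Finset.sum_insert hi]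
    exact (h i (by simp)).add (ih fun k hk => h k (by simp [hk]))

theorem S1.sum {V : Type*} [NormedAddCommGroup V] [NormedSpace ℂ V] {κ : Type*} (s : Finset κ)
    {u : κ → M → Fin 2 → V} {x : M} (h : ∀ i ∈ s, S1 (u i) x) :
    S1 (fun y j => ∑ i ∈ s, u i y j) x := by
  classical
  induction s using Finset.induction_on with
  | empty => simpa using S1.zero (V := V) x
  | insert i s hi ih =>
    simp only [Finset.sum_insert hi]
    exact (h i (by simp)).add (ih fun k hk => h k (by simp [hk]))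

theorem S2.sum {V : Type*} [NormedAddCommGroup V] [NormedSpace ℂ V] {κ : Type*} (s : Finset κ)
    {u : κ → M → V} {x : M} (h : ∀ i ∈ s, S2 (u i) x) : S2 (fun y => ∑ i ∈ s, u i y) x := by
  classical
  induction s using Finset.induction_on with
  | empty => simpa using S2.zero (V := V) x
  | insert i s hi ih =>
    simp only [Finset.sum_insert hi]
    exact (h i (by simp)).add (ih fun k hk => h k (by simp [hk]))

/-- the elementary operators `v ↦ v j e_i` -/
def elem (i j : ι) : EuclideanSpace ℂ ι →L[ℂ] EuclideanSpace ℂ ι :=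
  (EuclideanSpace.proj (𝕜 := ℂ) j).smulRight (EuclideanSpace.single i (1 : ℂ))

theorem act_eq_sum (P : Matrix ι ι ℂ) (v : EuclideanSpace ℂ ι) :
    LB.act P v = ∑ i, ∑ j, P i j • elem i j v := by
  ext l
  simp [LB.act, elem, Matrix.mulVec, dotProduct, Finset.sum_apply, Pi.single_apply,
    Finset.sum_ite_eq, eq_comm]

theorem S0.ofP (L : LB M ι) (x : M) (i j : ι) : S0 (fun y => L.P y i j) x :=
  reg0.1 (L.smooth i j) x

theorem S0.act (L : LB M ι) {s : M → EuclideanSpace ℂ ι} {x : M} (hs : S0 s x) :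
    S0 (fun y => LB.act (L.P y) (s y)) x := by
  simp only [act_eq_sum]
  exact S0.sum _ fun i _ => S0.sum _ fun j _ => (S0.ofP L x i j).smul (hs.clm (elem i j))

theorem S1.act (L : LB M ι) {w : M → Fin 2 → EuclideanSpace ℂ ι} {x : M} (hw : S1 w x) :
    S1 (fun y i => LB.act (L.P y) (w y i)) x := by
  simp only [act_eq_sum]
  exact S1.sum _ fun i _ => S1.sum _ fun j _ => S1.smul (S0.ofP L x i j) (hw.clm (elem i j))

theorem S2.act (L : LB M ι) {b : M → EuclideanSpace ℂ ι} {x : M} (hb : S2 b x) :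
    S2 (fun y => LB.act (L.P y) (b y)) x := by
  simp only [act_eq_sum]
  exact S2.sum _ fun i _ => S2.sum _ fun j _ => S2.smul (S0.ofP L x i j) (hb.clm (elem i j))

theorem S0.db0 (L : LB M ι) {a : M → Fin 2 → ℂ} {s : M → EuclideanSpace ℂ ι} {x : M}
    (ha : S1 a x) (hs : S0 s x) : S1 (L.db0 a 0 s) x :=
  (S1.act L hs.dbar).add (S1.smul' ha hs)

theorem S1.db1 (L : LB M ι) {a : M → Fin 2 → ℂ} {w : M → Fin 2 → EuclideanSpace ℂ ι} {x : M}
    (ha : S1 a x) (hw : S1 w x) : S2 (L.db1 a 0 w) x :=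
  (S2.act L hw.dbar).add (S2.wedge (ContinuousLinearMap.lsmul ℂ ℂ) ha hw)

theorem S0.ainv {α : M → EuclideanSpace ℂ ι} {x : M} (hα : S0 α x) (h0 : α x ≠ 0) :
    S0 (ainv α) x := by
  have h1 : S0 (fun y => ∑ l, α y l * conj (α y l)) x :=
    S0.sum _ fun l _ => (hα.comp_coord l).mul (hα.comp_coord l).conj
  have h2 : S0 (fun y => (WithLp.toLp 2 fun i => conj (α y i) : EuclideanSpace ℂ ι)) x := by
    have : (fun y => (WithLp.toLp 2 fun i => conj (α y i) : EuclideanSpace ℂ ι)) =
        fun y => ∑ i, conj (α y i) • EuclideanSpace.single i (1 : ℂ) := by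
      funext y
      ext l
      simp [Finset.sum_apply, Pi.single_apply, eq_comm]
    rw [this]
    exact S0.sum _ fun i _ => (hα.comp_coord i).conj.smul (S0.const _ x)
  refine (h1.inv ?_).smul h2
  intro h3
  have h4 := pair_ainv h0
  rw [H692.ainv, h3, inv_zero, zero_smul, pair_zero_right] at h4
  exact zero_ne_one h4

/-! ### `∂̄` of a pairing with a holomorphic section -/

theorem dbar0_pair {L : LB M ι} {a : M → Fin 2 → ℂ} {α t : M → EuclideanSpace ℂ ι} {x : M}
    (hα : S0 α x) (hαs : L.Sec α) (hα0 : ∀ i, L.db0 a 0 α x i = 0) (ht : S0 t x)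
    (hts : L.dual.Sec t) (i : Fin 2) :
    dbar0 0 (fun y => pair (α y) (t y)) x i = pair (α x) (L.dual.db0 (neg a) 0 t x i) := by
  have h1 := dbar0_bil pairL hα ht i
  simp only [pairL_apply] at h1
  rw [h1]
  have h2 : pair (dbar0 0 α x i) (t x) = -(a x i * pair (α x) (t x)) := by
    have h3 := hα0 i
    rw [LB.db0] at h3
    have h4 : LB.act (L.P x) (dbar0 0 α x i) = (-a x i) • α x := by
      rw [neg_smul]; exact eq_neg_of_add_eq_zero_left h3
    conv_lhs => rw [← hts x]
    have h5 := pair_act (L.P x) (dbar0 0 α x i) (t x)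
    rw [h4, pair_smul_left] at h5
    rw [LB.dual, ← h5]
    ring
  have h3 : pair (α x) (dbar0 0 t x i) = pair (α x) (LB.act (L.dual.P x) (dbar0 0 t x i)) := by
    conv_lhs => rw [← hαs x]
    exact pair_act _ _ _
  rw [h2, h3, LB.db0, pair_add_right, pair_smul_right]
  ring

theorem dbar1_pair {L : LB M ι} {a : M → Fin 2 → ℂ} {α : M → EuclideanSpace ℂ ι}
    {η : M → Fin 2 → EuclideanSpace ℂ ι} {x : M}
    (hα : S0 α x) (hαs : L.Sec α) (hα0 : ∀ i, L.db0 a 0 α x i = 0) (hη : S1 η x)
    (hηs : L.dual.Sec1 η) :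
    dbar1 0 (fun y i => pair (α y) (η y i)) x = pair (α x) (L.dual.db1 (neg a) 0 η x) := by
  have h1 := dbar1_bil pairL hα hη
  simp only [pairL_apply] at h1
  rw [h1]
  have h2 : ∀ i j, pair (dbar0 0 α x i) (η x j) = -(a x i * pair (α x) (η x j)) := by
    intro i j
    have h3 := hα0 i
    rw [LB.db0] at h3
    have h4 : LB.act (L.P x) (dbar0 0 α x i) = (-a x i) • α x := by
      rw [neg_smul]; exact eq_neg_of_add_eq_zero_left h3
    conv_lhs => rw [← hηs x j]
    have h5 := pair_act (L.P x) (dbar0 0 α x i) (η x j)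
    rw [h4, pair_smul_left] at h5
    rw [LB.dual, ← h5]
    ring
  have h3 : pair (α x) (dbar1 0 η x) = pair (α x) (LB.act (L.dual.P x) (dbar1 0 η x)) := by
    conv_lhs => rw [← hαs x]
    exact pair_act _ _ _
  rw [h2, h2, h3, LB.db1, pair_add_right, pair_sub_right, pair_smul_right, pair_smul_right]
  ring

end Vale.Agent.P267.H692
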