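import Vale.Agent.P267.H692.Cone1

/-!
# P267 / XT-CONE, part 2: cut-offs, weights, (C-i), (C-ii), pole functions
-/

set_option linter.unusedSectionVars false

open scoped Manifold ContDiff ComplexConjugate Matrix ComplexOrder
open Set Filter Topology

noncomputable section

namespace Vale.Agent.P267.H692

open Vale.Agent.P267.FL Vale.Agent.P267.XT

variable {M : Type} [TopologicalSpace M] [ChartedSpace C2 M] [IsManifold 𝓘(ℂ, C2) ω M]
variable {ι : Type} [Fintype ι] [DecidableEq ι]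
variable (D : XTData M)

/-! ### cut-offs -/

/-- the cut-off function: `1` for `f ≤ s`, `0` for `f ≥ t` -/
def cut (s t : ℝ) (x : M) : ℂ := ((1 - Real.smoothTransition ((D.f x - s) / (t - s)) : ℝ) : ℂ)

theorem cut_eq_one {s t : ℝ} (hst : s < t) {x : M} (hx : D.f x ≤ s) : cut D s t x = 1 := by
  rw [cut, Real.smoothTransition.zero_of_nonpos]
  · simp
  · exact div_nonpos_of_nonpos_of_nonneg (by linarith) (by linarith)

theorem cut_eq_zero {s t : ℝ} (hst : s < t) {x : M} (hx : t ≤ D.f x) : cut D s t x = 0 := by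
  rw [cut, Real.smoothTransition.one_of_one_le]
  · simp
  · rw [one_le_div (by linarith)]; linarith

theorem norm_cut_le (s t : ℝ) (x : M) : ‖cut D s t x‖ ≤ 1 := by
  rw [cut, Complex.norm_real, Real.norm_eq_abs, abs_le]
  have h1 := Real.smoothTransition.nonneg ((D.f x - s) / (t - s))
  have h2 := Real.smoothTransition.le_one ((D.f x - s) / (t - s))
  constructor <;> linarith

theorem S0.cut (s t : ℝ) (x : M) : S0 (cut D s t) x := by
  have h1 : S0 (fun y => (D.f y : ℂ)) x := reg0.1 D.f_smooth x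
  exact h1.real_comp (g := fun r => 1 - Real.smoothTransition ((r - s) / (t - s)))
    (contDiff_const.sub (Real.smoothTransition.contDiff.comp
      ((contDiff_id.sub contDiff_const).div_const _)))

theorem cut_eventually_one {s t : ℝ} (hst : s < t) {x : M} (hx : D.f x < s) :
    cut D s t =ᶠ[𝓝 x] fun _ => 1 := by
  filter_upwards [(continuous_f D).continuousAt.eventually (gt_mem_nhds hx)] with y hy
  exact cut_eq_one D hst hy.le

theorem cut_eventually_zero {s t : ℝ} (hst : s < t) {x : M} (hx : t < D.f x) :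
    cut D s t =ᶠ[𝓝 x] fun _ => 0 := by
  filter_upwards [(continuous_f D).continuousAt.eventually (lt_mem_nhds hx)] with y hy
  exact cut_eq_zero D hst hy.le

theorem dcut_eq_zero_of_lt {s t : ℝ} (hst : s < t) {x : M} (hx : D.f x < s) (i : Fin 2) :
    dbar0 0 (cut D s t) x i = 0 := by
  rw [dbar0_congr (cut_eventually_one D hst hx), dbar0_const]

theorem dcut_eq_zero_of_gt {s t : ℝ} (hst : s < t) {x : M} (hx : t < D.f x) (i : Fin 2) :
    dbar0 0 (cut D s t) x i = 0 := by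
  rw [dbar0_congr (cut_eventually_zero D hst hx), dbar0_const]

theorem hasCompactSupport_of_slab {V : Type*} [Zero V] {u : M → V} {s t : ℝ}
    (h : ∀ x, u x ≠ 0 → s ≤ D.f x ∧ D.f x ≤ t) : HasCompactSupport u :=
  (D.f_proper s t).of_isClosed_subset (isClosed_tsupport _)
    (closure_minimal h (isClosed_Icc.preimage (continuous_f D)))

/-! ### weights -/

section weights

variable {V : Type*} [NormedAddCommGroup V] [InnerProductSpace ℂ V]
variable {D}

theorem exists_nonneg_bound {g n : M → ℝ} {S : Set M} (hg : ∀ x, 0 < g x)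
    (h : ∃ C : ℝ, ∀ x ∈ S, n x ≤ C * g x) : ∃ C : ℝ, 0 ≤ C ∧ ∀ x ∈ S, n x ≤ C * g x := by
  obtain ⟨C, hC⟩ := h
  refine ⟨max C 0, le_max_right _ _, fun x hx => (hC x hx).trans ?_⟩
  exact mul_le_mul_of_nonneg_right (le_max_left _ _) (hg x).le

/-- a continuous function which vanishes for `f ≥ r` and has weight `-d` for `f ≤ s` has weight
`-d` -/
theorem weight_of_inner {n : M → ℝ} (hn : Continuous n) {r s d : ℝ}
    (h0 : ∀ x, r ≤ D.f x → n x ≤ 0)
    (hin : ∃ C : ℝ, ∀ x, D.f x ≤ s → n x ≤ C * Real.exp (-d * D.f x)) :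
    ∃ C : ℝ, ∀ x, n x ≤ C * Real.exp (-d * D.f x) := by
  obtain ⟨C, hC0, hC⟩ := exists_nonneg_bound (S := {x | D.f x ≤ s}) (fun x => Real.exp_pos _) hin
  have h1 : Continuous fun x => n x * Real.exp (d * D.f x) :=
    hn.mul (Real.continuous_exp.comp (continuous_const.mul (continuous_f D)))
  obtain ⟨B, hB⟩ := (D.f_proper s r).bddAbove_image h1.continuousOn
  refine ⟨max C B, fun x => ?_⟩
  rcases le_or_gt (D.f x) s with hs | hs
  · exact (hC x hs).trans (mul_le_mul_of_nonneg_right (le_max_left _ _) (Real.exp_pos _).le)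
  rcases le_or_gt r (D.f x) with hr | hr
  · refine (h0 x hr).trans (mul_nonneg (hC0.trans (le_max_left _ _)) (Real.exp_pos _).le)
  · have h3 : n x * Real.exp (d * D.f x) ≤ B := hB ⟨x, ⟨hs.le, hr.le⟩, rfl⟩
    calc n x = (n x * Real.exp (d * D.f x)) * Real.exp (-d * D.f x) := by
          rw [mul_assoc, ← Real.exp_add]; simp
      _ ≤ B * Real.exp (-d * D.f x) := mul_le_mul_of_nonneg_right h3 (Real.exp_pos _).le
      _ ≤ _ := mul_le_mul_of_nonneg_right (le_max_right _ _) (Real.exp_pos _).le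

/-- bounds at the inner end need only be checked for `f ≤ s` -/
theorem inner_of_inner {n : M → ℝ} (hn : Continuous n) {s ε : ℝ} (r : ℝ)
    (hin : ∃ C : ℝ, ∀ x, D.f x ≤ s → n x ≤ C * Real.exp (ε * D.f x)) :
    ∃ C : ℝ, ∀ x, D.f x ≤ r → n x ≤ C * Real.exp (ε * D.f x) := by
  obtain ⟨C, hC0, hC⟩ := exists_nonneg_bound (S := {x | D.f x ≤ s}) (fun x => Real.exp_pos _) hin
  have h1 : Continuous fun x => n x * Real.exp (-ε * D.f x) :=
    hn.mul (Real.continuous_exp.comp (continuous_const.mul (continuous_f D)))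
  obtain ⟨B, hB⟩ := (D.f_proper s r).bddAbove_image h1.continuousOn
  refine ⟨max C B, fun x hr => ?_⟩
  rcases le_or_gt (D.f x) s with hs | hs
  · exact (hC x hs).trans (mul_le_mul_of_nonneg_right (le_max_left _ _) (Real.exp_pos _).le)
  · have h3 : n x * Real.exp (-ε * D.f x) ≤ B := hB ⟨x, ⟨hs.le, hr⟩, rfl⟩
    calc n x = (n x * Real.exp (-ε * D.f x)) * Real.exp (ε * D.f x) := by
          rw [mul_assoc, ← Real.exp_add]; simp
      _ ≤ B * Real.exp (ε * D.f x) := mul_le_mul_of_nonneg_right h3 (Real.exp_pos _).le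
      _ ≤ _ := mul_le_mul_of_nonneg_right (le_max_right _ _) (Real.exp_pos _).le

theorem W0.add {d : ℝ} {u v : M → V} (hu : W0 D d u) (hv : W0 D d v) :
    W0 D d (fun x => u x + v x) := by
  refine ⟨reg0.2 fun x => (reg0.1 hu.reg x).add (reg0.1 hv.reg x), ?_⟩
  obtain ⟨C, hC⟩ := hu.bd
  obtain ⟨C', hC'⟩ := hv.bd
  exact ⟨C + C', fun x => (norm_add_le _ _).trans (by rw [add_mul]; exact add_le_add (hC x) (hC' x))⟩

theorem W0.const_smul {d : ℝ} {u : M → V} (c : ℂ) (hu : W0 D d u) :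
    W0 D d (fun x => c • u x) := by
  refine ⟨reg0.2 fun x => (S0.const c x).smul (reg0.1 hu.reg x), ?_⟩
  obtain ⟨C, hC⟩ := hu.bd
  refine ⟨‖c‖ * C, fun x => ?_⟩
  rw [norm_smul, mul_assoc]
  exact mul_le_mul_of_nonneg_left (hC x) (norm_nonneg _)

theorem W0.neg {d : ℝ} {u : M → V} (hu : W0 D d u) : W0 D d (fun x => -u x) := by
  simpa using hu.const_smul (-1)

theorem W0.sub {d : ℝ} {u v : M → V} (hu : W0 D d u) (hv : W0 D d v) :
    W0 D d (fun x => u x - v x) := by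
  simpa only [sub_eq_add_neg] using hu.add hv.neg

theorem W1.add {d : ℝ} {u v : M → Fin 2 → V} (hu : W1 D d u) (hv : W1 D d v) :
    W1 D d (fun x i => u x i + v x i) := by
  refine ⟨reg1.2 fun x => (reg1.1 hu.reg x).add (reg1.1 hv.reg x), ?_⟩
  obtain ⟨C, hC⟩ := hu.bd
  obtain ⟨C', hC'⟩ := hv.bd
  exact ⟨C + C', fun x => (n1_add_le D.herm _ _ x).trans
    (by rw [add_mul]; exact add_le_add (hC x) (hC' x))⟩

theorem W1.neg {d : ℝ} {u : M → Fin 2 → V} (hu : W1 D d u) : W1 D d (fun x i => -u x i) := by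
  refine ⟨reg1.2 fun x => (reg1.1 hu.reg x).neg, ?_⟩
  obtain ⟨C, hC⟩ := hu.bd
  exact ⟨C, fun x => by rw [n1_neg D.herm]; exact hC x⟩

theorem W1.sub {d : ℝ} {u v : M → Fin 2 → V} (hu : W1 D d u) (hv : W1 D d v) :
    W1 D d (fun x i => u x i - v x i) := by
  simpa only [sub_eq_add_neg] using hu.add hv.neg

theorem W1.pair {d : ℝ} {α : M → EuclideanSpace ℂ ι} (hα : Reg0 ∞ 0 α)
    (hb : ∃ C : ℝ, ∀ x, ‖α x‖ ≤ C) {η : M → Fin 2 → EuclideanSpace ℂ ι} (hη : W1 D d η) :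
    W1 D d (fun x i => pair (α x) (η x i)) := by
  refine ⟨reg1.2 fun x => ?_, ?_⟩
  · have := S1.bil pairL (reg0.1 hα x) (reg1.1 hη.reg x)
    simpa only [pairL_apply] using this
  · obtain ⟨C, hC⟩ := hb
    obtain ⟨C', hC'⟩ := hη.bd
    refine ⟨|C| * C', fun x => (n1_pair_le D.herm _ _ x).trans ?_⟩
    rw [mul_assoc]
    exact (mul_le_mul_of_nonneg_left (hC' x) (norm_nonneg _)).trans
      (mul_le_mul_of_nonneg_right ((hC x).trans (le_abs_self C)) ((n1_nonneg _ _).trans (hC' x)))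

theorem W0.pair {d : ℝ} {α : M → EuclideanSpace ℂ ι} (hα : Reg0 ∞ 0 α)
    (hb : ∃ C : ℝ, ∀ x, ‖α x‖ ≤ C) {t : M → EuclideanSpace ℂ ι} (ht : W0 D d t) :
    W0 D d (fun x => pair (α x) (t x)) := by
  refine ⟨reg0.2 fun x => ?_, ?_⟩
  · have := S0.bil pairL (reg0.1 hα x) (reg0.1 ht.reg x)
    simpa only [pairL_apply] using this
  · obtain ⟨C, hC⟩ := hb
    obtain ⟨C', hC'⟩ := ht.bd
    refine ⟨|C| * C', fun x => (norm_pair_le _ _).trans ?_⟩
    rw [mul_assoc]
    exact (mul_le_mul_of_nonneg_left (hC' x) (norm_nonneg _)).trans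
      (mul_le_mul_of_nonneg_right ((hC x).trans (le_abs_self C)) ((norm_nonneg _).trans (hC' x)))

/-- exponential decay at the inner end gives a limit -/
theorem tendsto_of_exp {u : M → V} {c : V} {ε : ℝ} (hε : 0 < ε) {r : ℝ}
    (h : ∃ C : ℝ, ∀ x, D.f x ≤ r → ‖u x - c‖ ≤ C * Real.exp (ε * D.f x)) :
    Tendsto u (comap D.f atBot) (𝓝 c) := by
  obtain ⟨C, hC⟩ := h
  rw [tendsto_iff_norm_sub_tendsto_zero]
  have h1 : Tendsto (fun x => C * Real.exp (ε * D.f x)) (comap D.f atBot) (𝓝 0) := by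
    have h2 : Tendsto (fun r : ℝ => C * Real.exp (ε * r)) atBot (𝓝 (C * 0)) :=
      (Real.tendsto_exp_atBot.comp (tendsto_id.const_mul_atBot hε)).const_mul C
    rw [mul_zero] at h2
    exact h2.comp tendsto_comap
  refine squeeze_zero' (Eventually.of_forall fun x => norm_nonneg _) ?_ h1
  filter_upwards [tendsto_comap.eventually (eventually_le_atBot r)] with x hx
  exact hC x hx

theorem tendsto_of_exp_top {u : M → V} {d : ℝ} (hd : 0 < d)
    (h : ∃ C : ℝ, ∀ x, ‖u x‖ ≤ C * Real.exp (-d * D.f x)) :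
    Tendsto u (comap D.f atTop) (𝓝 0) := by
  obtain ⟨C, hC⟩ := h
  rw [tendsto_zero_iff_norm_tendsto_zero]
  have h1 : Tendsto (fun x => C * Real.exp (-d * D.f x)) (comap D.f atTop) (𝓝 0) := by
    have h2 : Tendsto (fun r : ℝ => C * Real.exp (-d * r)) atTop (𝓝 (C * 0)) :=
      (Real.tendsto_exp_atBot.comp (tendsto_id.const_mul_atTop_of_neg (by linarith))).const_mul C
    rw [mul_zero] at h2
    exact h2.comp tendsto_comap
  exact squeeze_zero (fun x => norm_nonneg _) hC h1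

end weights

/-! ### division by `α` away from its zeros -/

theorem S2.ainv {α : M → EuclideanSpace ℂ ι} (hα : Reg0 ∞ 0 α) {F : M → ℂ} (hF : Reg2 ∞ 0 F)
    (h0 : ∀ x, α x = 0 → F =ᶠ[𝓝 x] fun _ => 0) : Reg2 ∞ 0 fun x => F x • ainv α x := by
  refine reg2.2 fun x => ?_
  by_cases hx : α x = 0
  · refine (S2.zero x).congr ?_
    filter_upwards [h0 x hx] with y hy
    rw [hy, zero_smul]
  · exact S2.smul' (reg2.1 hF x) (S0.ainv (reg0.1 hα x) hx)

theorem S1.ainv {α : M → EuclideanSpace ℂ ι} (hα : Reg0 ∞ 0 α) {F : M → Fin 2 → ℂ}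
    (hF : Reg1 ∞ 0 F) (h0 : ∀ x, α x = 0 → F =ᶠ[𝓝 x] fun _ => 0) :
    Reg1 ∞ 0 fun x i => F x i • ainv α x := by
  refine reg1.2 fun x => ?_
  by_cases hx : α x = 0
  · refine (S1.zero x).congr ?_
    filter_upwards [h0 x hx] with y hy
    funext i
    rw [hy, Pi.zero_apply, zero_smul]
  · exact S1.smul' (reg1.1 hF x) (S0.ainv (reg0.1 hα x) hx)

theorem pair_smul_ainv {α : M → EuclideanSpace ℂ ι} {x : M} {c : ℂ} (h : α x = 0 → c = 0) :
    pair (α x) (c • ainv α x) = c := by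
  by_cases hx : α x = 0
  · rw [h hx, zero_smul, pair_zero_right]
  · rw [pair_smul_right, pair_ainv hx, mul_one]

theorem act_smul_ainv {L : LB M ι} {α : M → EuclideanSpace ℂ ι} (hα : L.Sec α) (x : M) (c : ℂ) :
    LB.act (L.dual.P x) (c • ainv α x) = c • ainv α x := by
  rw [act_eq_clm, map_smul, ← act_eq_clm, sec_ainv hα x]

theorem act_smul {P : Matrix ι ι ℂ} {v : EuclideanSpace ℂ ι} (h : LB.act P v = v) (c : ℂ) :
    LB.act P (c • v) = c • v := by
  rw [act_eq_clm, map_smul, ← act_eq_clm, h]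

theorem act_add {P : Matrix ι ι ℂ} {v w : EuclideanSpace ℂ ι} (h : LB.act P v = v)
    (h' : LB.act P w = w) : LB.act P (v + w) = v + w := by
  rw [act_eq_clm, map_add, ← act_eq_clm, ← act_eq_clm, h, h']

theorem act_neg {P : Matrix ι ι ℂ} {v : EuclideanSpace ℂ ι} (h : LB.act P v = v) :
    LB.act P (-v) = -v := by
  rw [act_eq_clm, map_neg, ← act_eq_clm, h]

theorem act_act (L : LB M ι) (x : M) (v : EuclideanSpace ℂ ι) :
    LB.act (L.P x) (LB.act (L.P x) v) = LB.act (L.P x) v := by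
  rw [LB.act, LB.act, Matrix.mulVec_mulVec, L.idem]

theorem eq_zero_of_n2 {V : Type*} [NormedAddCommGroup V] [InnerProductSpace ℂ V]
    {h : M → Matrix (Fin 2) (Fin 2) ℂ} (hh : IsHerm h) {b : M → V} {x : M} (hb : n2 h 0 b x = 0) :
    b x = 0 := by
  rw [n2_eq] at hb
  rcases mul_eq_zero.1 hb with h1 | h1
  · exact norm_eq_zero.1 h1
  · exact absurd h1 (Real.rpow_pos_of_pos (dh_pos hh x) _).ne'

theorem eq_zero_of_n1 {V : Type*} [NormedAddCommGroup V] [InnerProductSpace ℂ V]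
    {h : M → Matrix (Fin 2) (Fin 2) ℂ} (hh : IsHerm h) {w : M → Fin 2 → V} {x : M}
    (hw : n1 h 0 w x = 0) (i : Fin 2) : w x i = 0 := by
  rw [n1_eq hh, norm_eq_zero] at hw
  -- the root is invertible
  set B := root hh x with hB
  have h1 : (h x)⁻¹ = Bᴴ * B := root_spec hh x
  have h2 : IsUnit ((h x)⁻¹).det := by
    rw [Matrix.isUnit_nonsing_inv_det_iff]
    exact (hh.posDef x).det_pos.ne'.isUnit
  have h3 : IsUnit B.det := by
    rw [h1, Matrix.det_mul] at h2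
    exact isUnit_of_mul_isUnit_right h2
  have h4 : IsUnit (B.map conj).det := by
    rw [← RingHom.mapMatrix_apply, ← RingHom.map_det]
    exact h3.map _
  have h5 : ∀ k, ∑ i, conj (B k i) • w x i = 0 := fun k => by
    have := congrArg (fun v : PiLp 2 (fun _ : Fin 2 => V) => v k) hw
    simpa [fr] using this
  set A := B.map conj with hA
  have h6 : A⁻¹ * A = 1 := Matrix.nonsing_inv_mul _ h4
  have h7 : w x i = ∑ k, A⁻¹ i k • ∑ j, A k j • w x j := by
    simp only [Finset.smul_sum, smul_smul]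
    rw [Finset.sum_comm]
    simp only [← Finset.sum_smul]
    have h8 : ∀ j, ∑ k, A⁻¹ i k * A k j = (1 : Matrix (Fin 2) (Fin 2) ℂ) i j := fun j => by
      rw [← h6, Matrix.mul_apply]
    simp only [h8, Matrix.one_apply, ite_smul, one_smul, zero_smul, Finset.sum_ite_eq,
      Finset.mem_univ, if_true]
  rw [h7]
  refine Finset.sum_eq_zero fun k _ => ?_
  have := h5 k
  simp only [hA, Matrix.map_apply]
  rw [this, smul_zero]

/-! ### the outputs (C-i), (C-ii) -/

variable {D}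
variable {L : LB M ι} {a : M → Fin 2 → ℂ} {i₀ : ι} {R : ℝ} {α : M → EuclideanSpace ℂ ι} {d d' : ℝ}

namespace XtCone

variable (H : XtCone D L a i₀ R α d d')
include H

theorem s0α (x : M) : S0 α x := reg0.1 H.α_reg x

theorem s1a (x : M) : S1 a x := reg1.1 H.hol.smooth x

theorem s1na (x : M) : S1 (neg a) x := (H.s1a x).neg

theorem dbar_pair {t : M → EuclideanSpace ℂ ι} {x : M} (ht : S0 t x) (hts : L.dual.Sec t)
    (i : Fin 2) :
    dbar0 0 (fun y => pair (α y) (t y)) x i = pair (α x) (L.dual.db0 (neg a) 0 t x i) :=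
  dbar0_pair (H.s0α x) H.α_sec (H.α_hol x) ht hts i

theorem dbar_pair1 {η : M → Fin 2 → EuclideanSpace ℂ ι} {x : M} (hη : S1 η x)
    (hηs : L.dual.Sec1 η) :
    dbar1 0 (fun y i => pair (α y) (η y i)) x = pair (α x) (L.dual.db1 (neg a) 0 η x) :=
  dbar1_pair (H.s0α x) H.α_sec (H.α_hol x) hη hηs

/-- (C-i) without the limit -/
theorem solve0 {g : M → Fin 2 → ℂ} {b : M → EuclideanSpace ℂ ι} (hg : W1 D d g)
    (hbs : L.dual.Sec b) (hb : W2 D d b) (hgb : ∀ x, dbar1 0 g x = pair (α x) (b x)) :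
    ∃ (u : M → ℂ) (η : M → Fin 2 → EuclideanSpace ℂ ι), W0 D d u ∧ L.dual.Sec1 η ∧ W1 D d η ∧
      ∀ x i, dbar0 0 u x i = g x i + pair (α x) (η x i) := by
  obtain ⟨η, hηs, hη, hηb⟩ := H.A2 b hbs hb
  have h1 : W1 D d (fun x i => g x i - pair (α x) (η x i)) := hg.sub (hη.pair H.α_reg H.α_bdd)
  have h2 : ∀ x, dbar1 0 (fun x i => g x i - pair (α x) (η x i)) x = 0 := by
    intro x
    have h3 : S1 (fun y i => pair (α y) (η y i)) x :=
      reg1.1 (hη.pair H.α_reg H.α_bdd).reg x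
    rw [dbar1_sub (reg1.1 hg.reg x) h3, H.dbar_pair1 (reg1.1 hη.reg x) hηs, hηb, hgb, sub_self]
  obtain ⟨u, hu, hu'⟩ := H.A1 _ h1 h2
  refine ⟨u, fun x i => -η x i, hu, fun x i => act_neg (hηs x i), hη.neg, fun x i => ?_⟩
  rw [hu', pair_neg_right, sub_eq_add_neg]

theorem decay_pair {η : M → Fin 2 → EuclideanSpace ℂ ι} (hη : W1 D d η) :
    ∃ C : ℝ, 0 ≤ C ∧ ∀ x, D.f x ≤ 0 →
      n1 D.h 0 (fun y i => pair (α y) (η y i)) x ≤ C * Real.exp ((d' - d) * D.f x) := by
  obtain ⟨C, hC⟩ := H.α_in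
  obtain ⟨C', hC'⟩ := hη.bd
  refine ⟨|C| * |C'|, by positivity, fun x hx => (n1_pair_le D.herm _ _ x).trans ?_⟩
  have h1 : ‖α x‖ ≤ |C| * Real.exp (d' * D.f x) :=
    (hC x hx).trans (mul_le_mul_of_nonneg_right (le_abs_self _) (Real.exp_pos _).le)
  have h2 : n1 D.h 0 η x ≤ |C'| * Real.exp (-d * D.f x) :=
    (hC' x).trans (mul_le_mul_of_nonneg_right (le_abs_self _) (Real.exp_pos _).le)
  calc ‖α x‖ * n1 D.h 0 η x
      ≤ (|C| * Real.exp (d' * D.f x)) * (|C'| * Real.exp (-d * D.f x)) :=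
        mul_le_mul h1 h2 (n1_nonneg _ _) (by positivity)
    _ = |C| * |C'| * (Real.exp (d' * D.f x) * Real.exp (-d * D.f x)) := by ring
    _ = |C| * |C'| * Real.exp ((d' - d) * D.f x) := by rw [← Real.exp_add]; ring_nf

theorem decay_pair0 {t : M → EuclideanSpace ℂ ι} (ht : W0 D d t) :
    ∃ C : ℝ, 0 ≤ C ∧ ∀ x, D.f x ≤ 0 →
      ‖pair (α x) (t x)‖ ≤ C * Real.exp ((d' - d) * D.f x) := by
  obtain ⟨C, hC⟩ := H.α_in
  obtain ⟨C', hC'⟩ := ht.bd
  refine ⟨|C| * |C'|, by positivity, fun x hx => (norm_pair_le _ _).trans ?_⟩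
  have h1 : ‖α x‖ ≤ |C| * Real.exp (d' * D.f x) :=
    (hC x hx).trans (mul_le_mul_of_nonneg_right (le_abs_self _) (Real.exp_pos _).le)
  have h2 : ‖t x‖ ≤ |C'| * Real.exp (-d * D.f x) :=
    (hC' x).trans (mul_le_mul_of_nonneg_right (le_abs_self _) (Real.exp_pos _).le)
  calc ‖α x‖ * ‖t x‖
      ≤ (|C| * Real.exp (d' * D.f x)) * (|C'| * Real.exp (-d * D.f x)) :=
        mul_le_mul h1 h2 (norm_nonneg _) (by positivity)
    _ = |C| * |C'| * (Real.exp (d' * D.f x) * Real.exp (-d * D.f x)) := by ring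
    _ = |C| * |C'| * Real.exp ((d' - d) * D.f x) := by rw [← Real.exp_add]; ring_nf

/-- (A5) for solutions of `∂̄u = g + ⟨α, η⟩` -/
theorem limit {g : M → Fin 2 → ℂ} {u : M → ℂ} {η : M → Fin 2 → EuclideanSpace ℂ ι}
    (hu : W0 D d u) (hη : W1 D d η) (hue : ∀ x i, dbar0 0 u x i = g x i + pair (α x) (η x i))
    (hg : ∃ ε > (0 : ℝ), ∃ C : ℝ, ∀ x, D.f x ≤ 0 → n1 D.h 0 g x ≤ C * Real.exp (ε * D.f x)) :
    ∃ c : ℂ, ∃ ε' > (0 : ℝ), ∃ C : ℝ, ∀ x, D.f x ≤ 0 →
      ‖u x - c‖ ≤ C * Real.exp (ε' * D.f x) := by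
  obtain ⟨ε, hε, C, hC⟩ := hg
  obtain ⟨C', hC'0, hC'⟩ := H.decay_pair hη
  have hd : 0 < d' - d := sub_pos.2 H.d_lt
  refine H.A5 u hu (min ε (d' - d)) (lt_min hε hd) ⟨|C| + C', fun x hx => ?_⟩
  have h1 : dbar0 0 u = fun x i => g x i + pair (α x) (η x i) := by
    funext x i; exact hue x i
  rw [h1]
  refine (n1_add_le D.herm _ _ x).trans ?_
  rw [add_mul]
  refine add_le_add ((hC x hx).trans ?_) ((hC' x hx).trans ?_)
  · refine mul_le_mul (le_abs_self _) ?_ (Real.exp_pos _).le (abs_nonneg _)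
    exact Real.exp_le_exp.2 (mul_le_mul_of_nonpos_right (min_le_left _ _) hx)
  · refine mul_le_mul_of_nonneg_left ?_ hC'0
    exact Real.exp_le_exp.2 (mul_le_mul_of_nonpos_right (min_le_right _ _) hx)

/-- **(C-i)** -/
theorem solve : SolveStatement D L α d := by
  intro g b hg hbs hb hgb hdec
  obtain ⟨u, η, hu, hηs, hη, h⟩ := H.solve0 hg hbs hb hgb
  obtain ⟨c, hc⟩ := H.limit hu hη h hdec
  exact ⟨u, η, c, hu, hηs, hη, h, hc⟩

/-- solutions of `∂̄u = ⟨α, η⟩` have closed `η` -/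
theorem closed_of_pair {u : M → ℂ} {η : M → Fin 2 → EuclideanSpace ℂ ι} (hu : Reg0 ∞ 0 u)
    (hη : Reg1 ∞ 0 η) (hηs : L.dual.Sec1 η) (h : ∀ x i, dbar0 0 u x i = pair (α x) (η x i)) :
    ∀ x, L.dual.db1 (neg a) 0 η x = 0 := by
  have hreg : Reg2 ∞ 0 (L.dual.db1 (neg a) 0 η) :=
    reg2.2 fun x => S1.db1 L.dual (H.s1na x) (reg1.1 hη x)
  have hsec : L.dual.Sec (L.dual.db1 (neg a) 0 η) := by
    intro x
    rw [LB.db1]
    refine act_add (act_act L.dual x _) ?_
    rw [sub_eq_add_neg]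
    exact act_add (act_smul (hηs x 1) _) (act_neg (act_smul (hηs x 0) _))
  have h1 : ∀ x, α x ≠ 0 → L.dual.db1 (neg a) 0 η x = 0 := by
    intro x hx
    refine dual_eq_zero L (H.α_sec x) hx (hsec x) ?_
    rw [← H.dbar_pair1 (reg1.1 hη x) hηs]
    have h2 : (fun y i => pair (α y) (η y i)) = dbar0 0 u := by
      funext y i; exact (h y i).symm
    rw [h2]
    exact dbar1_dbar0 (reg0.1 hu x)
  intro x
  have hcont := continuous_n2 D.herm hreg
  have h2 : n2 D.h 0 (L.dual.db1 (neg a) 0 η) = fun _ => 0 := by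
    refine Continuous.ext_on H.α_dense hcont continuous_const fun y hy => ?_
    rw [n2_eq, h1 y hy, norm_zero, zero_mul]
  exact eq_zero_of_n2 D.herm (congrFun h2 x)

/-- the exact cocycle: `χ₋` with `∂̄χ₋ = ⟨α, η₀⟩` -/
theorem dcut_pair : ∃ η₀ : M → Fin 2 → EuclideanSpace ℂ ι, L.dual.Sec1 η₀ ∧ W1 D d η₀ ∧
    ∀ x i, dbar0 0 (cut D R (R + 1)) x i = pair (α x) (η₀ x i) := by
  have hRR : R < R + 1 := by linarith
  have h0 : ∀ x, α x = 0 → D.f x < R := fun x hx => not_le.1 fun h => H.α_out x h hx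
  have hreg : Reg1 ∞ 0 (dbar0 0 (cut D R (R + 1))) := reg1.2 fun x => (S0.cut D _ _ x).dbar
  refine ⟨fun x i => dbar0 0 (cut D R (R + 1)) x i • ainv α x,
    fun x i => act_smul_ainv H.α_sec x _, W1.of_compact D ?_ ?_ d, fun x i => ?_⟩
  · refine S1.ainv H.α_reg hreg fun x hx => ?_
    filter_upwards [(continuous_f D).continuousAt.eventually (gt_mem_nhds (h0 x hx))] with y hy
    funext i
    exact dcut_eq_zero_of_lt D hRR hy i
  · refine hasCompactSupport_of_slab D (s := R) (t := R + 1) fun x hx => ?_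
    by_contra hcon
    apply hx
    funext i
    have : dbar0 0 (cut D R (R + 1)) x i = 0 := by
      rw [not_and_or, not_le, not_le] at hcon
      rcases hcon with hx | hx
      · exact dcut_eq_zero_of_lt D hRR hx i
      · exact dcut_eq_zero_of_gt D hRR hx i
    rw [this, zero_smul]
    rfl
  · refine (pair_smul_ainv fun hx => ?_).symm
    exact dcut_eq_zero_of_lt D hRR (h0 x hx) i

theorem W0_cut (s t : ℝ) (hst : s < t) : W0 D d (cut D s t) := by
  refine ⟨reg0.2 fun x => S0.cut D _ _ x, Real.exp (d * t), fun x => ?_⟩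
  rcases le_or_gt t (D.f x) with hx | hx
  · rw [cut_eq_zero D hst hx, norm_zero]; positivity
  · refine (norm_cut_le D s t x).trans ?_
    rw [← Real.exp_add]
    apply Real.one_le_exp
    have := H.d_pos
    nlinarith

/-- **(C-ii)** -/
theorem unique {u : M → ℂ} {η : M → Fin 2 → EuclideanSpace ℂ ι} (hu : W0 D d u)
    (hηs : L.dual.Sec1 η) (hη : W1 D d η) (h : ∀ x i, dbar0 0 u x i = pair (α x) (η x i))
    (h0 : Tendsto u (comap D.f atBot) (𝓝 0)) :
    ∃ t : M → EuclideanSpace ℂ ι, L.dual.Sec t ∧ W0 D d t ∧ ∀ x, u x = pair (α x) (t x) := by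
  obtain ⟨η₀, hη₀s, hη₀, hχ⟩ := H.dcut_pair
  have hRR : R < R + 1 := by linarith
  have hχW := H.W0_cut R (R + 1) hRR
  have hc := H.closed_of_pair hu.reg hη.reg hηs h
  have hc₀ := H.closed_of_pair hχW.reg hη₀.reg hη₀s hχ
  obtain ⟨c₁, c₂, hcc, t, hts, ht, hdt⟩ := H.A3 η η₀ hηs hη hc hη₀s hη₀ hc₀
  have hz : ∀ x, c₁ * u x + c₂ * cut D R (R + 1) x - pair (α x) (t x) = 0 := by
    refine H.A0 _ (((hu.const_smul c₁).add (hχW.const_smul c₂)).sub
      (W0.pair H.α_reg H.α_bdd ht)) fun x i => ?_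
    have s1 := reg0.1 hu.reg x
    have s2 := reg0.1 hχW.reg x
    have s3 := reg0.1 (W0.pair H.α_reg H.α_bdd ht).reg x
    have e1 := dbar0_sub (((S0.const c₁ x).mul s1).add ((S0.const c₂ x).mul s2)) s3 i
    rw [e1, dbar0_add ((S0.const c₁ x).mul s1) ((S0.const c₂ x).mul s2),
      dbar0_mul (S0.const c₁ x) s1, dbar0_mul (S0.const c₂ x) s2, dbar0_const, dbar0_const,
      H.dbar_pair (reg0.1 ht.reg x) hts, hdt, h, hχ, pair_add_right, pair_smul_right,
      pair_smul_right]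
    ring
  rcases isEmpty_or_nonempty M with hM | hM
  · exact ⟨t, hts, ht, fun x => isEmptyElim x⟩
  -- points far inside
  have hne : (comap D.f atBot).NeBot := by
    rw [comap_neBot_iff_frequently, frequently_atBot]
    intro r
    obtain ⟨x₀⟩ := hM
    obtain ⟨n, hn⟩ := exists_nat_gt (D.f x₀ - r)
    refine ⟨D.f x₀ - n, by linarith, D.sh (-n) x₀, ?_⟩
    rw [D.f_sh]; push_cast; ring
  have hlim : Tendsto (fun x => c₁ * u x + c₂ * cut D R (R + 1) x) (comap D.f atBot)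
      (𝓝 (c₁ * 0 + c₂ * 1)) := by
    refine (h0.const_mul c₁).add (Tendsto.const_mul c₂ ?_)
    refine tendsto_const_nhds.congr' ?_
    filter_upwards [tendsto_comap.eventually (eventually_le_atBot R)] with x hx
    exact (cut_eq_one D hRR hx).symm
  have hlim' : Tendsto (fun x => pair (α x) (t x)) (comap D.f atBot) (𝓝 0) := by
    obtain ⟨C, hC0, hC⟩ := H.decay_pair0 ht
    refine tendsto_of_exp (r := 0) (ε := d' - d) (sub_pos.2 H.d_lt) ⟨C, fun x hx => ?_⟩
    rw [sub_zero]; exact hC x hx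
  have hc2 : c₂ = 0 := by
    have h1 : (fun x => c₁ * u x + c₂ * cut D R (R + 1) x) = fun x => pair (α x) (t x) :=
      funext fun x => sub_eq_zero.1 (hz x)
    rw [h1] at hlim
    have := tendsto_nhds_unique hlim hlim'
    simpa using this
  have hc1 : c₁ ≠ 0 := by
    rcases hcc with h1 | h1
    · exact h1
    · exact absurd hc2 h1
  refine ⟨fun x => c₁⁻¹ • t x, fun x => act_smul (hts x) _, ht.const_smul _, fun x => ?_⟩
  have h1 := hz x
  rw [hc2, zero_mul, add_zero, sub_eq_zero] at h1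
  rw [pair_smul_right, ← h1]
  field_simp

/-- **pole functions** -/
theorem pole : PoleStatement D L α := by
  intro g hg hgc hsupp
  have hF : Reg2 ∞ 0 (dbar1 0 g) := reg2.2 fun x => (reg1.1 hg x).dbar
  have hFc : HasCompactSupport (dbar1 0 g) := by
    refine hgc.mono' ?_
    intro x hx
    by_contra hcon
    apply hx
    have h1 : g =ᶠ[𝓝 x] fun _ _ => 0 := notMem_tsupport_iff_eventuallyEq.1 hcon
    rw [dbar1_congr h1]
    exact dbar1_zero x
  have h0 : ∀ x, α x = 0 → dbar1 0 g =ᶠ[𝓝 x] fun _ => 0 := by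
    intro x hx
    exact notMem_tsupport_iff_eventuallyEq.1 fun h => hsupp x h hx
  have hb : W2 D d (fun x => dbar1 0 g x • ainv α x) := by
    refine W2.of_compact D (S2.ainv H.α_reg hF h0) ?_ d
    exact hFc.smul_right
  obtain ⟨C, hC⟩ : ∃ C : ℝ, ∀ x, n1 D.h 0 g x ≤ C * Real.exp (-(-1) * D.f x) :=
    (W1.of_compact D hg hgc (-1)).bd
  obtain ⟨u, η, c, hu, hηs, hη, hue, ε', hε', hlim⟩ := H.solve g _ (W1.of_compact D hg hgc d)
    (fun x => act_smul_ainv H.α_sec x _) hb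
    (fun x => (pair_smul_ainv fun hx => (h0 x hx).self_of_nhds).symm)
    ⟨1, one_pos, C, fun x _ => by simpa using hC x⟩
  exact ⟨u, η, c, hu.reg, hηs, hη.reg, hue, tendsto_of_exp_top H.d_pos hu.bd,
    tendsto_of_exp hε' hlim⟩

end XtCone

end Vale.Agent.P267.H692
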