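import Vale.Agent.P267.H692.Cone2
import Vale.Agent.P267.H877.Trans

/-!
# P267 / XT-CONE, part 3: exact frames (C-iii) and division (C-iv)
-/

set_option linter.unusedSectionVars false

open scoped Manifold ContDiff ComplexConjugate Matrix ComplexOrder
open Set Filter Topology

noncomputable section

namespace Vale.Agent.P267.H692

open Vale.Agent.P267.FL Vale.Agent.P267.XT

variable {M : Type} [TopologicalSpace M] [ChartedSpace C2 M] [IsManifold 𝓘(ℂ, C2) ω M]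
variable {ι : Type} [Fintype ι] [DecidableEq ι]
variable {D : XTData M}

theorem bdd_inner {V : Type*} [NormedAddCommGroup V] {u : M → V} {c : V} (hc : Continuous u)
    (h : Tendsto u (comap D.f atBot) (𝓝 c)) (r : ℝ) :
    ∃ C : ℝ, 0 ≤ C ∧ ∀ x, D.f x ≤ r → ‖u x‖ ≤ C := by
  have h1 : ∀ᶠ x in comap D.f atBot, ‖u x‖ < ‖c‖ + 1 :=
    h.norm.eventually (gt_mem_nhds (lt_add_one _))
  rw [eventually_comap] at h1
  obtain ⟨s, hs⟩ := eventually_atBot.1 h1
  obtain ⟨B, hB⟩ := (D.f_proper s r).bddAbove_image hc.norm.continuousOn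
  refine ⟨max (‖c‖ + 1) B, le_max_of_le_left (by positivity), fun x hx => ?_⟩
  rcases le_or_gt (D.f x) s with h2 | h2
  · exact (hs _ h2 x rfl).le.trans (le_max_left _ _)
  · exact (hB ⟨x, ⟨h2.le, hx⟩, rfl⟩).trans (le_max_right _ _)

theorem one_le_exp_neg {d : ℝ} (hd : 0 ≤ d) {x : M} (hx : D.f x ≤ 0) :
    1 ≤ Real.exp (-d * D.f x) := by
  apply Real.one_le_exp
  nlinarith

theorem Reg0.cont {V : Type*} [NormedAddCommGroup V] [NormedSpace ℂ V] {u : M → V}
    (h : Reg0 ∞ 0 u) : Continuous u :=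
  continuous_iff_continuousAt.2 fun x => (reg0.1 h x).continuousAt

variable {L : LB M ι} {a : M → Fin 2 → ℂ} {i₀ : ι} {R : ℝ} {α : M → EuclideanSpace ℂ ι} {d d' : ℝ}

/-- `φ • w` with `φ` bounded inside, zero outside, `w` bounded inside -/
theorem W1.of_cut {V : Type*} [NormedAddCommGroup V] [InnerProductSpace ℂ V] {φ : M → ℂ}
    {w : M → Fin 2 → V} (hφ : Reg0 ∞ 0 φ) (hw : Reg1 ∞ 0 w) {r : ℝ} (h0 : ∀ x, r ≤ D.f x → φ x = 0)
    (hφb : ∃ C : ℝ, ∀ x, D.f x ≤ 0 → ‖φ x‖ ≤ C)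
    (hwb : ∃ C : ℝ, ∀ x, D.f x ≤ 0 → n1 D.h 0 w x ≤ C * Real.exp (-d * D.f x)) :
    W1 D d fun x i => φ x • w x i := by
  have hreg : Reg1 ∞ 0 fun x i => φ x • w x i :=
    reg1.2 fun x => S1.smul (reg0.1 hφ x) (reg1.1 hw x)
  refine ⟨hreg, weight_of_inner (continuous_n1 D.herm hreg) (r := r) (s := 0) (fun x hx => ?_) ?_⟩
  · rw [n1_smul D.herm, h0 x hx, norm_zero, zero_mul]
  · obtain ⟨C, hC⟩ := hφb
    obtain ⟨C', hC'⟩ := hwb
    refine ⟨|C| * C', fun x hx => ?_⟩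
    rw [n1_smul D.herm, mul_assoc]
    refine (mul_le_mul_of_nonneg_left (hC' x hx) (norm_nonneg _)).trans ?_
    exact mul_le_mul_of_nonneg_right ((hC x hx).trans (le_abs_self C))
      ((n1_nonneg _ _).trans (hC' x hx))

namespace XtCone

variable (H : XtCone D L a i₀ R α d d')
include H

/-- **(C-iii) exact frames** -/
theorem frame (hdiv : DivLocal L α) {a' : M → Fin 2 → ℂ} (ha : Reg1 ∞ 0 a') {r : ℝ}
    (hcl : ∀ x, D.f x < r → dbar1 0 a' x = 0)
    (hdec : ∃ ε > (0 : ℝ), ∃ C : ℝ, ∀ x, D.f x ≤ 0 → n1 D.h 0 a' x ≤ C * Real.exp (ε * D.f x)) :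
    ∃ (v : M → ℂ) (η : M → Fin 2 → EuclideanSpace ℂ ι) (c : ℂ) (r₁ : ℝ), Reg0 ∞ 0 v ∧
      (∀ x, D.f x < r₁ → ∀ i, dbar0 0 v x i = a' x i + pair (α x) (η x i)) ∧
      Tendsto v (comap D.f atBot) (𝓝 c) := by
  obtain ⟨ε, hε, C, hC⟩ := hdec
  have hst : r - 2 < r - 1 := by linarith
  set χ := cut D (r - 2) (r - 1) with hχ
  have sχ : ∀ x, S0 χ x := fun x => S0.cut D _ _ x
  have sa : ∀ x, S1 a' x := reg1.1 ha
  set F : M → ℂ := fun x => dbar0 0 χ x 0 * a' x 1 - dbar0 0 χ x 1 * a' x 0 with hF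
  have hFreg : Reg2 ∞ 0 F := reg2.2 fun x =>
    S2.wedge (ContinuousLinearMap.lsmul ℂ ℂ) (sχ x).dbar (sa x)
  have hFc : HasCompactSupport F := by
    refine hasCompactSupport_of_slab D (s := r - 2) (t := r - 1) fun x hx => ?_
    by_contra hcon
    apply hx
    rw [not_and_or, not_le, not_le] at hcon
    have h0 : ∀ i, dbar0 0 χ x i = 0 := fun i => by
      rcases hcon with hx | hx
      · exact dcut_eq_zero_of_lt D hst hx i
      · exact dcut_eq_zero_of_gt D hst hx i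
    simp only [hF, h0, zero_mul, sub_zero]
  obtain ⟨b₀, w', hb₀, hb₀c, -, hw', hw'c, -, hw's, hFe⟩ :=
    hdiv univ F isOpen_univ hFreg hFc (subset_univ _)
  -- the form `χ a' - b₀`
  have hW1 : W1 D d fun x i => χ x • a' x i := by
    refine W1.of_cut (reg0.2 sχ) ha (r := r - 1) (fun x hx => cut_eq_zero D hst hx)
      ⟨1, fun x _ => norm_cut_le D _ _ x⟩ ⟨|C|, fun x hx => (hC x hx).trans ?_⟩
    refine mul_le_mul (le_abs_self _) ?_ (Real.exp_pos _).le (abs_nonneg _)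
    exact (Real.exp_le_one_iff.2 (by nlinarith)).trans (one_le_exp_neg H.d_pos.le hx)
  have hWb := W1.of_compact D hb₀ hb₀c d
  have hg : W1 D d fun x i => χ x • a' x i - b₀ x i := hW1.sub hWb
  have hgb : ∀ x, dbar1 0 (fun x i => χ x • a' x i - b₀ x i) x = pair (α x) (w' x) := by
    intro x
    rw [dbar1_sub (reg1.1 hW1.reg x) (reg1.1 hb₀ x), dbar1_smul (sχ x) (sa x)]
    have h1 : χ x * dbar1 0 a' x = 0 := by
      rcases le_or_gt (r - 1) (D.f x) with h | h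
      · rw [hχ, cut_eq_zero D hst h, zero_mul]
      · rw [hcl x (by linarith), mul_zero]
    have h2 := hFe x
    simp only [hF] at h2
    simp only [smul_eq_mul]
    rw [h1, h2]
    ring
  obtain ⟨C', hC'⟩ : ∃ C : ℝ, ∀ x, n1 D.h 0 b₀ x ≤ C * Real.exp (-(-1) * D.f x) :=
    (W1.of_compact D hb₀ hb₀c (-1)).bd
  obtain ⟨u, η, c, hu, hηs, hη, hue, ε', hε', hlim⟩ := H.solve _ w' hg hw's
    (W2.of_compact D hw' hw'c d) hgb ⟨min ε 1, lt_min hε one_pos, |C| + |C'|, fun x hx => by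
      refine (n1_sub_le D.herm _ _ x).trans ?_
      rw [add_mul]
      refine add_le_add ?_ ?_
      · rw [n1_smul D.herm]
        have h3 : ‖χ x‖ * n1 D.h 0 a' x ≤ 1 * n1 D.h 0 a' x :=
          mul_le_mul_of_nonneg_right (norm_cut_le D _ _ x) (n1_nonneg _ _)
        rw [one_mul] at h3
        refine (h3.trans (hC x hx)).trans ?_
        refine mul_le_mul (le_abs_self _) ?_ (Real.exp_pos _).le (abs_nonneg _)
        exact Real.exp_le_exp.2 (mul_le_mul_of_nonpos_right (min_le_left _ _) hx)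
      · refine (hC' x).trans ?_
        refine mul_le_mul (le_abs_self _) ?_ (Real.exp_pos _).le (abs_nonneg _)
        rw [neg_neg]
        exact Real.exp_le_exp.2 (mul_le_mul_of_nonpos_right (min_le_right _ _) hx)⟩
  obtain ⟨r₂, hr₂⟩ := hb₀c.bddBelow_image (continuous_f D).continuousOn
  refine ⟨u, η, c, min (r - 2) r₂, hu.reg, fun x hx i => ?_, tendsto_of_exp hε' hlim⟩
  have h1 : χ x = 1 := cut_eq_one D hst (hx.le.trans (min_le_left _ _))
  have h2 : b₀ x = 0 := by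
    by_contra hcon
    have h3 : r₂ ≤ D.f x := hr₂ ⟨x, subset_tsupport _ hcon, rfl⟩
    have h4 := hx.trans_le (min_le_right (r - 2) r₂)
    linarith
  rw [hue, h1, h2]
  simp

/-- **(C-iv) division** -/
theorem divide {A : M → ℂ} (hA : Reg0 ∞ 0 A) {a' : M → Fin 2 → ℂ} (ha : Reg1 ∞ 0 a') {R₂ : ℝ}
    (hR : R < R₂) (hdA : ∀ x, D.f x < R₂ → ∀ i, dbar0 0 A x i = -(a' x i * A x))
    (hcl : ∀ x, D.f x < R₂ → dbar1 0 a' x = 0)
    (hdec : ∃ ε > (0 : ℝ), ∃ C : ℝ, ∀ x, D.f x ≤ 0 → n1 D.h 0 a' x ≤ C * Real.exp (ε * D.f x))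
    (hA0 : Tendsto A (comap D.f atBot) (𝓝 0)) :
    ∃ δ : M → EuclideanSpace ℂ ι, Reg0 ∞ 0 δ ∧ L.dual.Sec δ ∧
      (∃ C : ℝ, ∀ x, D.f x ≤ 0 → ‖δ x‖ ≤ C * Real.exp (-d * D.f x)) ∧
      ∀ x, D.f x ≤ R → A x = pair (α x) (δ x) := by
  obtain ⟨ε, hε, C, hC⟩ := hdec
  obtain ⟨s₁, hs₁, hs₁'⟩ := exists_between hR
  obtain ⟨s₂, hs₂, hs₂'⟩ := exists_between hs₁'
  obtain ⟨s₃, hs₃, hs₃'⟩ := exists_between hs₂'
  set χ := cut D s₂ s₃ with hχ
  set χ' := cut D s₁ s₂ with hχ'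
  have sχ : ∀ x, S0 χ x := fun x => S0.cut D _ _ x
  have sχ' : ∀ x, S0 χ' x := fun x => S0.cut D _ _ x
  have sa : ∀ x, S1 a' x := reg1.1 ha
  have sA : ∀ x, S0 A x := reg0.1 hA
  have h0 : ∀ x, α x = 0 → D.f x < R := fun x hx => not_le.1 fun h => H.α_out x h hx
  -- the form `χ a'`
  set F : M → ℂ := fun x => dbar0 0 χ x 0 * a' x 1 - dbar0 0 χ x 1 * a' x 0 with hF
  have hFreg : Reg2 ∞ 0 F := reg2.2 fun x =>
    S2.wedge (ContinuousLinearMap.lsmul ℂ ℂ) (sχ x).dbar (sa x)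
  have hFlt : ∀ x, D.f x < s₂ → F x = 0 := fun x hx => by
    simp only [hF, hχ, dcut_eq_zero_of_lt D hs₃ hx, zero_mul, sub_zero]
  have hFc : HasCompactSupport F := by
    refine hasCompactSupport_of_slab D (s := s₂) (t := s₃) fun x hx => ?_
    by_contra hcon
    apply hx
    rw [not_and_or, not_le, not_le] at hcon
    rcases hcon with hx | hx
    · exact hFlt x hx
    · simp only [hF, hχ, dcut_eq_zero_of_gt D hs₃ hx, zero_mul, sub_zero]
  have hF0 : ∀ x, α x = 0 → F =ᶠ[𝓝 x] fun _ => 0 := by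
    intro x hx
    have hx2 : D.f x < s₂ := (h0 x hx).trans (hs₁.trans hs₂)
    filter_upwards [(continuous_f D).continuousAt.eventually (gt_mem_nhds hx2)] with y hy
    exact hFlt y hy
  have hW1 : W1 D d fun x i => χ x • a' x i := by
    refine W1.of_cut (reg0.2 sχ) ha (r := s₃) (fun x hx => cut_eq_zero D hs₃ hx)
      ⟨1, fun x _ => norm_cut_le D _ _ x⟩ ⟨|C|, fun x hx => (hC x hx).trans ?_⟩
    refine mul_le_mul (le_abs_self _) ?_ (Real.exp_pos _).le (abs_nonneg _)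
    exact (Real.exp_le_one_iff.2 (by nlinarith)).trans (one_le_exp_neg H.d_pos.le hx)
  have hb : W2 D d (fun x => F x • ainv α x) :=
    W2.of_compact D (S2.ainv H.α_reg hFreg hF0) hFc.smul_right d
  have hgb : ∀ x, dbar1 0 (fun x i => χ x • a' x i) x = pair (α x) (F x • ainv α x) := by
    intro x
    rw [pair_smul_ainv fun hx => (hF0 x hx).self_of_nhds, dbar1_smul (sχ x) (sa x)]
    have h1 : χ x * dbar1 0 a' x = 0 := by
      rcases le_or_gt s₃ (D.f x) with h | h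
      · rw [hχ, cut_eq_zero D hs₃ h, zero_mul]
      · rw [hcl x (h.trans hs₃'), mul_zero]
    simp only [smul_eq_mul]
    rw [h1, add_zero]
  obtain ⟨u, η, c, hu, hηs, hη, hue, ε', hε', hlim⟩ := H.solve _ _ hW1
    (fun x => act_smul_ainv H.α_sec x _) hb hgb ⟨ε, hε, |C|, fun x hx => by
      rw [n1_smul D.herm]
      have h3 : ‖χ x‖ * n1 D.h 0 a' x ≤ 1 * n1 D.h 0 a' x :=
        mul_le_mul_of_nonneg_right (norm_cut_le D _ _ x) (n1_nonneg _ _)
      rw [one_mul] at h3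
      refine (h3.trans (hC x hx)).trans ?_
      exact mul_le_mul_of_nonneg_right (le_abs_self _) (Real.exp_pos _).le⟩
  have hulim : Tendsto u (comap D.f atBot) (𝓝 c) := tendsto_of_exp hε' hlim
  have su : ∀ x, S0 u x := reg0.1 hu.reg
  have seu : ∀ x, S0 (fun y => Complex.exp (u y)) x := fun x => (su x).cexp
  have sAe : ∀ x, S0 (fun y => A y * Complex.exp (u y)) x := fun x => (sA x).mul (seu x)
  -- the function `B`
  set B : M → ℂ := fun x => χ' x * (A x * Complex.exp (u x)) with hB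
  have sB : ∀ x, S0 B x := fun x => (sχ' x).mul (sAe x)
  have hBlim : Tendsto B (comap D.f atBot) (𝓝 0) := by
    have h1 : Tendsto (fun x => A x * Complex.exp (u x)) (comap D.f atBot)
        (𝓝 (0 * Complex.exp c)) :=
      hA0.mul ((Complex.continuous_exp.tendsto c).comp hulim)
    rw [zero_mul] at h1
    refine h1.congr' ?_
    filter_upwards [tendsto_comap.eventually (eventually_le_atBot s₁)] with x hx
    simp only [hB]
    rw [hχ', cut_eq_one D hs₂ hx, one_mul]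
  have hB0 : ∀ x, s₂ ≤ D.f x → B x = 0 := fun x hx => by
    simp only [hB, hχ', cut_eq_zero D hs₂ hx, zero_mul]
  obtain ⟨C₁, hC₁0, hC₁⟩ := bdd_inner (Reg0.cont (reg0.2 sB)) hBlim 0
  have hBW : W0 D d B := by
    refine ⟨reg0.2 sB, weight_of_inner (Reg0.cont (reg0.2 sB)).norm (r := s₂) (s := 0)
      (fun x hx => by rw [hB0 x hx, norm_zero]) ⟨C₁, fun x hx => (hC₁ x hx).trans ?_⟩⟩
    exact le_mul_of_one_le_right hC₁0 (one_le_exp_neg H.d_pos.le hx)
  -- `∂̄B = ⟨α, η_B⟩`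
  set G : M → Fin 2 → ℂ := fun x i => (A x * Complex.exp (u x)) * dbar0 0 χ' x i with hG
  have hGreg : Reg1 ∞ 0 G := reg1.2 fun x => S1.mul (sAe x) (sχ' x).dbar
  have hGlt : ∀ x, D.f x < s₁ → G x = 0 := fun x hx => by
    funext i
    simp only [hG, hχ', dcut_eq_zero_of_lt D hs₂ hx, mul_zero]
    rfl
  have hG0 : ∀ x, α x = 0 → G =ᶠ[𝓝 x] fun _ => 0 := by
    intro x hx
    have hx2 : D.f x < s₁ := (h0 x hx).trans hs₁
    filter_upwards [(continuous_f D).continuousAt.eventually (gt_mem_nhds hx2)] with y hy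
    exact hGlt y hy
  have hGc : HasCompactSupport (fun x i => G x i • ainv α x) := by
    refine hasCompactSupport_of_slab D (s := s₁) (t := s₂) fun x hx => ?_
    by_contra hcon
    apply hx
    rw [not_and_or, not_le, not_le] at hcon
    have hGx : G x = 0 := by
      rcases hcon with hx | hx
      · exact hGlt x hx
      · funext i
        simp only [hG, hχ', dcut_eq_zero_of_gt D hs₂ hx, mul_zero]
        rfl
    funext i
    rw [hGx]
    simp
  have hη₁ : W1 D d (fun x i => G x i • ainv α x) :=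
    W1.of_compact D (S1.ainv H.α_reg hGreg hG0) hGc d
  have hη₂ : W1 D d (fun x i => B x • η x i) := by
    refine W1.of_cut (reg0.2 sB) hη.reg (r := s₂) hB0 ⟨C₁, hC₁⟩ ?_
    obtain ⟨C₂, hC₂⟩ := hη.bd
    exact ⟨C₂, fun x _ => hC₂ x⟩
  have hBd : ∀ x i, dbar0 0 B x i = pair (α x) (G x i • ainv α x + B x • η x i) := by
    intro x i
    rw [pair_add_right, pair_smul_right (B x),
      pair_smul_ainv fun hx => by rw [(hG0 x hx).self_of_nhds]; rfl]
    have e1 := dbar0_mul (sχ' x) (sAe x) i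
    have e2 := dbar0_mul (sA x) (seu x) i
    have e3 := dbar0_cexp (su x) i
    simp only [hB, hG]
    rw [e1, e2, e3, hue]
    rcases le_or_gt s₂ (D.f x) with h | h
    · rw [hχ', cut_eq_zero D hs₂ h]
      ring
    · have h1 : χ x = 1 := cut_eq_one D hs₃ h.le
      rw [hdA x (h.trans (hs₃.trans hs₃')), h1, one_smul]
      ring
  obtain ⟨t, hts, ht, hBt⟩ := H.unique hBW
    (fun x i => act_add (act_smul_ainv H.α_sec x _) (act_smul (hηs x i) _)) (hη₁.add hη₂) hBd hBlim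
  -- division
  have snu : ∀ x, S0 (fun y => Complex.exp (-u y)) x := fun x => (su x).neg.cexp
  have hnlim : Tendsto (fun x => Complex.exp (-u x)) (comap D.f atBot) (𝓝 (Complex.exp (-c))) :=
    (Complex.continuous_exp.tendsto _).comp hulim.neg
  obtain ⟨C₃, hC₃0, hC₃⟩ := bdd_inner (Reg0.cont (reg0.2 snu)) hnlim 0
  obtain ⟨C₄, hC₄⟩ := ht.bd
  refine ⟨fun x => Complex.exp (-u x) • t x, reg0.2 fun x => (snu x).smul (reg0.1 ht.reg x),
    fun x => act_smul (hts x) _, ⟨C₃ * C₄, fun x hx => ?_⟩, fun x hx => ?_⟩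
  · rw [norm_smul, mul_assoc]
    exact mul_le_mul (hC₃ x hx) (hC₄ x) (norm_nonneg _) hC₃0
  · have h1 := hBt x
    simp only [hB] at h1
    rw [hχ', cut_eq_one D hs₂ (hx.trans hs₁.le), one_mul] at h1
    rw [pair_smul_right, ← h1, mul_comm (A x), ← mul_assoc, ← Complex.exp_add]
    simp

end XtCone

end Vale.Agent.P267.H692
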