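import Vale.Agent.P267.H692.Cone3

/-!
# P267 / XT-CONE, part 4: the end statement (C3)
-/

set_option linter.unusedSectionVars false

open scoped Manifold ContDiff ComplexConjugate Matrix ComplexOrder
open Set Filter Topology

noncomputable section

namespace Vale.Agent.P267.H692

open Vale.Agent.P267.FL Vale.Agent.P267.XT

/-! ### one complex variable -/

theorem update_analytic {F : ℂ → ℂ} {c : ℂ} (hd : ∀ᶠ t in 𝓝[≠] (0 : ℂ), DifferentiableAt ℂ F t)
    (hc : Tendsto F (𝓝[≠] 0) (𝓝 c)) : AnalyticAt ℂ (Function.update F 0 c) 0 := by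
  refine Complex.analyticAt_of_differentiable_on_punctured_nhds_of_continuousAt ?_ ?_
  · filter_upwards [hd, self_mem_nhdsWithin] with t ht ht0
    refine ht.congr_of_eventuallyEq ?_
    filter_upwards [isOpen_ne.mem_nhds ht0] with s hs
    exact Function.update_of_ne hs _ _
  · exact continuousAt_update_same.2 hc

theorem update_eventually {F : ℂ → ℂ} {c : ℂ} :
    ∀ᶠ t in 𝓝[≠] (0 : ℂ), Function.update F 0 c t = F t := by
  filter_upwards [self_mem_nhdsWithin] with t ht
  exact Function.update_of_ne ht _ _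

/-- infinite products of functions which vanish at `0` vanish -/
theorem seq_vanish {F G : ℕ → ℂ → ℂ} {g : ℕ → ℂ}
    (hF : ∀ n, ∀ᶠ t in 𝓝[≠] (0 : ℂ), DifferentiableAt ℂ (F n) t)
    (hG : ∀ n, ∀ᶠ t in 𝓝[≠] (0 : ℂ), DifferentiableAt ℂ (G n) t)
    (hF0 : ∀ n, Tendsto (F n) (𝓝[≠] 0) (𝓝 0)) (hG0 : ∀ n, Tendsto (G n) (𝓝[≠] 0) (𝓝 (g n)))
    (hFG : ∀ n, ∀ᶠ t in 𝓝[≠] (0 : ℂ), F n t = F (n + 1) t * G n t)
    (hcase : (∀ n, g n = 0) ∨ ∀ n, g n ≠ 0) (h0 : ∀ᶠ t in 𝓝[≠] (0 : ℂ), F 0 t = 0) (n : ℕ) :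
    ∀ᶠ t in 𝓝[≠] (0 : ℂ), F n t = 0 := by
  rcases hcase with hg | hg
  · -- the products case
    have aF : ∀ n, AnalyticAt ℂ (Function.update (F n) 0 0) 0 := fun n =>
      update_analytic (hF n) (hF0 n)
    have aG : ∀ n, AnalyticAt ℂ (Function.update (G n) 0 0) 0 := fun n =>
      update_analytic (hG n) (by simpa only [hg n] using hG0 n)
    have hord : ∀ n, analyticOrderAt (Function.update (F n) 0 0) 0 =
        analyticOrderAt (Function.update (F (n + 1)) 0 0) 0 +
          analyticOrderAt (Function.update (G n) 0 0) 0 := by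
      intro n
      rw [← analyticOrderAt_mul (aF (n + 1)) (aG n)]
      apply analyticOrderAt_congr
      have h1 : ∀ᶠ t in 𝓝[≠] (0 : ℂ), Function.update (F n) 0 0 t =
          (Function.update (F (n + 1)) 0 0 * Function.update (G n) 0 0) t := by
        filter_upwards [hFG n, update_eventually (F := F n) (c := 0),
          update_eventually (F := F (n + 1)) (c := 0), update_eventually (F := G n) (c := 0)]
          with t h1 h2 h3 h4
        rw [h2, Pi.mul_apply, h3, h4, h1]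
      rw [eventually_nhdsWithin_iff] at h1
      filter_upwards [h1] with t ht
      by_cases h : t = 0
      · subst h; simp
      · exact ht h
    have hge : ∀ m : ℕ, ∀ n, (m : ℕ∞) ≤ analyticOrderAt (Function.update (F n) 0 0) 0 := by
      intro m
      induction m with
      | zero => intro n; simp
      | succ m ih =>
        intro n
        rw [hord n]
        have h1 : (1 : ℕ∞) ≤ analyticOrderAt (Function.update (G n) 0 0) 0 := by
          rw [Order.one_le_iff_ne_zero, (aG n).analyticOrderAt_ne_zero]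
          simp
        push_cast
        exact add_le_add (ih (n + 1)) h1
    have htop : analyticOrderAt (Function.update (F n) 0 0) 0 = ⊤ := by
      by_contra hne
      obtain ⟨m, hm⟩ := ENat.ne_top_iff_exists.1 hne
      have := hge (m + 1) n
      rw [← hm] at this
      have h2 : m + 1 ≤ m := by exact_mod_cast this
      omega
    rw [analyticOrderAt_eq_top] at htop
    filter_upwards [htop.filter_mono nhdsWithin_le_nhds, update_eventually (F := F n) (c := 0)]
      with t h1 h2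
    rw [← h2, h1]
  · induction n with
    | zero => exact h0
    | succ n ih =>
      filter_upwards [ih, hFG n, (hG0 n).eventually_ne (hg n)] with t h1 h2 h3
      rw [h1] at h2
      rcases mul_eq_zero.1 h2.symm with h | h
      · exact h
      · exact absurd h h3

variable {M : Type} [TopologicalSpace M] [ChartedSpace C2 M] [IsManifold 𝓘(ℂ, C2) ω M]
variable {ι : Type} [Fintype ι] [DecidableEq ι]
variable {D : XTData M}

/-- a smooth function with `∂̄u = 0` at `ψ t` is complex differentiable along `ψ` -/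
theorem hol_comp {u : M → ℂ} {ψ : ℂ → M} {t : ℂ} (hc : ContinuousAt ψ t)
    (hψ : DifferentiableAt ℂ (fun s => chartAt C2 (ψ t) (ψ s)) t) (hu : S0 u (ψ t))
    (h0 : ∀ i, dbar0 0 u (ψ t) i = 0) : DifferentiableAt ℂ (fun s => u (ψ s)) t := by
  have h1 : DifferentiableAt ℂ (loc0 0 (chartAt C2 (ψ t)) u) (chartAt C2 (ψ t) (ψ t)) :=
    (differentiableAt_complex_iff hu.diff).2 h0
  have h2 : DifferentiableAt ℂ (fun s => loc0 0 (chartAt C2 (ψ t)) u (chartAt C2 (ψ t) (ψ s))) t :=
    DifferentiableAt.comp (g := loc0 0 (chartAt C2 (ψ t)) u) t h1 hψ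
  refine h2.congr_of_eventuallyEq ?_
  filter_upwards [hc.eventually ((chartAt C2 (ψ t)).open_source.mem_nhds
    (mem_chart_source C2 (ψ t)))] with s hs
  simp [loc0, (chartAt C2 (ψ t)).left_inv hs]

variable {L : LB M ι} {a : M → Fin 2 → ℂ} {i₀ : ι} {R : ℝ} {α : M → EuclideanSpace ℂ ι} {d d' : ℝ}

theorem act_single (i₀ : ι) (v : EuclideanSpace ℂ ι) (j : ι) :
    LB.act (Matrix.single i₀ i₀ (1 : ℂ)) v j = if j = i₀ then v i₀ else 0 := by
  simp only [LB.act, Matrix.mulVec, dotProduct, Matrix.single_apply]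
  by_cases h : j = i₀
  · subst h; simp
  · rw [if_neg h]
    refine Finset.sum_eq_zero fun l _ => ?_
    rw [if_neg (fun h' => h h'.1.symm), zero_mul]

namespace XtCone

variable (H : XtCone D L a i₀ R α d d')
include H

theorem P_in {x : M} (hx : D.f x < -R) : L.P x = Matrix.single i₀ i₀ 1 := by
  apply H.triv
  have := H.R_pos
  rw [abs_of_neg (by linarith)]
  linarith

theorem P_in_eventually {x : M} (hx : D.f x < -R) :
    ∀ᶠ y in 𝓝 x, L.P y = Matrix.single i₀ i₀ 1 := by
  filter_upwards [(continuous_f D).continuousAt.eventually (gt_mem_nhds hx)] with y hy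
  exact H.P_in hy

theorem α_comp {x : M} (hx : D.f x < -R) {j : ι} (hj : j ≠ i₀) : α x j = 0 := by
  have h1 := congrArg (fun w : EuclideanSpace ℂ ι => w j) (H.α_sec x)
  simp only [H.P_in hx, act_single, if_neg hj] at h1
  exact h1.symm

theorem pair_in {x : M} (hx : D.f x < -R) (t : EuclideanSpace ℂ ι) :
    pair (α x) t = α x i₀ * t i₀ := by
  rw [pair, Finset.sum_eq_single i₀]
  · intro j _ hj
    rw [H.α_comp hx hj, zero_mul]
  · simp

theorem dbar_α {x : M} (hx : D.f x < -R) (i : Fin 2) :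
    dbar0 0 (fun y => α y i₀) x i = -(a x i * α x i₀) := by
  have h1 : dbar0 0 (fun y => α y i₀) x i = dbar0 0 α x i i₀ :=
    dbar0_clm (EuclideanSpace.proj (𝕜 := ℂ) i₀) (H.s0α x) i
  have h2 := congrArg (fun w : EuclideanSpace ℂ ι => w i₀) (H.α_hol x i)
  simp only [LB.db0, H.P_in hx, PiLp.add_apply, act_single, if_true, PiLp.smul_apply,
    smul_eq_mul, PiLp.zero_apply] at h2
  rw [h1]
  exact eq_neg_of_add_eq_zero_left h2

theorem dbar_a {x : M} (hx : D.f x < -R) : dbar1 0 a x = 0 := by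
  have h1 := H.hol.integrable x
  have h2 : ∀ i j k, dbar0 0 (fun y => L.P y i j) x k = 0 := by
    intro i j k
    have h3 : (fun y => L.P y i j) =ᶠ[𝓝 x] fun _ => (Matrix.single i₀ i₀ (1 : ℂ)) i j := by
      filter_upwards [H.P_in_eventually hx] with y hy
      rw [hy]
    rw [dbar0_congr h3, dbar0_const]
  have h3 : L.F02 x = 0 := by
    simp only [LB.F02, h2]
    have : (Matrix.of fun _ _ => (0 : ℂ) : Matrix ι ι ℂ) = 0 := rfl
    rw [this]
    simp
  rw [h3, add_zero] at h1
  exact h1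

/-- the translated data, `n`-th translate -/
theorem dbar_αn {x : M} {n : ℤ} (hx : D.f x + n < -R) (i : Fin 2) :
    dbar0 0 (fun y => α (D.sh n y) i₀) x i = -(a (D.sh n x) i * α (D.sh n x) i₀) := by
  have h1 := congrFun ((D.chartMap_sh n).dbar0_comp 0 (fun y => α y i₀) x) i
  rw [h1]
  exact H.dbar_α (by rw [D.f_sh]; exact hx) i

theorem dbar_an {x : M} {n : ℤ} (hx : D.f x + n < -R) :
    dbar1 0 (fun y => a (D.sh n y)) x = 0 := by
  rw [(D.chartMap_sh n).dbar1_comp]
  exact H.dbar_a (by rw [D.f_sh]; exact hx)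

theorem reg_αn (n : ℤ) : Reg0 ∞ 0 fun y => α (D.sh n y) i₀ :=
  (D.chartMap_sh n).reg0_comp (s := fun y => α y i₀)
    (reg0.2 fun x => (H.s0α x).comp_coord i₀)

theorem reg_an (n : ℤ) : Reg1 ∞ 0 fun y => a (D.sh n y) :=
  (D.chartMap_sh n).reg1_comp H.hol.smooth

theorem decay_an (n : ℤ) : ∃ C : ℝ, ∀ x, D.f x ≤ 0 →
    n1 D.h 0 (fun y => a (D.sh n y)) x ≤ C * Real.exp (d' * D.f x) := by
  refine inner_of_inner (continuous_n1 D.herm (H.reg_an n)) (s := -n) 0 ?_
  obtain ⟨C, hC⟩ := H.a_in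
  refine ⟨C * Real.exp (d' * n), fun x hx => ?_⟩
  rw [D.n1_comp_sh]
  have h1 := hC (D.sh n x) (by rw [D.f_sh]; linarith)
  refine h1.trans (le_of_eq ?_)
  rw [D.f_sh, mul_assoc, ← Real.exp_add]
  ring_nf

theorem lim_αn (n : ℤ) : Tendsto (fun x => α (D.sh n x) i₀) (comap D.f atBot) (𝓝 0) := by
  obtain ⟨C, hC⟩ := H.α_in
  have hd' : 0 < d' := H.d_pos.trans H.d_lt
  refine tendsto_of_exp (r := -n) hd' ⟨C * Real.exp (d' * n), fun x hx => ?_⟩
  rw [sub_zero]
  have h1 := hC (D.sh n x) (by rw [D.f_sh]; linarith)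
  have h2 : ‖α (D.sh n x) i₀‖ ≤ ‖α (D.sh n x)‖ := PiLp.norm_apply_le _ _
  refine (h2.trans h1).trans (le_of_eq ?_)
  rw [D.f_sh, mul_assoc, ← Real.exp_add]
  ring_nf

/-- **(C-v)** the quotient `δ` of `α ∘ γ^{-k}` by `α`, near the inner end, and its limit -/
theorem exists_delta {k : ℕ} (hk : 2 * R < k) :
    ∃ (δ : M → ℂ) (b : ℂ), Reg0 ∞ 0 δ ∧
      (∀ x, D.f x < -R → α (D.sh (-k) x) i₀ = α x i₀ * δ x) ∧
      (∀ x, D.f x < -R → ∀ i, dbar0 0 δ x i = (a x i - a (D.sh (-k) x) i) * δ x) ∧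
      Tendsto δ (comap D.f atBot) (𝓝 b) := by
  have hR := H.R_pos
  have hd' : 0 < d' := H.d_pos.trans H.d_lt
  obtain ⟨Δ, hΔ, -, ⟨C, hC⟩, hΔe⟩ := H.divide (H.reg_αn (-k)) (H.reg_an (-k)) (R₂ := k - R)
    (by linarith)
    (fun x hx i => H.dbar_αn (by push_cast; linarith) i)
    (fun x hx => H.dbar_an (by push_cast; linarith))
    ⟨d', hd', H.decay_an (-k)⟩ (H.lim_αn (-k))
  set δ : M → ℂ := fun x => Δ x i₀ with hδ
  have sδ : ∀ x, S0 δ x := fun x => (reg0.1 hΔ x).comp_coord i₀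
  have hfac : ∀ x, D.f x < -R → α (D.sh (-k) x) i₀ = α x i₀ * δ x := by
    intro x hx
    rw [hΔe x (by linarith), H.pair_in hx]
  have hdδ : ∀ x, D.f x < -R → ∀ i, dbar0 0 δ x i = (a x i - a (D.sh (-k) x) i) * δ x := by
    set θ : M → Fin 2 → ℂ := fun x i =>
      dbar0 0 δ x i - δ x * (a x i - a (D.sh (-k) x) i) with hθ
    have hθr : Reg1 ∞ 0 θ := reg1.2 fun x => (sδ x).dbar.sub
      (S1.mul (sδ x) ((H.s1a x).sub (reg1.1 (H.reg_an (-k)) x)))
    have h1 : ∀ y, D.f y < -R → α y ≠ 0 → θ y = 0 := by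
      intro y hy hαy
      have hα0 : α y i₀ ≠ 0 := by
        intro h0
        apply hαy
        ext j
        by_cases hj : j = i₀
        · subst hj; exact h0
        · exact H.α_comp hy hj
      funext i
      have h2 : (fun y => α (D.sh (-k) y) i₀) =ᶠ[𝓝 y] fun y => α y i₀ * δ y := by
        filter_upwards [(continuous_f D).continuousAt.eventually (gt_mem_nhds hy)] with z hz
        exact hfac z hz
      have h3 := dbar0_congr h2 i
      rw [H.dbar_αn (by push_cast; linarith), dbar0_mul ((H.s0α y).comp_coord i₀) (sδ y),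
        H.dbar_α hy, hfac y hy] at h3
      have h4 : α y i₀ * θ y i = 0 := by
        simp only [hθ]
        linear_combination -h3
      exact (mul_eq_zero.1 h4).resolve_left hα0
    have h2 : ∀ x, D.f x < -R → n1 D.h 0 θ x = 0 := by
      intro x hx
      by_contra hne
      have hopen : IsOpen {y | D.f y < -R ∧ n1 D.h 0 θ y ≠ 0} :=
        (isOpen_lt (continuous_f D) continuous_const).inter
          (isOpen_ne.preimage (continuous_n1 D.herm hθr))
      obtain ⟨y, ⟨hy1, hy2⟩, hy3⟩ := H.α_dense.inter_open_nonempty _ hopen ⟨x, hx, hne⟩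
      apply hy2
      rw [n1_eq D.herm, h1 y hy1 hy3]
      have : fr D.herm y (0 : Fin 2 → ℂ) = 0 := by ext k; simp [fr]
      rw [this, norm_zero]
    intro x hx i
    have h3 := eq_zero_of_n1 D.herm (h2 x hx) i
    simp only [hθ] at h3
    linear_combination h3
  -- the limit
  have hst : -R - 2 < -R - 1 := by linarith
  set u : M → ℂ := fun x => cut D (-R - 2) (-R - 1) x * δ x with hu
  have su : ∀ x, S0 u x := fun x => (S0.cut D _ _ x).mul (sδ x)
  have hδb : ∀ x, D.f x ≤ 0 → ‖δ x‖ ≤ C * Real.exp (-d * D.f x) := fun x hx =>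
    (PiLp.norm_apply_le _ _).trans (hC x hx)
  have huW : W0 D d u := by
    refine ⟨reg0.2 su, weight_of_inner (Reg0.cont (reg0.2 su)).norm (r := -R - 1) (s := 0)
      (fun x hx => ?_) ⟨C, fun x hx => ?_⟩⟩
    · simp only [hu]
      rw [cut_eq_zero D hst hx, zero_mul, norm_zero]
    · simp only [hu]
      rw [norm_mul]
      have h1 := mul_le_mul_of_nonneg_right (norm_cut_le D (-R - 2) (-R - 1) x)
        (norm_nonneg (δ x))
      rw [one_mul] at h1
      exact h1.trans (hδb x hx)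
  have hdec : ∃ C : ℝ, ∀ x, D.f x ≤ 0 →
      n1 D.h 0 (dbar0 0 u) x ≤ C * Real.exp ((d' - d) * D.f x) := by
    refine inner_of_inner (continuous_n1 D.herm (reg1.2 fun x => (su x).dbar)) (s := -R - 3) 0 ?_
    obtain ⟨C₁, hC₁⟩ := H.a_in
    obtain ⟨C₂, hC₂⟩ := H.decay_an (-k)
    refine ⟨|C| * (|C₁| + |C₂|), fun x hx => ?_⟩
    have hx0 : D.f x ≤ 0 := by linarith
    have h1 : u =ᶠ[𝓝 x] δ := by
      have hx2 : D.f x < -R - 2 := by linarith
      filter_upwards [(continuous_f D).continuousAt.eventually (gt_mem_nhds hx2)] with y hy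
      simp only [hu]
      rw [cut_eq_one D hst hy.le, one_mul]
    have h2 : fr D.herm x (dbar0 0 u x) =
        fr D.herm x (fun i => δ x • (a x i - a (D.sh (-k) x) i)) := by
      congr 1
      funext i
      rw [dbar0_congr h1, hdδ x (by linarith), smul_eq_mul]
      ring
    have h3 : n1 D.h 0 (dbar0 0 u) x =
        n1 D.h 0 (fun y i => δ y • (a y i - a (D.sh (-k) y) i)) x := by
      rw [n1_eq D.herm, n1_eq D.herm, h2]
    rw [h3, n1_smul D.herm]
    have h4 := n1_sub_le D.herm a (fun y => a (D.sh (-k) y)) x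
    have h5 : n1 D.h 0 a x ≤ |C₁| * Real.exp (d' * D.f x) :=
      (hC₁ x hx0).trans (mul_le_mul_of_nonneg_right (le_abs_self _) (Real.exp_pos _).le)
    have h6 : n1 D.h 0 (fun y => a (D.sh (-k) y)) x ≤ |C₂| * Real.exp (d' * D.f x) :=
      (hC₂ x hx0).trans (mul_le_mul_of_nonneg_right (le_abs_self _) (Real.exp_pos _).le)
    have h7 : ‖δ x‖ ≤ |C| * Real.exp (-d * D.f x) :=
      (hδb x hx0).trans (mul_le_mul_of_nonneg_right (le_abs_self _) (Real.exp_pos _).le)
    calc ‖δ x‖ * n1 D.h 0 (fun y i => a y i - a (D.sh (-k) y) i) x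
        ≤ (|C| * Real.exp (-d * D.f x)) * ((|C₁| + |C₂|) * Real.exp (d' * D.f x)) := by
          refine mul_le_mul h7 ?_ (n1_nonneg _ _) (by positivity)
          rw [add_mul]
          exact h4.trans (add_le_add h5 h6)
      _ = |C| * (|C₁| + |C₂|) * (Real.exp (-d * D.f x) * Real.exp (d' * D.f x)) := by ring
      _ = |C| * (|C₁| + |C₂|) * Real.exp ((d' - d) * D.f x) := by
          rw [← Real.exp_add]; ring_nf
  obtain ⟨b, ε', hε', hlim⟩ := H.A5 u huW (d' - d) (sub_pos.2 H.d_lt) hdec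
  refine ⟨δ, b, reg0.2 sδ, hfac, hdδ, ?_⟩
  refine (tendsto_of_exp hε' hlim).congr' ?_
  filter_upwards [tendsto_comap.eventually (eventually_le_atBot (-R - 2))] with x hx
  simp only [hu]
  rw [cut_eq_one D hst hx, one_mul]

/-- **(C3), the end statement** -/
theorem endStatement (hdiv : DivLocal L α) : EndStatement D α := by
  have hR := H.R_pos
  have hd' : 0 < d' := H.d_pos.trans H.d_lt
  obtain ⟨k, hk⟩ := exists_nat_gt (2 * R)
  have hk0 : 0 < k := by
    rcases Nat.eq_zero_or_pos k with h | h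
    · subst h; push_cast at hk; linarith
    · exact h
  obtain ⟨δ, b, hδ, hfac, hdδ, hδlim⟩ := H.exists_delta hk
  have sδ : ∀ x, S0 δ x := reg0.1 hδ
  refine ⟨k, hk0, fun ψ ρ hρ hψ hlim j => ?_⟩
  -- exact frames
  have hframe : ∀ n : ℕ, ∃ (v : M → ℂ) (η : M → Fin 2 → EuclideanSpace ℂ ι) (c : ℂ) (r₁ : ℝ),
      Reg0 ∞ 0 v ∧ (∀ x, D.f x < r₁ → ∀ i, dbar0 0 v x i =
        a (D.sh (n * k) x) i + pair (α x) (η x i)) ∧ Tendsto v (comap D.f atBot) (𝓝 c) := by
    intro n
    refine H.frame hdiv (H.reg_an (n * k)) (r := -R - n * k) (fun x hx => H.dbar_an ?_)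
      ⟨d', hd', H.decay_an (n * k)⟩
    push_cast
    linarith
  choose v η c r₁ hv hdv hvlim using hframe
  have sv : ∀ n x, S0 (v n) x := fun n => reg0.1 (hv n)
  -- the functions
  set A : ℕ → M → ℂ := fun n x => α (D.sh (n * k) x) i₀ with hA
  have sA : ∀ n x, S0 (A n) x := fun n => reg0.1 (H.reg_αn (n * k))
  set Dn : ℕ → M → ℂ := fun n x => δ (D.sh ((n + 1 : ℕ) * k) x) with hDn
  have sD : ∀ n x, S0 (Dn n) x := fun n => reg0.1 ((D.chartMap_sh ((n + 1 : ℕ) * k)).reg0_comp hδ)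
  set Φ : ℕ → M → ℂ := fun n x => A n x * Complex.exp (v n x) with hΦ
  set Γ : ℕ → M → ℂ := fun n x => Dn n x * Complex.exp (v n x - v (n + 1) x) with hΓ
  have sΦ : ∀ n x, S0 (Φ n) x := fun n x => (sA n x).mul (sv n x).cexp
  have sΓ : ∀ n x, S0 (Γ n) x := fun n x => (sD n x).mul ((sv n x).sub (sv (n + 1) x)).cexp
  -- heights of translates
  have hsh : ∀ (n : ℕ) (x : M), D.sh (-k) (D.sh ((n + 1 : ℕ) * k) x) = D.sh (n * k) x := by
    intro n x
    rw [← D.sh_add]
    congr 1
    push_cast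
    ring
  have hrel : ∀ (n : ℕ) (x : M), D.f x + ((n + 1 : ℕ) : ℝ) * k < -R →
      Φ n x = Φ (n + 1) x * Γ n x := by
    intro n x hx
    have h1 := hfac (D.sh ((n + 1 : ℕ) * k) x) (by rw [D.f_sh]; push_cast; push_cast at hx; linarith)
    rw [hsh] at h1
    simp only [hΦ, hΓ, hA, hDn]
    rw [h1]
    have h2 : Complex.exp (v n x) =
        Complex.exp (v (n + 1) x) * Complex.exp (v n x - v (n + 1) x) := by
      rw [← Complex.exp_add]; ring_nf
    rw [h2]
    ring
  have hdΦ : ∀ (n : ℕ) (x : M), D.f x < min (r₁ n) (-R - n * k) → α x = 0 → ∀ i,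
      dbar0 0 (Φ n) x i = 0 := by
    intro n x hx hαx i
    have e1 := dbar0_mul (sA n x) (sv n x).cexp i
    have e2 := dbar0_cexp (sv n x) i
    have e3 := hdv n x (hx.trans_le (min_le_left _ _)) i
    have e4 := H.dbar_αn (n := n * k) (x := x)
      (by push_cast; linarith [hx.trans_le (min_le_right (r₁ n) (-R - n * k))]) i
    simp only [hΦ]
    rw [e1, e2, e3, hαx, pair_zero_left]
    simp only [hA]
    rw [e4]
    ring
  have hdΓ : ∀ (n : ℕ) (x : M), D.f x < min (min (r₁ n) (r₁ (n + 1))) (-R - (n + 1 : ℕ) * k) →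
      α x = 0 → ∀ i, dbar0 0 (Γ n) x i = 0 := by
    intro n x hx hαx i
    have e1 := dbar0_mul (sD n x) ((sv n x).sub (sv (n + 1) x)).cexp i
    have e2 := dbar0_cexp ((sv n x).sub (sv (n + 1) x)) i
    have e2' := dbar0_sub (sv n x) (sv (n + 1) x) i
    have e3 := hdv n x (hx.trans_le ((min_le_left _ _).trans (min_le_left _ _))) i
    have e3' := hdv (n + 1) x (hx.trans_le ((min_le_left _ _).trans (min_le_right _ _))) i
    have e4 : dbar0 0 (Dn n) x i =
        (a (D.sh ((n + 1 : ℕ) * k) x) i - a (D.sh (n * k) x) i) * Dn n x := by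
      have h1 := congrFun ((D.chartMap_sh ((n + 1 : ℕ) * k)).dbar0_comp 0 δ x) i
      simp only [hDn]
      rw [h1, hdδ _ (by
        rw [D.f_sh]
        have := hx.trans_le (min_le_right (min (r₁ n) (r₁ (n + 1))) (-R - (n + 1 : ℕ) * k))
        push_cast
        push_cast at this
        linarith), hsh]
    simp only [hΓ]
    rw [e1, e2, e2', e3, e3', e4, hαx, pair_zero_left, pair_zero_left]
    ring
  -- limits along the inner end
  have hΦlim : ∀ n, Tendsto (Φ n) (comap D.f atBot) (𝓝 0) := by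
    intro n
    have := (H.lim_αn (n * k)).mul ((Complex.continuous_exp.tendsto _).comp (hvlim n))
    rw [zero_mul] at this
    exact this
  have hΓlim : ∀ n, Tendsto (Γ n) (comap D.f atBot) (𝓝 (b * Complex.exp (c n - c (n + 1)))) := by
    intro n
    refine Tendsto.mul ?_ ((Complex.continuous_exp.tendsto _).comp ((hvlim n).sub (hvlim (n + 1))))
    refine hδlim.comp ?_
    rw [tendsto_comap_iff]
    have h1 : (D.f ∘ D.sh ((n + 1 : ℕ) * k)) = fun x => D.f x + (((n + 1 : ℕ) * k : ℤ) : ℝ) := by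
      funext x
      exact D.f_sh _ _
    rw [h1]
    exact tendsto_atBot_add_const_right _ _ tendsto_comap
  -- restriction to `ψ`
  have hψlim : Tendsto ψ (𝓝[≠] 0) (comap D.f atBot) := tendsto_comap_iff.2 hlim
  have hball : ∀ᶠ t in 𝓝[≠] (0 : ℂ), t ≠ 0 ∧ ‖t‖ < ρ := by
    have h1 : ∀ᶠ t : ℂ in 𝓝 0, ‖t‖ < ρ := by
      have := Metric.ball_mem_nhds (0 : ℂ) hρ
      filter_upwards [this] with t ht
      simpa using ht
    filter_upwards [self_mem_nhdsWithin, h1.filter_mono nhdsWithin_le_nhds] with t ht ht'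
    exact ⟨ht, ht'⟩
  have hlow : ∀ r : ℝ, ∀ᶠ t in 𝓝[≠] (0 : ℂ), D.f (ψ t) < r := fun r =>
    hlim.eventually (eventually_lt_atBot r)
  have key := seq_vanish (F := fun n t => Φ n (ψ t)) (G := fun n t => Γ n (ψ t))
    (g := fun n => b * Complex.exp (c n - c (n + 1)))
    (fun n => by
      filter_upwards [hball, hlow (min (r₁ n) (-R - n * k))] with t ht hl
      obtain ⟨h1, h2, h3⟩ := hψ t ht.1 ht.2
      exact hol_comp h1 h2 (sΦ n _) (hdΦ n _ hl h3))
    (fun n => by
      filter_upwards [hball, hlow (min (min (r₁ n) (r₁ (n + 1))) (-R - (n + 1 : ℕ) * k))]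
        with t ht hl
      obtain ⟨h1, h2, h3⟩ := hψ t ht.1 ht.2
      exact hol_comp h1 h2 (sΓ n _) (hdΓ n _ hl h3))
    (fun n => (hΦlim n).comp hψlim) (fun n => (hΓlim n).comp hψlim)
    (fun n => by
      filter_upwards [hlow (-R - (n + 1 : ℕ) * k)] with t hl
      exact hrel n _ (by linarith))
    (by
      by_cases hb : b = 0
      · left; intro n; rw [hb, zero_mul]
      · right; intro n; exact mul_ne_zero hb (Complex.exp_ne_zero _))
    (by
      filter_upwards [hball] with t ht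
      obtain ⟨-, -, h3⟩ := hψ t ht.1 ht.2
      simp [hΦ, hA, h3])
    j
  filter_upwards [key, hlow (-R - j * k)] with t ht hl
  have h1 : α (D.sh (j * k) (ψ t)) i₀ = 0 := by
    simp only [hΦ, hA] at ht
    exact (mul_eq_zero.1 ht).resolve_right (Complex.exp_ne_zero _)
  ext l
  by_cases hl' : l = i₀
  · subst hl'; exact h1
  · exact H.α_comp (by rw [D.f_sh]; push_cast; linarith) hl'

end XtCone

end Vale.Agent.P267.H692
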