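import Mathlib

/-!
# Abstract cone algebra for the divisor `D_e` (steps (2), (3) of the blueprint)

`W0 W1 W2` : forms of weight `-d`; `I0 I1 I2` : forms divisible by the section `α` with a quotient
of weight `-d`.  Everything is linear algebra.
-/

namespace Vale.Agent.P267.H692

variable {V0 V1 V2 : Type*} [AddCommGroup V0] [Module ℂ V0] [AddCommGroup V1] [Module ℂ V1]
  [AddCommGroup V2] [Module ℂ V2]

/-- The axioms of a cone. -/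
structure ConeAx (d0 : V0 →ₗ[ℂ] V1) (d1 : V1 →ₗ[ℂ] V2)
    (W0 I0 : Submodule ℂ V0) (W1 I1 : Submodule ℂ V1) (W2 I2 : Submodule ℂ V2) : Prop where
  dd : ∀ u, d1 (d0 u) = 0
  I0W : I0 ≤ W0
  I1W : I1 ≤ W1
  I2W : I2 ≤ W2
  dI0 : ∀ u ∈ I0, d0 u ∈ I1 → True
  A0 : ∀ u ∈ W0, d0 u = 0 → u = 0
  A1 : ∀ w ∈ W1, d1 w = 0 → ∃ u ∈ W0, d0 u = w
  A2 : ∀ w ∈ I2, ∃ a ∈ I1, d1 a = w
  A3 : ∀ a₁ ∈ I1, ∀ a₂ ∈ I1, d1 a₁ = 0 → d1 a₂ = 0 →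
    ∃ c₁ c₂ : ℂ, (c₁ ≠ 0 ∨ c₂ ≠ 0) ∧ ∃ b ∈ I0, d0 b = c₁ • a₁ + c₂ • a₂

variable {d0 : V0 →ₗ[ℂ] V1} {d1 : V1 →ₗ[ℂ] V2}
    {W0 I0 : Submodule ℂ V0} {W1 I1 : Submodule ℂ V1} {W2 I2 : Submodule ℂ V2}

/-- solving `∂̄` along the divisor -/
theorem ConeAx.solve (h : ConeAx d0 d1 W0 I0 W1 I1 W2 I2) {g : V1} (hg : g ∈ W1)
    (hd : d1 g ∈ I2) : ∃ u ∈ W0, d0 u - g ∈ I1 := by
  obtain ⟨a, ha, hda⟩ := h.A2 _ hd
  obtain ⟨u, hu, hdu⟩ := h.A1 (g - a) (W1.sub_mem hg (h.I1W ha)) (by rw [map_sub, hda, sub_self])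
  refine ⟨u, hu, ?_⟩
  rw [hdu]
  have : g - a - g = -a := by abel
  rw [this]
  exact I1.neg_mem ha

/-- uniqueness: functions on the divisor vanishing at the inner end vanish -/
theorem ConeAx.unique (h : ConeAx d0 d1 W0 I0 W1 I1 W2 I2) (ain : V0 → ℂ)
    (hadd : ∀ u ∈ W0, ∀ v ∈ W0, d0 u ∈ I1 → d0 v ∈ I1 → ∀ c₁ c₂ : ℂ,
      ain (c₁ • u + c₂ • v) = c₁ * ain u + c₂ * ain v)
    (hI : ∀ u ∈ I0, ain u = 0) {χ : V0} (hχ : χ ∈ W0) (hdχ : d0 χ ∈ I1) (hχ1 : ain χ ≠ 0)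
    {u : V0} (hu : u ∈ W0) (hdu : d0 u ∈ I1) (hu0 : ain u = 0) : u ∈ I0 := by
  obtain ⟨c₁, c₂, hc, b, hb, hdb⟩ := h.A3 _ hdu _ hdχ (h.dd u) (h.dd χ)
  have h1 : c₁ • u + c₂ • χ - b = 0 := by
    refine h.A0 _ (W0.sub_mem (W0.add_mem (W0.smul_mem _ hu) (W0.smul_mem _ hχ)) (h.I0W hb)) ?_
    rw [map_sub, map_add, map_smul, map_smul, hdb, sub_self]
  have h2 : c₁ • u + c₂ • χ = b := sub_eq_zero.1 h1
  have h3 := hadd u hu χ hχ hdu hdχ c₁ c₂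
  rw [h2, hI b hb, hu0, mul_zero, zero_add] at h3
  have hc2 : c₂ = 0 := by
    rcases mul_eq_zero.1 h3.symm with h | h
    · exact h
    · exact absurd h hχ1
  have hc1 : c₁ ≠ 0 := by
    rcases hc with h | h
    · exact h
    · exact absurd hc2 h
  rw [hc2, zero_smul, add_zero] at h2
  have : u = c₁⁻¹ • b := by
    rw [← h2, smul_smul, inv_mul_cancel₀ hc1, one_smul]
  rw [this]
  exact I0.smul_mem _ hb

end Vale.Agent.P267.H692
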