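import Mathlib

/-!
# Order at the end of a noncompact Riemann surface

`end_order_finite`: a function `g`, holomorphic off a compact subset of a connected noncompact
Riemann surface and tending to `0` at infinity, can be a product (off a compact set) of only
boundedly many functions of the same kind.
-/

open Set Filter Topology Manifold

noncomputable section

namespace Vale.Agent.P267.H692

variable {R : Type*} [TopologicalSpace R] [ChartedSpace ℂ R]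

/-- Holomorphic functions read in a chart. -/
theorem chart_diff [IsManifold 𝓘(ℂ) 1 R] {g : R → ℂ} {U : Set R}
    (hg : MDifferentiableOn 𝓘(ℂ) 𝓘(ℂ) g U) {e : OpenPartialHomeomorph R ℂ}
    (he : e ∈ atlas ℂ R) :
    DifferentiableOn ℂ (g ∘ e.symm) (e.target ∩ e.symm ⁻¹' U) := by
  rw [← mdifferentiableOn_iff_differentiableOn]
  refine MDifferentiableOn.comp hg ((mdifferentiableOn_atlas_symm he).mono inter_subset_left) ?_
  intro z hz
  exact hz.2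

/-- `y` is a regular point of `g`. -/
def Reg (g : R → ℂ) (y : R) : Prop :=
  ∃ e : OpenPartialHomeomorph R ℂ, e ∈ atlas ℂ R ∧ y ∈ e.source ∧ deriv (g ∘ e.symm) (e y) ≠ 0

omit [ChartedSpace ℂ R] in
/-- transfer of punctured neighbourhoods through a chart -/
theorem eventually_punctured_of_chart {e : OpenPartialHomeomorph R ℂ} {x : R}
    (hx : x ∈ e.source) {p : ℂ → Prop} (hp : ∀ᶠ z in 𝓝[≠] (e x), p z) :
    ∀ᶠ y in 𝓝[≠] x, p (e y) := by
  have ht : Tendsto e (𝓝[≠] x) (𝓝[≠] (e x)) := by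
    refine tendsto_nhdsWithin_of_tendsto_nhds_of_eventually_within _
      ((e.continuousAt hx).tendsto.mono_left nhdsWithin_le_nhds) ?_
    have h1 : ∀ᶠ y in 𝓝[≠] x, y ∈ e.source :=
      nhdsWithin_le_nhds (e.open_source.mem_nhds hx)
    filter_upwards [h1, self_mem_nhdsWithin] with y hy hne
    intro h
    exact hne (e.injOn hy hx h)
  exact ht.eventually hp

omit [ChartedSpace ℂ R] in
theorem eventually_of_chart {e : OpenPartialHomeomorph R ℂ} {x : R}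
    (hx : x ∈ e.source) {p : ℂ → Prop} (hp : ∀ᶠ z in 𝓝 (e x), p z) :
    ∀ᶠ y in 𝓝 x, p (e y) :=
  (e.continuousAt hx).tendsto.eventually hp

theorem analyticAt_chart [IsManifold 𝓘(ℂ) 1 R] {g : R → ℂ} {U : Set R} (hU : IsOpen U)
    (hg : MDifferentiableOn 𝓘(ℂ) 𝓘(ℂ) g U) {e : OpenPartialHomeomorph R ℂ}
    (he : e ∈ atlas ℂ R) {x : R} (hx : x ∈ e.source) (hxU : x ∈ U) :
    AnalyticAt ℂ (g ∘ e.symm) (e x) := by
  have h1 := chart_diff hg he
  refine h1.analyticAt ?_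
  refine (e.isOpen_inter_preimage_symm hU).mem_nhds ?_
  refine ⟨e.map_source hx, ?_⟩
  simp [e.left_inv hx, hxU]

/-- Near a point where `g` is not locally constant, `g` takes the value `g x` only at `x`, and
all other points are regular. -/
theorem isolated [IsManifold 𝓘(ℂ) 1 R] {g : R → ℂ} {U : Set R} (hU : IsOpen U)
    (hg : MDifferentiableOn 𝓘(ℂ) 𝓘(ℂ) g U) {x : R} (hxU : x ∈ U)
    (hnc : ¬ ∀ᶠ y in 𝓝 x, g y = g x) :
    ∀ᶠ y in 𝓝[≠] x, g y ≠ g x ∧ Reg g y := by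
  set e := chartAt ℂ x with he
  have hx : x ∈ e.source := mem_chart_source ℂ x
  have hea : e ∈ atlas ℂ R := chart_mem_atlas ℂ x
  have ha := analyticAt_chart hU hg hea hx hxU
  have hfx : (g ∘ e.symm) (e x) = g x := by simp [e.left_inv hx]
  have hsrc : ∀ᶠ y in 𝓝 x, y ∈ e.source := e.open_source.mem_nhds hx
  -- not locally constant in the chart
  have hnc' : ¬ ∀ᶠ z in 𝓝 (e x), (g ∘ e.symm) z = g x := by
    intro h
    apply hnc
    filter_upwards [eventually_of_chart hx h, hsrc] with y hy hys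
    simpa [e.left_inv hys] using hy
  have h1 : ∀ᶠ z in 𝓝[≠] (e x), (g ∘ e.symm) z ≠ g x := by
    rcases ha.eventually_eq_or_eventually_ne (analyticAt_const (v := g x)) with h | h
    · exact absurd h hnc'
    · exact h
  have h2 : ∀ᶠ z in 𝓝[≠] (e x), deriv (g ∘ e.symm) z ≠ 0 := by
    rcases ha.deriv.eventually_eq_zero_or_eventually_ne_zero with h | h
    · exfalso
      apply hnc'
      -- derivative zero near e x, so constant on a ball
      have h3 : ∀ᶠ z in 𝓝 (e x), DifferentiableAt ℂ (g ∘ e.symm) z :=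
        ha.eventually_analyticAt.mono fun z hz => hz.differentiableAt
      obtain ⟨r, hr, hb⟩ := Metric.eventually_nhds_iff_ball.1 (h.and h3)
      filter_upwards [Metric.ball_mem_nhds (e x) hr] with z hz
      have := Convex.is_const_of_fderivWithin_eq_zero (𝕜 := ℂ) (convex_ball (e x) r)
        (f := g ∘ e.symm) (fun w hw => (hb w hw).2.differentiableWithinAt) (fun w hw => by
          rw [fderivWithin_of_isOpen Metric.isOpen_ball hw]
          ext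
          simpa using (hb w hw).1) hz (Metric.mem_ball_self hr)
      rw [this, hfx]
    · exact h
  have h3 := eventually_punctured_of_chart hx (h1.and h2)
  filter_upwards [h3, nhdsWithin_le_nhds hsrc] with y hy hys
  refine ⟨?_, e, hea, hys, hy.2⟩
  have := hy.1
  simpa [e.left_inv hys] using this

/-- local inverse at a regular point -/
theorem local_inverse [IsManifold 𝓘(ℂ) 1 R] {g : R → ℂ} {U : Set R} (hU : IsOpen U)
    (hg : MDifferentiableOn 𝓘(ℂ) 𝓘(ℂ) g U) {y : R} (hy : y ∈ U) (hr : Reg g y) :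
    ∃ h : ℂ → R, h (g y) = y ∧ ContinuousAt h (g y) ∧ (∀ᶠ w in 𝓝 (g y), g (h w) = w) ∧
      (∀ᶠ x in 𝓝 y, h (g x) = x) ∧
      (∀ (q : R → ℂ) (U' : Set R), IsOpen U' → y ∈ U' → MDifferentiableOn 𝓘(ℂ) 𝓘(ℂ) q U' →
        DifferentiableAt ℂ (q ∘ h) (g y)) := by
  obtain ⟨e, he, hye, hd⟩ := hr
  have ha := analyticAt_chart hU hg he hye hy
  set f := g ∘ e.symm with hf
  have hs : HasStrictDerivAt f (deriv f (e y)) (e y) := ha.hasStrictDerivAt
  have hfy : f (e y) = g y := by simp [hf, e.left_inv hye]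
  set k := hs.localInverse f _ _ hd with hk
  have hkd : HasStrictDerivAt k (deriv f (e y))⁻¹ (f (e y)) := hs.to_localInverse hd
  have hkl : ∀ᶠ z in 𝓝 (e y), k (f z) = z :=
    (hs.hasStrictFDerivAt_equiv hd).eventually_left_inverse
  have hkr : ∀ᶠ w in 𝓝 (f (e y)), f (k w) = w :=
    (hs.hasStrictFDerivAt_equiv hd).eventually_right_inverse
  have hky : k (g y) = e y := by
    rw [← hfy]; exact hkl.self_of_nhds
  have hkc : ContinuousAt k (g y) := by rw [← hfy]; exact hkd.hasDerivAt.continuousAt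
  have hsc : ContinuousAt e.symm (k (g y)) := by
    rw [hky]; exact e.continuousAt_symm (e.map_source hye)
  refine ⟨fun w => e.symm (k w), ?_, ?_, ?_, ?_, ?_⟩
  · simp [hky, e.left_inv hye]
  · exact ContinuousAt.comp' (f := k) (g := e.symm) hsc hkc
  · rw [hfy] at hkr
    exact hkr
  · have h1 := eventually_of_chart hye hkl
    filter_upwards [h1, e.open_source.mem_nhds hye] with x hx hxs
    have h2 : f (e x) = g x := by simp [hf, e.left_inv hxs]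
    rw [h2] at hx
    simp [hx, e.left_inv hxs]
  · intro q U' hU' hyU' hq
    have hqa := analyticAt_chart hU' hq he hye hyU'
    have : DifferentiableAt ℂ ((q ∘ e.symm) ∘ k) (g y) := by
      apply DifferentiableAt.comp
      · rw [hky]; exact hqa.differentiableAt
      · rw [← hfy]; exact hkd.hasDerivAt.differentiableAt
    exact this

/-- A good exhaustion pair: compact `K₀` and a level `c`. -/
structure Pair (g : R → ℂ) (K K₀ : Set R) (c : ℝ) : Prop where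
  cpt : IsCompact K₀
  sub : K ⊆ interior K₀
  cpos : 0 < c
  bd : ∀ x ∈ frontier K₀, c ≤ ‖g x‖
  nonc : ∀ x ∉ K₀, ‖g x‖ < c → ¬ ∀ᶠ y in 𝓝 x, g y = g x

omit [ChartedSpace ℂ R] in
theorem Pair.mono {g : R → ℂ} {K K₀ : Set R} {c c' : ℝ} (h : Pair g K K₀ c) (hc : 0 < c')
    (hcc : c' ≤ c) : Pair g K K₀ c' :=
  ⟨h.cpt, h.sub, hc, fun x hx => hcc.trans (h.bd x hx), fun x hx hg =>
    h.nonc x hx (hg.trans_le hcc)⟩

/-- the fibre over `w` off `K₀` -/
def Fib (g : R → ℂ) (K₀ : Set R) (w : ℂ) : Set R := {x | x ∉ K₀ ∧ g x = w}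

theorem continuousOn_compl {g : R → ℂ} {K K₀ : Set R} [IsManifold 𝓘(ℂ) 1 R]
    (hg : MDifferentiableOn 𝓘(ℂ) 𝓘(ℂ) g Kᶜ) (hsub : K ⊆ interior K₀) :
    ContinuousOn g (interior K₀)ᶜ :=
  hg.continuousOn.mono (compl_subset_compl.2 hsub)

/-- bands are compact -/
theorem band_compact [T2Space R] [IsManifold 𝓘(ℂ) 1 R] {g : R → ℂ} {K K₀ : Set R} {c : ℝ}
    (hg : MDifferentiableOn 𝓘(ℂ) 𝓘(ℂ) g Kᶜ) (h0 : Tendsto g (cocompact R) (𝓝 0))
    (hp : Pair g K K₀ c) {a b : ℝ} (ha : 0 < a) :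
    IsCompact {x | x ∉ interior K₀ ∧ a ≤ ‖g x‖ ∧ ‖g x‖ ≤ b} := by
  have h1 : ∀ᶠ x in cocompact R, ‖g x‖ < a := by
    have := h0.norm
    simp only [norm_zero] at this
    exact this.eventually (gt_mem_nhds ha)
  obtain ⟨T, hT, hTs⟩ := mem_cocompact.1 h1
  have hcont := continuousOn_compl hg hp.sub
  have hcl : IsClosed {x | x ∉ interior K₀ ∧ a ≤ ‖g x‖ ∧ ‖g x‖ ≤ b} := by
    have := (hcont.norm).preimage_isClosed_of_isClosed isOpen_interior.isClosed_compl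
      (isClosed_Icc (a := a) (b := b))
    exact this
  refine hT.of_isClosed_subset hcl ?_
  intro x hx
  by_contra hxT
  exact absurd (hTs hxT) (not_lt.2 hx.2.1)

theorem fib_subset_open [T2Space R] [IsManifold 𝓘(ℂ) 1 R] {g : R → ℂ} {K K₀ : Set R} {c : ℝ}
    (hg : MDifferentiableOn 𝓘(ℂ) 𝓘(ℂ) g Kᶜ) (h0 : Tendsto g (cocompact R) (𝓝 0))
    (hp : Pair g K K₀ c) {w₀ : ℂ} (hw : 0 < ‖w₀‖) (hwc : ‖w₀‖ < c) {W : Set R} (hW : IsOpen W)
    (hF : Fib g K₀ w₀ ⊆ W) : ∀ᶠ w in 𝓝 w₀, Fib g K₀ w ⊆ W := by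
  set P := {x | x ∉ interior K₀ ∧ ‖w₀‖ / 2 ≤ ‖g x‖ ∧ ‖g x‖ ≤ (‖w₀‖ + c) / 2} \ W with hP
  have hPc : IsCompact P := (band_compact hg h0 hp (half_pos hw)).diff hW
  have hcont : ContinuousOn g P :=
    (continuousOn_compl hg hp.sub).mono fun x hx => hx.1.1
  have hgP : IsCompact (g '' P) := hPc.image_of_continuousOn hcont
  have hnot : w₀ ∉ g '' P := by
    rintro ⟨x, hx, hxw⟩
    apply hx.2
    apply hF
    refine ⟨?_, hxw⟩
    intro hxK
    have hfr : x ∈ frontier K₀ := by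
      rw [hp.cpt.isClosed.frontier_eq]
      exact ⟨hxK, hx.1.1⟩
    have := hp.bd x hfr
    rw [hxw] at this
    exact absurd this (not_le.2 hwc)
  have h1 : ∀ᶠ w in 𝓝 w₀, w ∉ g '' P := hgP.isClosed.isOpen_compl.mem_nhds hnot
  have h2 : ∀ᶠ w in 𝓝 w₀, ‖w₀‖ / 2 < ‖w‖ :=
    continuous_norm.continuousAt.eventually (lt_mem_nhds (by linarith))
  have h3 : ∀ᶠ w in 𝓝 w₀, ‖w‖ < (‖w₀‖ + c) / 2 :=
    continuous_norm.continuousAt.eventually (gt_mem_nhds (by linarith))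
  filter_upwards [h1, h2, h3] with w hw1 hw2 hw3 x hx
  by_contra hxW
  apply hw1
  refine ⟨x, ⟨⟨?_, ?_, ?_⟩, hxW⟩, hx.2⟩
  · intro h
    exact hx.1 (interior_subset h)
  · rw [hx.2]; exact hw2.le
  · rw [hx.2]; exact hw3.le

omit [ChartedSpace ℂ R] in
theorem fib_eq_band {g : R → ℂ} {K K₀ : Set R} {c : ℝ} [T2Space R]
    (hp : Pair g K K₀ c) {w₀ : ℂ} (hwc : ‖w₀‖ < c) :
    Fib g K₀ w₀ = {x | x ∉ interior K₀ ∧ g x = w₀} := by
  ext x
  constructor
  · rintro ⟨h1, h2⟩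
    exact ⟨fun h => h1 (interior_subset h), h2⟩
  · rintro ⟨h1, h2⟩
    refine ⟨fun hxK => ?_, h2⟩
    have hfr : x ∈ frontier K₀ := by
      rw [hp.cpt.isClosed.frontier_eq]
      exact ⟨hxK, h1⟩
    have := hp.bd x hfr
    rw [h2] at this
    exact absurd this (not_le.2 hwc)

theorem fib_compact [T2Space R] [IsManifold 𝓘(ℂ) 1 R] {g : R → ℂ} {K K₀ : Set R} {c : ℝ}
    (hg : MDifferentiableOn 𝓘(ℂ) 𝓘(ℂ) g Kᶜ) (h0 : Tendsto g (cocompact R) (𝓝 0))
    (hp : Pair g K K₀ c) {w₀ : ℂ} (hw : 0 < ‖w₀‖) (hwc : ‖w₀‖ < c) :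
    IsCompact (Fib g K₀ w₀) := by
  rw [fib_eq_band hp hwc]
  have hb := band_compact hg h0 hp (a := ‖w₀‖) (b := ‖w₀‖) hw
  have hcont := continuousOn_compl hg hp.sub
  have hcl : IsClosed {x | x ∉ interior K₀ ∧ g x = w₀} := by
    have := hcont.preimage_isClosed_of_isClosed isOpen_interior.isClosed_compl
      (isClosed_singleton (x := w₀))
    exact this
  refine hb.of_isClosed_subset hcl ?_
  rintro x ⟨h1, h2⟩
  exact ⟨h1, by rw [h2], by rw [h2]⟩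

theorem isolated_off [T2Space R] [IsManifold 𝓘(ℂ) 1 R] {g : R → ℂ} {K K₀ : Set R} {c : ℝ}
    (hK : IsCompact K) (hg : MDifferentiableOn 𝓘(ℂ) 𝓘(ℂ) g Kᶜ)
    (hp : Pair g K K₀ c) {x : R} (hx : x ∉ K₀) (hxc : ‖g x‖ < c) :
    ∀ᶠ y in 𝓝[≠] x, g y ≠ g x ∧ Reg g y :=
  isolated hK.isClosed.isOpen_compl hg (fun h => hx (interior_subset (hp.sub h)))
    (hp.nonc x hx hxc)

theorem fib_finite [T2Space R] [IsManifold 𝓘(ℂ) 1 R] {g : R → ℂ} {K K₀ : Set R} {c : ℝ}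
    (hK : IsCompact K)
    (hg : MDifferentiableOn 𝓘(ℂ) 𝓘(ℂ) g Kᶜ) (h0 : Tendsto g (cocompact R) (𝓝 0))
    (hp : Pair g K K₀ c) {w₀ : ℂ} (hw : 0 < ‖w₀‖) (hwc : ‖w₀‖ < c) :
    (Fib g K₀ w₀).Finite := by
  refine (fib_compact hg h0 hp hw hwc).finite ?_
  rw [isDiscrete_iff_nhdsNE]
  rintro x ⟨hx1, hx2⟩
  have h1 := isolated_off hK hg hp hx1 (by rw [hx2]; exact hwc)
  rw [inf_principal_eq_bot]
  filter_upwards [h1] with y hy hyF
  exact hy.1 (hyF.2.trans hx2.symm)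

/-- values all of whose preimages off `K₀` are regular -/
def NCrit (g : R → ℂ) (K₀ : Set R) (w : ℂ) : Prop := ∀ x ∈ Fib g K₀ w, Reg g x

theorem eventually_ncrit [T2Space R] [IsManifold 𝓘(ℂ) 1 R] {g : R → ℂ} {K K₀ : Set R} {c : ℝ}
    (hK : IsCompact K)
    (hg : MDifferentiableOn 𝓘(ℂ) 𝓘(ℂ) g Kᶜ) (h0 : Tendsto g (cocompact R) (𝓝 0))
    (hp : Pair g K K₀ c) {w₀ : ℂ} (hw : 0 < ‖w₀‖) (hwc : ‖w₀‖ < c) :
    ∀ᶠ w in 𝓝[≠] w₀, NCrit g K₀ w := by
  -- open set around the fibre in which all points other than the fibre are regular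
  have h1 : ∀ x ∈ Fib g K₀ w₀, ∃ W : Set R, IsOpen W ∧ x ∈ W ∧
      ∀ y ∈ W, g y ≠ w₀ → Reg g y := by
    rintro x ⟨hx1, hx2⟩
    have h := isolated_off hK hg hp hx1 (by rw [hx2]; exact hwc)
    rw [eventually_nhdsWithin_iff] at h
    obtain ⟨W, hWs, hWo, hxW⟩ := eventually_nhds_iff.1 h
    refine ⟨W, hWo, hxW, fun y hy hne => (hWs y hy ?_).2⟩
    rintro rfl
    exact hne hx2
  choose! W hWo hxW hWr using h1
  set W' := ⋃ x ∈ Fib g K₀ w₀, W x with hW'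
  have hW'o : IsOpen W' := isOpen_biUnion hWo
  have hsub : Fib g K₀ w₀ ⊆ W' := fun x hx => mem_biUnion hx (hxW x hx)
  have h2 := fib_subset_open hg h0 hp hw hwc hW'o hsub
  filter_upwards [nhdsWithin_le_nhds h2, self_mem_nhdsWithin] with w hw1 hw2 x hx
  obtain ⟨y, hy, hxy⟩ := mem_iUnion₂.1 (hw1 hx)
  refine hWr y hy x hxy ?_
  rw [hx.2]
  exact hw2

/-- Local description of the fibres near a noncritical value. -/
theorem local_fib [T2Space R] [IsManifold 𝓘(ℂ) 1 R] {g : R → ℂ} {K K₀ : Set R} {c : ℝ}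
    (hK : IsCompact K)
    (hg : MDifferentiableOn 𝓘(ℂ) 𝓘(ℂ) g Kᶜ) (h0 : Tendsto g (cocompact R) (𝓝 0))
    (hp : Pair g K K₀ c) {w₀ : ℂ} (hw : 0 < ‖w₀‖) (hwc : ‖w₀‖ < c) (hnc : NCrit g K₀ w₀) :
    ∃ (s : Finset R) (h : R → ℂ → R), (∀ x, x ∈ s ↔ x ∈ Fib g K₀ w₀) ∧
      (∀ᶠ w in 𝓝 w₀, Fib g K₀ w = (fun z => h z w) '' (s : Set R) ∧
        InjOn (fun z => h z w) (s : Set R)) ∧
      (∀ z ∈ s, ∀ (q : R → ℂ) (U' : Set R), IsOpen U' → z ∈ U' →
        MDifferentiableOn 𝓘(ℂ) 𝓘(ℂ) q U' → DifferentiableAt ℂ (q ∘ h z) w₀) := by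
  have hfin := fib_finite hK hg h0 hp hw hwc
  have hinv : ∀ z ∈ Fib g K₀ w₀, ∃ h : ℂ → R, h w₀ = z ∧ ContinuousAt h w₀ ∧
      (∀ᶠ w in 𝓝 w₀, g (h w) = w) ∧ (∀ᶠ x in 𝓝 z, h (g x) = x) ∧
      (∀ (q : R → ℂ) (U' : Set R), IsOpen U' → z ∈ U' → MDifferentiableOn 𝓘(ℂ) 𝓘(ℂ) q U' →
        DifferentiableAt ℂ (q ∘ h) w₀) := by
    intro z hz
    have hzK : z ∈ Kᶜ := fun h => hz.1 (interior_subset (hp.sub h))
    have := local_inverse hK.isClosed.isOpen_compl hg hzK (hnc z hz)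
    rw [hz.2] at this
    exact this
  choose! h hh1 hh2 hh3 hh4 hh5 using hinv
  refine ⟨hfin.toFinset, h, fun x => by simp, ?_, fun z hz => hh5 z (by simpa using hz)⟩
  obtain ⟨U, hU, hUd⟩ := hfin.t2_separation
  -- eventually `h z w ∈ U z \ K₀`
  have e1 : ∀ z ∈ Fib g K₀ w₀, ∀ᶠ w in 𝓝 w₀, h z w ∈ U z ∩ K₀ᶜ := by
    intro z hz
    have : U z ∩ K₀ᶜ ∈ 𝓝 (h z w₀) := by
      rw [hh1 z hz]
      exact ((hU z).2.inter hp.cpt.isClosed.isOpen_compl).mem_nhds ⟨(hU z).1, hz.1⟩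
    exact (hh2 z hz).eventually this
  have e2 : ∀ᶠ w in 𝓝 w₀, ∀ z ∈ Fib g K₀ w₀, h z w ∈ U z ∩ K₀ᶜ :=
    (eventually_all_finite hfin).2 e1
  have e3 : ∀ᶠ w in 𝓝 w₀, ∀ z ∈ Fib g K₀ w₀, g (h z w) = w :=
    (eventually_all_finite hfin).2 hh3
  have hW : ∀ z ∈ Fib g K₀ w₀, ∃ W : Set R, IsOpen W ∧ z ∈ W ∧ ∀ x ∈ W, h z (g x) = x := by
    intro z hz
    obtain ⟨W, hWs, hWo, hzW⟩ := eventually_nhds_iff.1 (hh4 z hz)
    exact ⟨W, hWo, hzW, hWs⟩
  choose! W hWo hzW hWs using hW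
  have e4 := fib_subset_open hg h0 hp hw hwc (W := ⋃ z ∈ Fib g K₀ w₀, W z)
    (isOpen_biUnion hWo) (fun z hz => mem_biUnion hz (hzW z hz))
  filter_upwards [e2, e3, e4] with w hw2 hw3 hw4
  refine ⟨?_, ?_⟩
  · ext x
    simp only [Finite.coe_toFinset, mem_image]
    constructor
    · intro hx
      obtain ⟨z, hz, hxz⟩ := mem_iUnion₂.1 (hw4 hx)
      refine ⟨z, hz, ?_⟩
      have := hWs z hz x hxz
      rwa [hx.2] at this
    · rintro ⟨z, hz, rfl⟩
      exact ⟨(hw2 z hz).2, hw3 z hz⟩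
  · intro z hz z' hz' heq
    simp only [Finite.coe_toFinset] at hz hz'
    by_contra hne
    have hd := hUd hz hz' hne
    exact disjoint_left.1 hd (hw2 z hz).1 (by
      have : h z w = h z' w := heq
      rw [this]; exact (hw2 z' hz').1)

/-- the norm of `q` along the fibres -/
def Nm (g : R → ℂ) (K₀ : Set R) (q : R → ℂ) (w : ℂ) : ℂ := ∏ᶠ (x) (_ : x ∈ Fib g K₀ w), q x

theorem nm_local [T2Space R] [IsManifold 𝓘(ℂ) 1 R] {g : R → ℂ} {K K₀ : Set R} {c : ℝ}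
    (hK : IsCompact K)
    (hg : MDifferentiableOn 𝓘(ℂ) 𝓘(ℂ) g Kᶜ) (h0 : Tendsto g (cocompact R) (𝓝 0))
    (hp : Pair g K K₀ c) {w₀ : ℂ} (hw : 0 < ‖w₀‖) (hwc : ‖w₀‖ < c) (hnc : NCrit g K₀ w₀)
    {q : R → ℂ} (hq : MDifferentiableOn 𝓘(ℂ) 𝓘(ℂ) q K₀ᶜ) :
    DifferentiableAt ℂ (Nm g K₀ q) w₀ := by
  obtain ⟨s, h, hs, he, hd⟩ := local_fib hK hg h0 hp hw hwc hnc
  have h1 : Nm g K₀ q =ᶠ[𝓝 w₀] fun w => ∏ z ∈ s, q (h z w) := by
    filter_upwards [he] with w hw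
    unfold Nm
    rw [hw.1, finprod_mem_image hw.2, finprod_mem_coe_finset]
  refine DifferentiableAt.congr_of_eventuallyEq ?_ h1
  refine DifferentiableAt.fun_finsetProd ?_
  intro z hz
  exact hd z hz q K₀ᶜ hp.cpt.isClosed.isOpen_compl ((hs z).1 hz).1 hq

/-- Extension of bounded holomorphic functions over an isolated set in a punctured disc. -/
theorem ext_isolated {c : ℝ} (hc : 0 < c) {f : ℂ → ℂ} {B : ℂ → Prop} {M : ℝ}
    (hB : ∀ w, 0 < ‖w‖ → ‖w‖ < c → ∀ᶠ w' in 𝓝[≠] w, ¬ B w')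
    (hf : ∀ w, 0 < ‖w‖ → ‖w‖ < c → ¬ B w → DifferentiableAt ℂ f w)
    (hb : ∀ w, 0 < ‖w‖ → ‖w‖ < c → ¬ B w → ‖f w‖ ≤ M) :
    ∃ F : ℂ → ℂ, DifferentiableOn ℂ F (Metric.ball 0 c) ∧
      ∀ w, 0 < ‖w‖ → ‖w‖ < c → ¬ B w → F w = f w := by
  set F₁ : ℂ → ℂ := fun w => limUnder (𝓝[≠] w) f with hF₁
  have hopen : IsOpen {w : ℂ | 0 < ‖w‖ ∧ ‖w‖ < c} :=
    (isOpen_lt continuous_const continuous_norm).inter (isOpen_lt continuous_norm continuous_const)
  have hF₁eq : ∀ w, 0 < ‖w‖ → ‖w‖ < c → ¬ B w → F₁ w = f w := by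
    intro w h1 h2 h3
    exact ((hf w h1 h2 h3).continuousAt.tendsto.mono_left nhdsWithin_le_nhds).limUnder_eq
  have hF₁d : ∀ w, 0 < ‖w‖ → ‖w‖ < c → DifferentiableAt ℂ F₁ w := by
    intro w h1 h2
    have h3 := hB w h1 h2
    have h4 : ∀ᶠ w' in 𝓝 w, 0 < ‖w'‖ ∧ ‖w'‖ < c := hopen.mem_nhds ⟨h1, h2⟩
    rw [eventually_nhdsWithin_iff] at h3
    obtain ⟨r, hr, hball⟩ := Metric.eventually_nhds_iff_ball.1 (h3.and h4)
    have hd := Complex.differentiableOn_update_limUnder_of_bddAbove (f := f) (c := w)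
      (Metric.ball_mem_nhds w hr) (fun w' hw' => by
        have := hball w' hw'.1
        exact (hf w' this.2.1 this.2.2 (this.1 hw'.2)).differentiableWithinAt) (by
        refine ⟨M, ?_⟩
        rintro _ ⟨w', hw', rfl⟩
        have := hball w' hw'.1
        exact hb w' this.2.1 this.2.2 (this.1 hw'.2))
    have heq : ∀ᶠ w' in 𝓝 w, F₁ w' = Function.update f w (limUnder (𝓝[≠] w) f) w' := by
      filter_upwards [Metric.ball_mem_nhds w hr] with w' hw'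
      by_cases hww : w' = w
      · subst hww; simp [hF₁]
      · rw [Function.update_of_ne hww]
        have := hball w' hw'
        exact hF₁eq w' this.2.1 this.2.2 (this.1 hww)
    exact ((hd.differentiableAt (Metric.ball_mem_nhds w hr))).congr_of_eventuallyEq heq
  have hF₁b : ∀ w, 0 < ‖w‖ → ‖w‖ < c → ‖F₁ w‖ ≤ M := by
    intro w h1 h2
    have hcont := (hF₁d w h1 h2).continuousAt
    have h3 := hB w h1 h2
    have h4 : ∀ᶠ w' in 𝓝[≠] w, 0 < ‖w'‖ ∧ ‖w'‖ < c :=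
      nhdsWithin_le_nhds (hopen.mem_nhds ⟨h1, h2⟩)
    have h5 : ∀ᶠ w' in 𝓝[≠] w, ‖F₁ w'‖ ≤ M := by
      filter_upwards [h3, h4] with w' h3' h4'
      rw [hF₁eq w' h4'.1 h4'.2 h3']
      exact hb w' h4'.1 h4'.2 h3'
    exact le_of_tendsto (hcont.norm.tendsto.mono_left nhdsWithin_le_nhds) h5
  have hd := Complex.differentiableOn_update_limUnder_of_bddAbove (f := F₁) (c := (0 : ℂ))
      (Metric.ball_mem_nhds 0 hc) (fun w' hw' => by
        have h1 : ‖w'‖ < c := by simpa using hw'.1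
        have h2 : 0 < ‖w'‖ := norm_pos_iff.2 hw'.2
        exact (hF₁d w' h2 h1).differentiableWithinAt) (by
        refine ⟨M, ?_⟩
        rintro _ ⟨w', hw', rfl⟩
        have h1 : ‖w'‖ < c := by simpa using hw'.1
        have h2 : 0 < ‖w'‖ := norm_pos_iff.2 hw'.2
        exact hF₁b w' h2 h1)
  refine ⟨_, hd, fun w h1 h2 h3 => ?_⟩
  rw [Function.update_of_ne (norm_pos_iff.1 h1)]
  exact hF₁eq w h1 h2 h3

/-- The number of sheets is constant. -/
theorem sheets [T2Space R] [IsManifold 𝓘(ℂ) 1 R] {g : R → ℂ} {K K₀ : Set R} {c : ℝ}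
    (hK : IsCompact K)
    (hg : MDifferentiableOn 𝓘(ℂ) 𝓘(ℂ) g Kᶜ) (h0 : Tendsto g (cocompact R) (𝓝 0))
    (hp : Pair g K K₀ c) :
    ∃ m : ℕ, ∀ w, 0 < ‖w‖ → ‖w‖ < c → NCrit g K₀ w → (Fib g K₀ w).ncard = m := by
  have hnm : ∀ w, 0 < ‖w‖ → ‖w‖ < c →
      Nm g K₀ (fun _ => (1 / 2 : ℂ)) w = (1 / 2) ^ (Fib g K₀ w).ncard := by
    intro w h1 h2
    have hfin := fib_finite hK hg h0 hp h1 h2
    unfold Nm
    rw [finprod_mem_eq_finite_toFinset_prod _ hfin, Finset.prod_const,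
      Set.ncard_eq_toFinset_card _ hfin]
  obtain ⟨F, hF, hFe⟩ := ext_isolated hp.cpos (f := Nm g K₀ (fun _ => (1 / 2 : ℂ)))
    (B := fun w => ¬ NCrit g K₀ w) (M := 1)
    (fun w h1 h2 => by
      filter_upwards [eventually_ncrit hK hg h0 hp h1 h2] with w' hw' using not_not.2 hw')
    (fun w h1 h2 h3 => nm_local hK hg h0 hp h1 h2 (not_not.1 h3) mdifferentiableOn_const)
    (fun w h1 h2 h3 => by
      rw [hnm w h1 h2, norm_pow]
      refine pow_le_one₀ (norm_nonneg _) ?_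
      norm_num)
  -- derivative vanishes off the critical set
  have hder0 : ∀ w, 0 < ‖w‖ → ‖w‖ < c → NCrit g K₀ w → deriv F w = 0 := by
    intro w h1 h2 h3
    obtain ⟨s, h, hs, he, -⟩ := local_fib hK hg h0 hp h1 h2 h3
    have hopen : IsOpen {w : ℂ | 0 < ‖w‖ ∧ ‖w‖ < c} :=
      (isOpen_lt continuous_const continuous_norm).inter
        (isOpen_lt continuous_norm continuous_const)
    have h4 : ∀ᶠ w' in 𝓝 w, 0 < ‖w'‖ ∧ ‖w'‖ < c := hopen.mem_nhds ⟨h1, h2⟩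
    have h5 : ∀ᶠ w' in 𝓝 w, NCrit g K₀ w' := by
      have := eventually_ncrit hK hg h0 hp h1 h2
      rw [eventually_nhdsWithin_iff] at this
      filter_upwards [this] with w' hw'
      by_cases hww : w' = w
      · subst hww; exact h3
      · exact hw' hww
    have h6 : F =ᶠ[𝓝 w] fun _ => (1 / 2 : ℂ) ^ s.card := by
      filter_upwards [he, h4, h5] with w' hw' h4' h5'
      rw [hFe w' h4'.1 h4'.2 (not_not.2 h5'), hnm w' h4'.1 h4'.2, hw'.1,
        hw'.2.ncard_image, Set.ncard_coe_finset]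
    rw [h6.deriv_eq]
    simp
  have hball : IsOpen (Metric.ball (0 : ℂ) c) := Metric.isOpen_ball
  have hder : ∀ w ∈ Metric.ball (0 : ℂ) c, w ≠ 0 → deriv F w = 0 := by
    intro w hw hw0
    have h1 : 0 < ‖w‖ := norm_pos_iff.2 hw0
    have h2 : ‖w‖ < c := by simpa using hw
    have hcd : ContinuousAt (deriv F) w :=
      ((hF.analyticAt (hball.mem_nhds hw)).deriv).continuousAt
    have hopen : IsOpen {w : ℂ | 0 < ‖w‖ ∧ ‖w‖ < c} :=
      (isOpen_lt continuous_const continuous_norm).inter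
        (isOpen_lt continuous_norm continuous_const)
    have h4 : ∀ᶠ w' in 𝓝[≠] w, 0 < ‖w'‖ ∧ ‖w'‖ < c :=
      nhdsWithin_le_nhds (hopen.mem_nhds ⟨h1, h2⟩)
    have h5 : ∀ᶠ w' in 𝓝[≠] w, deriv F w' = 0 := by
      filter_upwards [eventually_ncrit hK hg h0 hp h1 h2, h4] with w' hw' h4'
      exact hder0 w' h4'.1 h4'.2 hw'
    have h6 : Tendsto (deriv F) (𝓝[≠] w) (𝓝 (deriv F w)) :=
      hcd.tendsto.mono_left nhdsWithin_le_nhds
    have h7 : Tendsto (deriv F) (𝓝[≠] w) (𝓝 0) :=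
      tendsto_const_nhds.congr' (h5.mono fun _ h => h.symm)
    exact tendsto_nhds_unique h6 h7
  have hder' : ∀ w ∈ Metric.ball (0 : ℂ) c, deriv F w = 0 := by
    intro w hw
    by_cases hw0 : w = 0
    · subst hw0
      have hcd : ContinuousAt (deriv F) 0 :=
        ((hF.analyticAt (hball.mem_nhds hw)).deriv).continuousAt
      have h5 : ∀ᶠ w' in 𝓝[≠] (0 : ℂ), deriv F w' = 0 := by
        filter_upwards [nhdsWithin_le_nhds (hball.mem_nhds hw), self_mem_nhdsWithin] with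
          w' hw' hne
        exact hder w' hw' hne
      exact tendsto_nhds_unique (hcd.tendsto.mono_left nhdsWithin_le_nhds)
        (tendsto_const_nhds.congr' (h5.mono fun _ h => h.symm))
    · exact hder w hw hw0
  have hconst : ∀ w ∈ Metric.ball (0 : ℂ) c, F w = F 0 := by
    intro w hw
    exact Convex.is_const_of_fderivWithin_eq_zero (𝕜 := ℂ) (convex_ball 0 c) (f := F) hF
      (fun z hz => by
        rw [fderivWithin_of_isOpen Metric.isOpen_ball hz]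
        ext
        simpa using hder' z hz) hw (Metric.mem_ball_self hp.cpos)
  by_cases hex : ∃ w, 0 < ‖w‖ ∧ ‖w‖ < c ∧ NCrit g K₀ w
  · obtain ⟨w₁, h1, h2, h3⟩ := hex
    refine ⟨(Fib g K₀ w₁).ncard, fun w h1' h2' h3' => ?_⟩
    have e1 := hFe w₁ h1 h2 (not_not.2 h3)
    have e2 := hFe w h1' h2' (not_not.2 h3')
    rw [hnm w₁ h1 h2, hconst w₁ (by simpa using h2)] at e1
    rw [hnm w h1' h2', hconst w (by simpa using h2'), e1] at e2
    have e3 := congrArg norm e2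
    rw [norm_pow, norm_pow] at e3
    have hn : ‖(1 / 2 : ℂ)‖ = 1 / 2 := by norm_num
    rw [hn] at e3
    exact ((pow_right_injective₀ (by norm_num : (0:ℝ) < 1 / 2) (by norm_num)) e3).symm
  · exact ⟨0, fun w h1 h2 h3 => absurd ⟨w, h1, h2, h3⟩ hex⟩

theorem exists_pair [T2Space R] [ConnectedSpace R] [NoncompactSpace R] [IsManifold 𝓘(ℂ) 1 R]
    {g : R → ℂ} {K : Set R} (hK : IsCompact K)
    (hg : MDifferentiableOn 𝓘(ℂ) 𝓘(ℂ) g Kᶜ) (h0 : Tendsto g (cocompact R) (𝓝 0))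
    (hne : ∀ U : Set R, IsOpen U → U.Nonempty → U ⊆ Kᶜ → ∃ x ∈ U, g x ≠ 0)
    {L : Set R} (hL : IsCompact L) {c₀ : ℝ} (hc₀ : 0 < c₀) :
    ∃ (K₀ : Set R) (c : ℝ), Pair g K K₀ c ∧ L ⊆ interior K₀ ∧ c ≤ c₀ := by
  have : LocallyCompactSpace R := ChartedSpace.locallyCompactSpace ℂ R
  have hKo : IsOpen Kᶜ := hK.isClosed.isOpen_compl
  -- a locally constant value is nonzero
  have hnz : ∀ x ∉ K, ∀ a : ℂ, (∀ᶠ y in 𝓝 x, g y = a) → a ≠ 0 := by
    intro x hx a ha ha0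
    obtain ⟨W, hWs, hWo, hxW⟩ := eventually_nhds_iff.1 ha
    obtain ⟨y, hy, hgy⟩ := hne (W ∩ Kᶜ) (hWo.inter hKo) ⟨x, hxW, hx⟩ inter_subset_right
    exact hgy ((hWs y hy.1).trans ha0)
  obtain ⟨K₁, hK₁, hsub₁⟩ := exists_compact_superset (hL.union hK)
  -- neighbourhoods of frontier points
  have h1 : ∀ x ∈ frontier K₁, ∃ C : Set R, IsCompact C ∧ x ∈ interior C ∧
      ∀ y ∈ C, y ∉ interior C → g y ≠ 0 := by
    intro x hx
    have hxK : x ∉ K := by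
      intro h
      have : x ∈ interior K₁ := hsub₁ (Or.inr h)
      rw [hK₁.isClosed.frontier_eq] at hx
      exact hx.2 this
    have h2 : ∀ᶠ y in 𝓝[≠] x, g y ≠ 0 := by
      by_cases hgx : g x = 0
      · have hnc : ¬ ∀ᶠ y in 𝓝 x, g y = g x := fun h => hnz x hxK (g x) h hgx
        have := isolated hKo hg hxK hnc
        filter_upwards [this] with y hy
        rw [← hgx]; exact hy.1
      · have hc : ContinuousAt g x := (hg.continuousOn).continuousAt (hKo.mem_nhds hxK)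
        exact nhdsWithin_le_nhds (hc.eventually_ne hgx)
    rw [eventually_nhdsWithin_iff] at h2
    obtain ⟨W, hWs, hWo, hxW⟩ := eventually_nhds_iff.1 h2
    obtain ⟨C, hC, hxC, hCW⟩ := exists_compact_subset hWo hxW
    refine ⟨C, hC, hxC, fun y hy hyi => hWs y (hCW hy) ?_⟩
    rintro rfl
    exact hyi hxC
  choose! C hC hxC hCg using h1
  have hfrc : IsCompact (frontier K₁) :=
    hK₁.of_isClosed_subset isClosed_frontier hK₁.isClosed.frontier_subset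
  obtain ⟨t, ht, hcov⟩ := hfrc.elim_nhds_subcover (fun x => interior (C x))
    (fun x hx => isOpen_interior.mem_nhds (hxC x hx))
  set K₀ := K₁ ∪ ⋃ x ∈ t, C x with hK₀
  have hK₀c : IsCompact K₀ := hK₁.union (t.isCompact_biUnion fun x hx => hC x (ht x hx))
  have hint : interior K₁ ⊆ interior K₀ := interior_mono subset_union_left
  have hintC : ∀ x ∈ t, interior (C x) ⊆ interior K₀ := fun x hx =>
    interior_mono ((subset_biUnion_of_mem (u := fun x => C x) hx).trans subset_union_right)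
  have hsub : K ⊆ interior K₀ := fun x hx => hint (hsub₁ (Or.inr hx))
  have hfr : ∀ y ∈ frontier K₀, g y ≠ 0 := by
    intro y hy
    rw [hK₀c.isClosed.frontier_eq] at hy
    have hy2 : ∃ x ∈ t, y ∈ C x := by
      rcases hy.1 with h | h
      · by_cases hyi : y ∈ interior K₁
        · exact absurd (hint hyi) hy.2
        · have : y ∈ frontier K₁ := by
            rw [hK₁.isClosed.frontier_eq]; exact ⟨h, hyi⟩
          obtain ⟨x, hx, hyx⟩ := mem_iUnion₂.1 (hcov this)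
          exact absurd (hintC x hx hyx) hy.2
      · obtain ⟨x, hx, hyx⟩ := mem_iUnion₂.1 h
        exact ⟨x, hx, hyx⟩
    obtain ⟨x, hx, hyx⟩ := hy2
    exact hCg x (ht x hx) y hyx (fun h => hy.2 (hintC x hx h))
  have hfrK : frontier K₀ ⊆ Kᶜ := by
    intro y hy hyK
    rw [hK₀c.isClosed.frontier_eq] at hy
    exact hy.2 (hsub hyK)
  have hmin : ∃ c₁ : ℝ, 0 < c₁ ∧ ∀ y ∈ frontier K₀, c₁ ≤ ‖g y‖ := by
    have hfrc₀ : IsCompact (frontier K₀) :=
      hK₀c.of_isClosed_subset isClosed_frontier hK₀c.isClosed.frontier_subset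
    rcases (frontier K₀).eq_empty_or_nonempty with h | h
    · exact ⟨1, one_pos, by simp [h]⟩
    · obtain ⟨y, hy, hmy⟩ := hfrc₀.exists_isMinOn h
        ((hg.continuousOn.mono hfrK).norm)
      exact ⟨‖g y‖, norm_pos_iff.2 (hfr y hy), fun z hz => hmy hz⟩
  obtain ⟨c₁, hc₁, hmin⟩ := hmin
  refine ⟨K₀, min c₁ c₀, ⟨hK₀c, hsub, lt_min hc₁ hc₀, fun x hx => (min_le_left _ _).trans
    (hmin x hx), ?_⟩, fun x hx => hint (hsub₁ (Or.inl hx)), min_le_right _ _⟩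
  intro x hx hxc hlc
  set a := g x with ha
  have hac : ‖a‖ < c₁ := hxc.trans_le (min_le_left _ _)
  have hxK : x ∉ K := fun h => hx (interior_subset (hsub h))
  have ha0 : a ≠ 0 := hnz x hxK a hlc
  set Z := {y | y ∉ K₀ ∧ ∀ᶠ z in 𝓝 y, g z = a} with hZ
  have hZo : IsOpen Z := by
    rw [isOpen_iff_mem_nhds]
    rintro y ⟨hy1, hy2⟩
    filter_upwards [hK₀c.isClosed.isOpen_compl.mem_nhds hy1, eventually_eventually_nhds.2 hy2] with
      z hz1 hz2 using ⟨hz1, hz2⟩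
  have hZc : IsClosed Z := by
    rw [← closure_subset_iff_isClosed]
    intro y hy
    by_contra hyZ
    have hfreq : ∃ᶠ z in 𝓝[≠] y, z ∈ Z := by
      rw [mem_closure_iff_frequently] at hy
      rw [frequently_nhdsWithin_iff]
      exact hy.mono fun z hz => ⟨hz, fun h => hyZ (by rw [← (h : z = y)]; exact hz)⟩
    have hyi : y ∉ interior K₀ := by
      intro h
      have : ∀ᶠ z in 𝓝 y, z ∈ interior K₀ := isOpen_interior.mem_nhds h
      obtain ⟨z, hz1, hz2⟩ := (hy |> mem_closure_iff_frequently.1 |>.and_eventually this).exists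
      exact hz1.1 (interior_subset hz2)
    have hyK : y ∉ K := fun h => hyi (hsub h)
    have hcy : ContinuousAt g y := (hg.continuousOn).continuousAt (hKo.mem_nhds hyK)
    have hgy : g y = a := by
      by_contra hne'
      have h2 : ∀ᶠ z in 𝓝 y, g z ≠ a := hcy.eventually_ne hne'
      obtain ⟨z, hz1, hz2⟩ := (mem_closure_iff_frequently.1 hy |>.and_eventually h2).exists
      exact hz2 hz1.2.self_of_nhds
    have hyK₀ : y ∉ K₀ := by
      intro h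
      have : y ∈ frontier K₀ := by rw [hK₀c.isClosed.frontier_eq]; exact ⟨h, hyi⟩
      have := hmin y this
      rw [hgy] at this
      exact absurd this (not_le.2 hac)
    have hnl : ¬ ∀ᶠ z in 𝓝 y, g z = g y := by
      intro h
      apply hyZ
      refine ⟨hyK₀, ?_⟩
      rw [hgy] at h
      exact h
    have hiso := isolated hKo hg hyK hnl
    obtain ⟨z, hz1, hz2⟩ := (hfreq.and_eventually hiso).exists
    exact hz2.1 (by rw [hgy]; exact hz1.2.self_of_nhds)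
  have huniv : Z = univ := IsClopen.eq_univ ⟨hZc, hZo⟩ ⟨x, hx, hlc⟩
  have hall : ∀ y, g y = a := fun y => by
    have : y ∈ Z := by rw [huniv]; trivial
    exact this.2.self_of_nhds
  have : Tendsto g (cocompact R) (𝓝 a) :=
    tendsto_const_nhds.congr fun y => (hall y).symm
  exact ha0 (tendsto_nhds_unique this h0)

theorem fib_mono {R : Type*} {g : R → ℂ} {K₀ K₁ : Set R} (h : K₀ ⊆ K₁) (w : ℂ) :
    Fib g K₁ w ⊆ Fib g K₀ w := fun _ hx => ⟨fun h' => hx.1 (h h'), hx.2⟩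

theorem ncrit_mono {g : R → ℂ} {K₀ K₁ : Set R} (h : K₀ ⊆ K₁) {w : ℂ} (hw : NCrit g K₀ w) :
    NCrit g K₁ w := fun x hx => hw x (fib_mono h w hx)

/-- noncritical values accumulate at `0` -/
theorem exists_small_ncrit [T2Space R] [IsManifold 𝓘(ℂ) 1 R] {g : R → ℂ} {K K₀ : Set R} {c : ℝ}
    (hK : IsCompact K)
    (hg : MDifferentiableOn 𝓘(ℂ) 𝓘(ℂ) g Kᶜ) (h0 : Tendsto g (cocompact R) (𝓝 0))
    (hp : Pair g K K₀ c) {δ : ℝ} (hδ : 0 < δ) :
    ∃ w, 0 < ‖w‖ ∧ ‖w‖ < c ∧ ‖w‖ < δ ∧ NCrit g K₀ w := by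
  set r := min c δ / 2 with hr
  have hmin : 0 < min c δ := lt_min hp.cpos hδ
  have hr0 : 0 < r := half_pos hmin
  have hrn : ‖(r : ℂ)‖ = r := by simp [abs_of_pos hr0]
  have h1 : (0 : ℝ) < ‖(r : ℂ)‖ := by rw [hrn]; exact hr0
  have h2 : ‖(r : ℂ)‖ < min c δ := by rw [hrn]; exact half_lt_self hmin
  have h3 := eventually_ncrit hK hg h0 hp h1 (h2.trans_le (min_le_left _ _))
  have hopen : IsOpen {w : ℂ | 0 < ‖w‖ ∧ ‖w‖ < min c δ} :=
    (isOpen_lt continuous_const continuous_norm).inter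
      (isOpen_lt continuous_norm continuous_const)
  have h4 : ∀ᶠ w in 𝓝[≠] (r : ℂ), 0 < ‖w‖ ∧ ‖w‖ < min c δ :=
    nhdsWithin_le_nhds (hopen.mem_nhds ⟨h1, h2⟩)
  obtain ⟨w, hw1, hw2⟩ := (h3.and h4).exists
  exact ⟨w, hw2.1, hw2.2.trans_le (min_le_left _ _), hw2.2.trans_le (min_le_right _ _), hw1⟩

/-- the number of sheets near the end is positive -/
theorem fib_nonempty [T2Space R] [ConnectedSpace R] [NoncompactSpace R] [IsManifold 𝓘(ℂ) 1 R]
    {g : R → ℂ} {K K₀ : Set R} {c : ℝ} (hK : IsCompact K)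
    (hg : MDifferentiableOn 𝓘(ℂ) 𝓘(ℂ) g Kᶜ) (h0 : Tendsto g (cocompact R) (𝓝 0))
    (hne : ∀ U : Set R, IsOpen U → U.Nonempty → U ⊆ Kᶜ → ∃ x ∈ U, g x ≠ 0)
    (hp : Pair g K K₀ c) {w : ℂ} (hw : 0 < ‖w‖) (hwc : ‖w‖ < c) (hnc : NCrit g K₀ w) :
    (Fib g K₀ w).Nonempty := by
  obtain ⟨m, hm⟩ := sheets hK hg h0 hp
  have hO : IsOpen {x | x ∉ K₀ ∧ ‖g x‖ < c} := by
    rw [isOpen_iff_mem_nhds]
    rintro x ⟨h1, h2⟩
    have hxK : x ∈ Kᶜ := fun h => h1 (interior_subset (hp.sub h))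
    have hc : ContinuousAt g x :=
      (hg.continuousOn).continuousAt (hK.isClosed.isOpen_compl.mem_nhds hxK)
    filter_upwards [hp.cpt.isClosed.isOpen_compl.mem_nhds h1,
      hc.norm.eventually (gt_mem_nhds h2)] with y hy1 hy2 using ⟨hy1, hy2⟩
  have hOne : {x | x ∉ K₀ ∧ ‖g x‖ < c}.Nonempty := by
    have e1 : ∀ᶠ x in cocompact R, x ∉ K₀ := hp.cpt.compl_mem_cocompact
    have e2 : ∀ᶠ x in cocompact R, ‖g x‖ < c := by
      have := h0.norm
      simp only [norm_zero] at this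
      exact this.eventually (gt_mem_nhds hp.cpos)
    exact (e1.and e2).exists
  obtain ⟨x, hx, hgx⟩ := hne _ hO hOne fun x hx h => hx.1 (interior_subset (hp.sub h))
  have hxK : x ∈ Kᶜ := fun h => hx.1 (interior_subset (hp.sub h))
  have hc : ContinuousAt g x :=
    (hg.continuousOn).continuousAt (hK.isClosed.isOpen_compl.mem_nhds hxK)
  have hiso := isolated_off hK hg hp hx.1 hx.2
  have hnb : (𝓝[≠] x).NeBot := by
    by_contra h
    rw [not_neBot] at h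
    apply hp.nonc x hx.1 hx.2
    have : 𝓝 x = pure x := by
      rw [← nhdsNE_sup_pure x, h, bot_sup_eq]
    rw [this]
    simp
  have ht : Tendsto g (𝓝[≠] x) (𝓝[≠] (g x)) :=
    tendsto_nhdsWithin_of_tendsto_nhds_of_eventually_within _
      (hc.tendsto.mono_left nhdsWithin_le_nhds) (hiso.mono fun y hy => hy.1)
  have e1 := ht.eventually (eventually_ncrit hK hg h0 hp (norm_pos_iff.2 hgx) hx.2)
  have e2 : ∀ᶠ y in 𝓝[≠] x, y ∉ K₀ ∧ ‖g y‖ < c := nhdsWithin_le_nhds (hO.mem_nhds hx)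
  have e3 : ∀ᶠ y in 𝓝[≠] x, g y ≠ 0 := nhdsWithin_le_nhds (hc.eventually_ne hgx)
  obtain ⟨y, hy1, hy2, hy3⟩ := (e1.and (e2.and e3)).exists
  have hyF : y ∈ Fib g K₀ (g y) := ⟨hy2.1, rfl⟩
  have hm1 := hm (g y) (norm_pos_iff.2 hy3) hy2.2 hy1
  have hfin := fib_finite hK hg h0 hp (norm_pos_iff.2 hy3) hy2.2
  have hpos : 0 < m := by
    rw [← hm1, Set.ncard_pos hfin]
    exact ⟨y, hyF⟩
  have := hm w hw hwc hnc
  exact (Set.ncard_pos (fib_finite hK hg h0 hp hw hwc)).1 (by omega)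

/-- **Order at the end of a noncompact Riemann surface.** -/
theorem end_order_finite [T2Space R] [IsManifold 𝓘(ℂ) 1 R] [ConnectedSpace R]
    [NoncompactSpace R] {K : Set R} (hK : IsCompact K) {g : R → ℂ}
    (hg : MDifferentiableOn 𝓘(ℂ) 𝓘(ℂ) g Kᶜ) (h0 : Tendsto g (cocompact R) (𝓝 0))
    (hne : ∀ U : Set R, IsOpen U → U.Nonempty → U ⊆ Kᶜ → ∃ x ∈ U, g x ≠ 0) :
    ∃ m : ℕ, ∀ (J : ℕ) (G : Fin J → R → ℂ) (K' : Set R), IsCompact K' →
      (∀ j, MDifferentiableOn 𝓘(ℂ) 𝓘(ℂ) (G j) K'ᶜ) →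
      (∀ j, Tendsto (G j) (cocompact R) (𝓝 0)) →
      (∀ x ∉ K', g x = ∏ j, G j x) → J ≤ m := by
  classical
  obtain ⟨K₀, c, hp, -, -⟩ := exists_pair hK hg h0 hne isCompact_empty (c₀ := 1) one_pos
  obtain ⟨m, hm⟩ := sheets hK hg h0 hp
  refine ⟨m, fun J G K' hK' hG hG0 hprod => ?_⟩
  -- common bound 1
  have hT : ∃ T : Set R, IsCompact T ∧ ∀ x ∉ T, ∀ j, ‖G j x‖ ≤ 1 := by
    have : ∀ᶠ x in cocompact R, ∀ j, ‖G j x‖ ≤ 1 := by
      rw [eventually_all]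
      intro j
      have := (hG0 j).norm
      simp only [norm_zero] at this
      exact (this.eventually (gt_mem_nhds one_pos)).mono fun x hx => hx.le
    obtain ⟨T, hT, hTs⟩ := mem_cocompact.1 this
    exact ⟨T, hT, fun x hx => hTs hx⟩
  obtain ⟨T, hT, hTb⟩ := hT
  obtain ⟨K₁, c₁, hp₁, hL₁, hc₁⟩ := exists_pair hK hg h0 hne
    ((hp.cpt.union hK').union hT) hp.cpos
  have hK₀₁ : K₀ ⊆ K₁ := fun x hx => interior_subset (hL₁ (Or.inl (Or.inl hx)))
  have hK'₁ : K' ⊆ K₁ := fun x hx => interior_subset (hL₁ (Or.inl (Or.inr hx)))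
  have hT₁ : T ⊆ K₁ := fun x hx => interior_subset (hL₁ (Or.inr hx))
  obtain ⟨m₁, hm₁⟩ := sheets hK hg h0 hp₁
  have hm₁m : m₁ ≤ m := by
    obtain ⟨w, hw1, hw2, hw3, hw4⟩ := exists_small_ncrit hK hg h0 hp hp₁.cpos
    rw [← hm w hw1 hw2 hw4, ← hm₁ w hw1 hw3 (ncrit_mono hK₀₁ hw4)]
    exact Set.ncard_le_ncard (fib_mono hK₀₁ w) (fib_finite hK hg h0 hp hw1 hw2)
  refine le_trans ?_ hm₁m
  have hb1 : ∀ x ∉ K₁, ∀ j, ‖G j x‖ ≤ 1 := fun x hx => hTb x (fun h => hx (hT₁ h))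
  -- the norms
  have hNb : ∀ (j : Fin J) (w : ℂ), 0 < ‖w‖ → ‖w‖ < c₁ → ‖Nm g K₁ (G j) w‖ ≤ 1 := by
    intro j w h1 h2
    unfold Nm
    rw [finprod_mem_eq_finite_toFinset_prod _ (fib_finite hK hg h0 hp₁ h1 h2), norm_prod]
    refine Finset.prod_le_one (fun _ _ => norm_nonneg _) fun x hx => ?_
    exact hb1 x (by simpa using ((Set.Finite.mem_toFinset _).1 hx).1) j
  have hext : ∀ j : Fin J, ∃ F : ℂ → ℂ, DifferentiableOn ℂ F (Metric.ball 0 c₁) ∧
      ∀ w, 0 < ‖w‖ → ‖w‖ < c₁ → NCrit g K₁ w → F w = Nm g K₁ (G j) w := by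
    intro j
    obtain ⟨F, hF, hFe⟩ := ext_isolated hp₁.cpos (f := Nm g K₁ (G j))
      (B := fun w => ¬ NCrit g K₁ w) (M := 1)
      (fun w h1 h2 => by
        filter_upwards [eventually_ncrit hK hg h0 hp₁ h1 h2] with w' hw' using not_not.2 hw')
      (fun w h1 h2 h3 => nm_local hK hg h0 hp₁ h1 h2 (not_not.1 h3)
        ((hG j).mono (compl_subset_compl.2 hK'₁)))
      (fun w h1 h2 _ => hNb j w h1 h2)
    exact ⟨F, hF, fun w h1 h2 h3 => hFe w h1 h2 (not_not.2 h3)⟩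
  choose F hF hFe using hext
  have hball : Metric.ball (0 : ℂ) c₁ ∈ 𝓝 (0 : ℂ) := Metric.ball_mem_nhds 0 hp₁.cpos
  have hFd : ∀ j, DifferentiableAt ℂ (F j) 0 := fun j => (hF j).differentiableAt hball
  -- vanishing at `0`
  have hF0 : ∀ j, F j 0 = 0 := by
    intro j
    by_contra hne0
    set ε := ‖F j 0‖ / 2 with hε
    have hεp : 0 < ε := half_pos (norm_pos_iff.2 hne0)
    have hlt : ε < ‖F j 0‖ := half_lt_self (norm_pos_iff.2 hne0)
    -- compact outside of which `G j` is small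
    have hT' : ∃ T' : Set R, IsCompact T' ∧ ∀ x ∉ T', ‖G j x‖ ≤ ε := by
      have : ∀ᶠ x in cocompact R, ‖G j x‖ ≤ ε := by
        have := (hG0 j).norm
        simp only [norm_zero] at this
        exact (this.eventually (gt_mem_nhds hεp)).mono fun x hx => hx.le
      obtain ⟨T', hT', hTs⟩ := mem_cocompact.1 this
      exact ⟨T', hT', fun x hx => hTs hx⟩
    obtain ⟨T', hT', hTb'⟩ := hT'
    obtain ⟨K₂, c₂, hp₂, hL₂, hc₂⟩ := exists_pair hK hg h0 hne (hp₁.cpt.union hT') hp₁.cpos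
    have hK₁₂ : K₁ ⊆ K₂ := fun x hx => interior_subset (hL₂ (Or.inl hx))
    have hT₂ : T' ⊆ K₂ := fun x hx => interior_subset (hL₂ (Or.inr hx))
    have hcont : ContinuousAt (F j) 0 := (hFd j).continuousAt
    have hev : ∀ᶠ w in 𝓝 (0 : ℂ), ε < ‖F j w‖ := hcont.norm.eventually (lt_mem_nhds hlt)
    obtain ⟨δ, hδ, hδs⟩ := Metric.eventually_nhds_iff_ball.1 hev
    obtain ⟨w, hw1, hw2, hw3, hw4⟩ := exists_small_ncrit hK hg h0 hp₁ (lt_min hδ hp₂.cpos)
    have hw5 : ‖w‖ < c₂ := hw3.trans_le (min_le_right _ _)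
    have hw6 : w ∈ Metric.ball (0 : ℂ) δ := by simpa using hw3.trans_le (min_le_left _ _)
    have h1 := hδs w hw6
    rw [hFe j w hw1 hw2 hw4] at h1
    obtain ⟨z, hz⟩ := fib_nonempty hK hg h0 hne hp₂ hw1 hw5 (ncrit_mono hK₁₂ hw4)
    have hfin := fib_finite hK hg h0 hp₁ hw1 hw2
    have hz1 : z ∈ hfin.toFinset := (Set.Finite.mem_toFinset _).2 (fib_mono hK₁₂ w hz)
    have h2 : ‖Nm g K₁ (G j) w‖ ≤ ε := by
      unfold Nm
      rw [finprod_mem_eq_finite_toFinset_prod _ hfin, norm_prod,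
        ← Finset.mul_prod_erase _ _ hz1]
      have h3 : ‖G j z‖ ≤ ε := hTb' z fun h => hz.1 (hT₂ h)
      have h4 : ∏ x ∈ hfin.toFinset.erase z, ‖G j x‖ ≤ 1 := by
        refine Finset.prod_le_one (fun _ _ => norm_nonneg _) fun x hx => ?_
        exact hb1 x ((Set.Finite.mem_toFinset _).1 (Finset.mem_of_mem_erase hx)).1 j
      calc ‖G j z‖ * ∏ x ∈ hfin.toFinset.erase z, ‖G j x‖ ≤ ε * 1 :=
            mul_le_mul h3 h4 (Finset.prod_nonneg fun _ _ => norm_nonneg _) hεp.le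
        _ = ε := mul_one _
    exact absurd h1 (not_lt.2 h2)
  -- linear bounds
  have hlin : ∀ j, ∃ C : ℝ, 0 < C ∧ ∀ᶠ w in 𝓝 (0 : ℂ), ‖F j w‖ ≤ C * ‖w‖ := by
    intro j
    have := (hFd j).isBigO_sub
    obtain ⟨C, hC, hCb⟩ := this.exists_pos
    refine ⟨C, hC, ?_⟩
    filter_upwards [hCb.bound] with w hw
    simpa [hF0 j] using hw
  choose C hC hCb using hlin
  set D := ∏ j, C j with hD
  have hDpos : 0 < D := Finset.prod_pos fun j _ => hC j
  have hev : ∀ᶠ w in 𝓝 (0 : ℂ), ∀ j, ‖F j w‖ ≤ C j * ‖w‖ := eventually_all.2 hCb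
  obtain ⟨δ, hδ, hδs⟩ := Metric.eventually_nhds_iff_ball.1 hev
  by_contra hJ
  push Not at hJ
  obtain ⟨w, hw1, hw2, hw3, hw4⟩ := exists_small_ncrit hK hg h0 hp₁
    (δ := min δ (min 1 (1 / (D + 1)))) (lt_min hδ (lt_min one_pos (by positivity)))
  have hwδ : w ∈ Metric.ball (0 : ℂ) δ := by simpa using hw3.trans_le (min_le_left _ _)
  have hw1' : ‖w‖ < 1 := hw3.trans_le ((min_le_right _ _).trans (min_le_left _ _))
  have hwD : ‖w‖ < 1 / (D + 1) := hw3.trans_le ((min_le_right _ _).trans (min_le_right _ _))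
  have hfin := fib_finite hK hg h0 hp₁ hw1 hw2
  have hkey : ∏ j, F j w = w ^ m₁ := by
    have h1 : ∀ j, F j w = ∏ x ∈ hfin.toFinset, G j x := by
      intro j
      rw [hFe j w hw1 hw2 hw4]
      unfold Nm
      rw [finprod_mem_eq_finite_toFinset_prod _ hfin]
    simp_rw [h1]
    rw [Finset.prod_comm]
    have h2 : ∀ x ∈ hfin.toFinset, ∏ j, G j x = w := by
      intro x hx
      have hx' := (Set.Finite.mem_toFinset _).1 hx
      rw [← hprod x (fun h => hx'.1 (hK'₁ h)), hx'.2]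
    rw [Finset.prod_congr rfl h2, Finset.prod_const, ← Set.ncard_eq_toFinset_card _ hfin,
      hm₁ w hw1 hw2 hw4]
  have h1 : ‖w‖ ^ m₁ ≤ D * ‖w‖ ^ J := by
    have h2 : ‖∏ j, F j w‖ = ‖w‖ ^ m₁ := by rw [hkey, norm_pow]
    rw [← h2, norm_prod]
    calc ∏ j, ‖F j w‖ ≤ ∏ j, (C j * ‖w‖) :=
          Finset.prod_le_prod (fun _ _ => norm_nonneg _) fun j _ => hδs w hwδ j
      _ = D * ‖w‖ ^ J := by
          rw [Finset.prod_mul_distrib, Finset.prod_const, Finset.card_univ, Fintype.card_fin]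
  have h2 : ‖w‖ ^ J ≤ ‖w‖ ^ (m₁ + 1) :=
    pow_le_pow_of_le_one (norm_nonneg _) hw1'.le hJ
  have h3 : ‖w‖ ^ m₁ ≤ D * (‖w‖ ^ m₁ * ‖w‖) := by
    rw [← pow_succ]
    exact h1.trans (mul_le_mul_of_nonneg_left h2 hDpos.le)
  have h4 : 0 < ‖w‖ ^ m₁ := pow_pos hw1 _
  have h5 : 1 ≤ D * ‖w‖ := by
    have : ‖w‖ ^ m₁ * 1 ≤ ‖w‖ ^ m₁ * (D * ‖w‖) := by linarith
    exact le_of_mul_le_mul_left this h4
  have h6 : D * ‖w‖ < 1 := by
    rw [lt_div_iff₀ (by positivity)] at hwD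
    nlinarith
  linarith

end Vale.Agent.P267.H692
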