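import Vale.Agent.P267.H877.Setup

/-!
# P267, package XT-CONE (helper692): the interface between the analysis on the infinite cyclic
cover `M = Xt` (block A, XT-AN: 877, 306, 413, 662, 378, 359, 759, 439) and the curve theory
(block D: 331, 338).  v2, on helper877's `XTData`.

* `W0`, `W1`, `W2 D d`: smooth forms of weight `-d`: `|w| ≤ C e^{-d f}` on all of `M`
  (`f → +∞` is the outer end, `f → -∞` the inner end), norms `n1 D.h 0`, `n2 D.h 0` of Setup.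
* `XtCone`: (A0)-(A5), the INPUT.  `L = E_e` with the holomorphic structure `a`, trivialised
  (`P = E_{i₀ i₀}`) for `|f| ≥ R`; `L.dual` with the structure `-a` is `E_{-e}`;
  `α` is the holomorphic section of `L`.
* `DivLocal`: the division lemma DIV (439).
* `SolveStatement`, `PoleStatement`, `EndStatement`: the OUTPUT.
-/

open scoped Manifold ContDiff ComplexConjugate Matrix
open Set Filter Topology

noncomputable section

namespace Vale.Agent.P267.H692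

open Vale.Agent.P267.FL Vale.Agent.P267.XT

variable {M : Type} [TopologicalSpace M] [ChartedSpace C2 M]

section weights

variable {V : Type*} [NormedAddCommGroup V] [InnerProductSpace ℂ V]

/-- smooth functions of weight `-d` -/
structure W0 (D : XTData M) (d : ℝ) (u : M → V) : Prop where
  reg : Reg0 ∞ 0 u
  bd : ∃ C : ℝ, ∀ x, ‖u x‖ ≤ C * Real.exp (-d * D.f x)

/-- smooth `(0,1)`-forms of weight `-d` -/
structure W1 (D : XTData M) (d : ℝ) (w : M → Fin 2 → V) : Prop where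
  reg : Reg1 ∞ 0 w
  bd : ∃ C : ℝ, ∀ x, n1 D.h 0 w x ≤ C * Real.exp (-d * D.f x)

/-- smooth `(0,2)`-forms of weight `-d` -/
structure W2 (D : XTData M) (d : ℝ) (b : M → V) : Prop where
  reg : Reg2 ∞ 0 b
  bd : ∃ C : ℝ, ∀ x, n2 D.h 0 b x ≤ C * Real.exp (-d * D.f x)

end weights

variable {ι : Type} [Fintype ι] [DecidableEq ι]

/-- the pairing of `L` and `L.dual` (bilinear) -/
def pair (v w : EuclideanSpace ℂ ι) : ℂ := ∑ i, v i * w i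

/-- the conjugate structure form: `E_{-e} = (L.dual, neg a)` -/
abbrev neg (a : M → Fin 2 → ℂ) : M → Fin 2 → ℂ := fun x i => -a x i

/-- THE INPUT OF XT-CONE. -/
structure XtCone (D : XTData M) (L : LB M ι) (a : M → Fin 2 → ℂ) (i₀ : ι) (R : ℝ)
    (α : M → EuclideanSpace ℂ ι) (d d' : ℝ) : Prop where
  d_pos : 0 < d
  d_lt : d < d'
  R_pos : 0 < R
  /-- the line bundle `E_e` and its holomorphic structure -/
  hol : L.IsHol a
  triv : ∀ x, R ≤ |D.f x| → L.P x = Matrix.single i₀ i₀ 1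
  a_in : ∃ C : ℝ, ∀ x, D.f x ≤ 0 → n1 D.h 0 a x ≤ C * Real.exp (d' * D.f x)
  /-- the section `α` of `E_e` (A4) -/
  α_reg : Reg0 ∞ 0 α
  α_sec : L.Sec α
  α_hol : ∀ x i, L.db0 a 0 α x i = 0
  α_bdd : ∃ C : ℝ, ∀ x, ‖α x‖ ≤ C
  α_in : ∃ C : ℝ, ∀ x, D.f x ≤ 0 → ‖α x‖ ≤ C * Real.exp (d' * D.f x)
  α_out : ∀ x, R ≤ D.f x → α x ≠ 0
  α_dense : Dense {x | α x ≠ 0}
  /-- (A0) `H^0_{-d}(O) = 0` -/
  A0 : ∀ u : M → ℂ, W0 D d u → (∀ x i, dbar0 0 u x i = 0) → ∀ x, u x = 0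
  /-- (A1) `H^1_{-d}(O) = 0` -/
  A1 : ∀ w : M → Fin 2 → ℂ, W1 D d w → (∀ x, dbar1 0 w x = 0) →
    ∃ u : M → ℂ, W0 D d u ∧ ∀ x i, dbar0 0 u x i = w x i
  /-- (A2) `H^2_{-d}(E_{-e}) = 0` -/
  A2 : ∀ b : M → EuclideanSpace ℂ ι, L.dual.Sec b → W2 D d b →
    ∃ η : M → Fin 2 → EuclideanSpace ℂ ι, L.dual.Sec1 η ∧ W1 D d η ∧
      ∀ x, L.dual.db1 (neg a) 0 η x = b x
  /-- (A3) `dim H^1_{-d}(E_{-e}) ≤ 1` -/
  A3 : ∀ η₁ η₂ : M → Fin 2 → EuclideanSpace ℂ ι,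
    L.dual.Sec1 η₁ → W1 D d η₁ → (∀ x, L.dual.db1 (neg a) 0 η₁ x = 0) →
    L.dual.Sec1 η₂ → W1 D d η₂ → (∀ x, L.dual.db1 (neg a) 0 η₂ x = 0) →
    ∃ c₁ c₂ : ℂ, (c₁ ≠ 0 ∨ c₂ ≠ 0) ∧ ∃ t : M → EuclideanSpace ℂ ι, L.dual.Sec t ∧ W0 D d t ∧
      ∀ x i, L.dual.db0 (neg a) 0 t x i = c₁ • η₁ x i + c₂ • η₂ x i
  /-- (A5) limits at the inner end -/
  A5 : ∀ u : M → ℂ, W0 D d u → ∀ ε : ℝ, 0 < ε →
    (∃ C : ℝ, ∀ x, D.f x ≤ 0 → n1 D.h 0 (dbar0 0 u) x ≤ C * Real.exp (ε * D.f x)) →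
    ∃ b : ℂ, ∃ ε' : ℝ, 0 < ε' ∧ ∃ C : ℝ, ∀ x, D.f x ≤ 0 → ‖u x - b‖ ≤ C * Real.exp (ε' * D.f x)

/-- DIV (helper439): every compactly supported smooth `(0,2)`-form `F` is `∂̄ b₀ + ⟨α, w'⟩` with
`b₀`, `w'` smooth with compact support in a given neighbourhood of the support of `F`. -/
def DivLocal (L : LB M ι) (α : M → EuclideanSpace ℂ ι) : Prop :=
  ∀ (U : Set M) (F : M → ℂ), IsOpen U → Reg2 ∞ 0 F → HasCompactSupport F → tsupport F ⊆ U →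
    ∃ (b₀ : M → Fin 2 → ℂ) (w' : M → EuclideanSpace ℂ ι), Reg1 ∞ 0 b₀ ∧ HasCompactSupport b₀ ∧
      tsupport b₀ ⊆ U ∧ Reg2 ∞ 0 w' ∧ HasCompactSupport w' ∧ tsupport w' ⊆ U ∧ L.dual.Sec w' ∧
      ∀ x, F x = dbar1 0 b₀ x + pair (α x) (w' x)

/-- (C-i) THE FIRST OUTPUT (`H^1_{-d}(O_D) = 0`, pole functions): solve `∂̄u = g` modulo `α`, with
a limit at the inner end if `g` decays there. -/
def SolveStatement (D : XTData M) (L : LB M ι) (α : M → EuclideanSpace ℂ ι) (d : ℝ) : Prop :=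
  ∀ (g : M → Fin 2 → ℂ) (b : M → EuclideanSpace ℂ ι), W1 D d g → L.dual.Sec b → W2 D d b →
    (∀ x, dbar1 0 g x = pair (α x) (b x)) →
    (∃ ε > (0 : ℝ), ∃ C : ℝ, ∀ x, D.f x ≤ 0 → n1 D.h 0 g x ≤ C * Real.exp (ε * D.f x)) →
    ∃ (u : M → ℂ) (η : M → Fin 2 → EuclideanSpace ℂ ι) (c : ℂ), W0 D d u ∧ L.dual.Sec1 η ∧
      W1 D d η ∧ (∀ x i, dbar0 0 u x i = g x i + pair (α x) (η x i)) ∧
      ∃ ε' > (0 : ℝ), ∃ C : ℝ, ∀ x, D.f x ≤ 0 → ‖u x - c‖ ≤ C * Real.exp (ε' * D.f x)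

/-- POLE FUNCTIONS (for CHEAP-C1/C2, helper331/338): `g` compactly supported, `∂̄g` supported off
`D = {α = 0}`.  Then `g = ∂̄u` modulo `α`, `u → 0` at the outer end and `u → c` at the inner end. -/
def PoleStatement (D : XTData M) (L : LB M ι) (α : M → EuclideanSpace ℂ ι) : Prop :=
  ∀ (g : M → Fin 2 → ℂ), Reg1 ∞ 0 g → HasCompactSupport g →
    (∀ x ∈ tsupport (dbar1 0 g), α x ≠ 0) →
    ∃ (u : M → ℂ) (η : M → Fin 2 → EuclideanSpace ℂ ι) (c : ℂ), Reg0 ∞ 0 u ∧ L.dual.Sec1 η ∧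
      Reg1 ∞ 0 η ∧ (∀ x i, dbar0 0 u x i = g x i + pair (α x) (η x i)) ∧
      Tendsto u (comap D.f atTop) (𝓝 0) ∧ Tendsto u (comap D.f atBot) (𝓝 c)

/-- (C3), THE LAST OUTPUT: an end of a curve in `D = {α = 0}` that goes to the inner end of `M` is
contained in `γ^{-jk} D` for every `j` (in one formula for the cases `b = 0` and `b ≠ 0`).
CONSUMER: `α ∘ γ^{jk}` vanishes on the whole component of `D`, contradiction for large `j`. -/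
def EndStatement (D : XTData M) (α : M → EuclideanSpace ℂ ι) : Prop :=
  ∃ k : ℕ, 0 < k ∧ ∀ (ψ : ℂ → M) (ρ : ℝ), 0 < ρ →
    (∀ t, t ≠ 0 → ‖t‖ < ρ → ContinuousAt ψ t ∧
      DifferentiableAt ℂ (fun s => chartAt C2 (ψ t) (ψ s)) t ∧ α (ψ t) = 0) →
    Tendsto (fun t => D.f (ψ t)) (𝓝[≠] 0) atBot →
    ∀ j : ℕ, ∀ᶠ t in 𝓝[≠] (0 : ℂ), α (D.sh (j * k) (ψ t)) = 0

end Vale.Agent.P267.H692
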