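import Vale.Agent.P267.H692.Cal
import Vale.Agent.P267.H692.Iface

/-!
# P267 / XT-CONE: pointwise norms of `(0,1)`- and `(0,2)`-forms
-/

set_option linter.unusedSectionVars false

open scoped Manifold ContDiff ComplexConjugate Matrix ComplexOrder
open Set Filter Topology

noncomputable section

namespace Vale.Agent.P267.H692

open Vale.Agent.P267.FL Vale.Agent.P267.XT

variable {M : Type} [TopologicalSpace M] [ChartedSpace C2 M]
variable {h : M → Matrix (Fin 2) (Fin 2) ℂ}

section alg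

variable {V : Type*} [NormedAddCommGroup V] [InnerProductSpace ℂ V]

open scoped MatrixOrder Matrix.Norms.L2Operator in
theorem exists_root_aux {A : Matrix (Fin 2) (Fin 2) ℂ} (hA : A.PosSemidef) :
    ∃ B : Matrix (Fin 2) (Fin 2) ℂ, A = Bᴴ * B := by
  obtain ⟨B, hB⟩ := CStarAlgebra.nonneg_iff_eq_star_mul_self.mp hA.nonneg
  exact ⟨B, hB⟩

theorem exists_root (hh : IsHerm h) (x : M) :
    ∃ B : Matrix (Fin 2) (Fin 2) ℂ, (h x)⁻¹ = Bᴴ * B :=
  exists_root_aux (hh.posDef x).inv.posSemidef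

/-- a square root of `h⁻¹` -/
def root (hh : IsHerm h) (x : M) : Matrix (Fin 2) (Fin 2) ℂ := (exists_root hh x).choose

theorem root_spec (hh : IsHerm h) (x : M) : (h x)⁻¹ = (root hh x)ᴴ * root hh x :=
  (exists_root hh x).choose_spec

/-- the `(0,1)`-form in a unitary coframe -/
def fr (hh : IsHerm h) (x : M) (w : Fin 2 → V) : PiLp 2 fun _ : Fin 2 => V :=
  WithLp.toLp 2 fun k => ∑ i, conj (root hh x k i) • w i

theorem nsq1_eq (hh : IsHerm h) (w : M → Fin 2 → V) (x : M) :
    nsq1 h w x = ‖fr hh x (w x)‖ ^ 2 := by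
  rw [nsq1, PiLp.norm_sq_eq_of_L2, root_spec hh x]
  have h1 : ∀ k, ‖(fr hh x (w x)).ofLp k‖ ^ 2 =
      (∑ i, ∑ j, (conj (root hh x k j) * root hh x k i) * inner ℂ (w x i) (w x j)).re := by
    intro k
    rw [fr, ← inner_self_eq_norm_sq (𝕜 := ℂ)]
    simp only [Fin.sum_univ_two, inner_add_left, inner_add_right, inner_smul_left,
      inner_smul_right, RCLike.re_to_complex, Complex.conj_conj]
    congr 1
    ring
  simp only [h1, ← Complex.re_sum]
  congr 1
  simp only [Fin.sum_univ_two, Matrix.mul_apply, Matrix.conjTranspose_apply, RCLike.star_def]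
  ring

theorem n1_eq (hh : IsHerm h) (w : M → Fin 2 → V) (x : M) : n1 h 0 w x = ‖fr hh x (w x)‖ := by
  rw [n1, nsq1_eq hh, Real.sqrt_sq (norm_nonneg _)]
  simp

theorem n1_nonneg (w : M → Fin 2 → V) (x : M) : 0 ≤ n1 h 0 w x := by
  rw [n1]
  simp [Real.sqrt_nonneg]

theorem fr_add (hh : IsHerm h) (x : M) (w w' : Fin 2 → V) :
    fr hh x (fun i => w i + w' i) = fr hh x w + fr hh x w' := by
  ext k
  simp [fr, Finset.sum_add_distrib, smul_add]

theorem fr_smul (hh : IsHerm h) (x : M) (c : ℂ) (w : Fin 2 → V) :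
    fr hh x (fun i => c • w i) = c • fr hh x w := by
  ext k
  simp only [fr, PiLp.smul_apply, Finset.smul_sum]
  exact Finset.sum_congr rfl fun i _ => smul_comm _ _ _

theorem n1_add_le (hh : IsHerm h) (w w' : M → Fin 2 → V) (x : M) :
    n1 h 0 (fun y i => w y i + w' y i) x ≤ n1 h 0 w x + n1 h 0 w' x := by
  rw [n1_eq hh, n1_eq hh, n1_eq hh, fr_add]
  exact norm_add_le _ _

theorem n1_smul (hh : IsHerm h) (φ : M → ℂ) (w : M → Fin 2 → V) (x : M) :
    n1 h 0 (fun y i => φ y • w y i) x = ‖φ x‖ * n1 h 0 w x := by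
  rw [n1_eq hh, n1_eq hh, fr_smul, norm_smul]

theorem n1_neg (hh : IsHerm h) (w : M → Fin 2 → V) (x : M) :
    n1 h 0 (fun y i => -w y i) x = n1 h 0 w x := by
  have := n1_smul hh (fun _ => (-1 : ℂ)) w x
  simpa using this

theorem n1_sub_le (hh : IsHerm h) (w w' : M → Fin 2 → V) (x : M) :
    n1 h 0 (fun y i => w y i - w' y i) x ≤ n1 h 0 w x + n1 h 0 w' x := by
  have := n1_add_le hh w (fun y i => -w' y i) x
  rw [n1_neg hh] at this
  simpa only [sub_eq_add_neg] using this

/-- estimate for a bounded linear operation (depending on the point) -/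
theorem n1_le_of {V' : Type*} [NormedAddCommGroup V'] [InnerProductSpace ℂ V'] (hh : IsHerm h)
    (T : V →ₗ[ℂ] V') (C : ℝ) (hC : 0 ≤ C) (hT : ∀ v, ‖T v‖ ≤ C * ‖v‖) (w : M → Fin 2 → V)
    (w' : M → Fin 2 → V') (x : M) (h' : ∀ i, w' x i = T (w x i)) :
    n1 h 0 w' x ≤ C * n1 h 0 w x := by
  rw [n1_eq hh, n1_eq hh]
  have h1 : ∀ k, (fr hh x (w' x)).ofLp k = T ((fr hh x (w x)).ofLp k) := by
    intro k
    simp [fr, h', map_add, map_smul]
  rw [PiLp.norm_eq_of_L2, PiLp.norm_eq_of_L2, ← Real.sqrt_sq hC, ← Real.sqrt_mul (sq_nonneg _)]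
  apply Real.sqrt_le_sqrt
  rw [Finset.mul_sum]
  apply Finset.sum_le_sum
  intro k _
  rw [h1, ← mul_pow]
  exact pow_le_pow_left₀ (norm_nonneg _) (hT _) 2

theorem n1_smul_vec (hh : IsHerm h) (w : M → Fin 2 → ℂ) (s : M → V) (x : M) :
    n1 h 0 (fun y i => w y i • s y) x ≤ ‖s x‖ * n1 h 0 w x := by
  refine n1_le_of hh ((LinearMap.toSpanSingleton ℂ V (s x))) _ (norm_nonneg _) ?_ w _ x
    (fun i => rfl)
  intro v
  simp [norm_smul, mul_comm]

end alg

section pair

variable {ι : Type} [Fintype ι] [DecidableEq ι]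

/-- the pairing as a continuous bilinear map -/
def pairL : EuclideanSpace ℂ ι →L[ℂ] EuclideanSpace ℂ ι →L[ℂ] ℂ :=
  ∑ i, (EuclideanSpace.proj (𝕜 := ℂ) i).smulRight (EuclideanSpace.proj (𝕜 := ℂ) i)

theorem pairL_apply (v w : EuclideanSpace ℂ ι) : pairL v w = pair v w := by
  simp [pairL, pair]

theorem pair_zero_left (w : EuclideanSpace ℂ ι) : pair 0 w = 0 := by simp [pair]
theorem pair_zero_right (v : EuclideanSpace ℂ ι) : pair v 0 = 0 := by simp [pair]

theorem pair_add_right (v w w' : EuclideanSpace ℂ ι) : pair v (w + w') = pair v w + pair v w' := by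
  rw [← pairL_apply, map_add, pairL_apply, pairL_apply]

theorem pair_sub_right (v w w' : EuclideanSpace ℂ ι) : pair v (w - w') = pair v w - pair v w' := by
  rw [← pairL_apply, map_sub, pairL_apply, pairL_apply]

theorem pair_neg_right (v w : EuclideanSpace ℂ ι) : pair v (-w) = -pair v w := by
  rw [← pairL_apply, map_neg, pairL_apply]

theorem pair_smul_right (c : ℂ) (v w : EuclideanSpace ℂ ι) : pair v (c • w) = c * pair v w := by
  rw [← pairL_apply, map_smul, pairL_apply, smul_eq_mul]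

theorem pair_smul_left (c : ℂ) (v w : EuclideanSpace ℂ ι) : pair (c • v) w = c * pair v w := by
  rw [← pairL_apply, map_smul, smul_apply, pairL_apply, smul_eq_mul]

theorem norm_pair_le (v w : EuclideanSpace ℂ ι) : ‖pair v w‖ ≤ ‖v‖ * ‖w‖ := by
  have h1 : pair v w = inner ℂ (WithLp.toLp 2 fun i => conj (v i) : EuclideanSpace ℂ ι) w := by
    simp only [PiLp.inner_apply, RCLike.inner_apply, pair, Complex.conj_conj]
    exact Finset.sum_congr rfl fun i _ => mul_comm _ _
  have h2 : ‖(WithLp.toLp 2 fun i => conj (v i) : EuclideanSpace ℂ ι)‖ = ‖v‖ := by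
    simp [EuclideanSpace.norm_eq]
  rw [h1, ← h2]
  exact norm_inner_le_norm _ _

theorem n1_pair_le (hh : IsHerm h) (α : M → EuclideanSpace ℂ ι)
    (η : M → Fin 2 → EuclideanSpace ℂ ι) (x : M) :
    n1 h 0 (fun y i => pair (α y) (η y i)) x ≤ ‖α x‖ * n1 h 0 η x := by
  refine n1_le_of hh (pairL (α x)).toLinearMap _ (norm_nonneg _) ?_ η _ x
    (fun i => (pairL_apply _ _).symm)
  intro v
  show ‖pairL (α x) v‖ ≤ _
  rw [pairL_apply]
  exact norm_pair_le _ _

theorem act_eq_clm (P : Matrix ι ι ℂ) (v : EuclideanSpace ℂ ι) :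
    LB.act P v = (Matrix.toEuclideanCLM (𝕜 := ℂ) P) v := rfl

theorem pair_act (P : Matrix ι ι ℂ) (v w : EuclideanSpace ℂ ι) :
    pair (LB.act P v) w = pair v (LB.act Pᵀ w) := by
  simp only [pair, LB.act, Matrix.mulVec, dotProduct, Finset.sum_mul, Finset.mul_sum,
    Matrix.transpose_apply]
  rw [Finset.sum_comm]
  exact Finset.sum_congr rfl fun i _ => Finset.sum_congr rfl fun j _ => by ring

end pair

/-! ### n2 -/

section n2

variable {V : Type*} [NormedAddCommGroup V] [InnerProductSpace ℂ V]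

theorem dh_pos (hh : IsHerm h) (x : M) : 0 < dh h x := by
  have := (hh.posDef x).det_pos
  exact (Complex.lt_def.1 this).1

theorem n2_eq (b : M → V) (x : M) : n2 h 0 b x = ‖b x‖ * dh h x ^ (-(1 / 2) : ℝ) := by
  rw [n2]
  norm_num

theorem n2_nonneg (hh : IsHerm h) (b : M → V) (x : M) : 0 ≤ n2 h 0 b x := by
  rw [n2_eq]
  exact mul_nonneg (norm_nonneg _) (Real.rpow_nonneg (dh_pos hh x).le _)

theorem n2_le_of {V' : Type*} [NormedAddCommGroup V'] [InnerProductSpace ℂ V'] (hh : IsHerm h)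
    (C : ℝ) (b : M → V) (b' : M → V') (x : M) (h' : ‖b' x‖ ≤ C * ‖b x‖) :
    n2 h 0 b' x ≤ C * n2 h 0 b x := by
  rw [n2_eq, n2_eq, ← mul_assoc]
  exact mul_le_mul_of_nonneg_right h' (Real.rpow_nonneg (dh_pos hh x).le _)

end n2

/-! ### continuity -/

section cont

variable [IsManifold 𝓘(ℂ, C2) ω M]
variable {V : Type*} [NormedAddCommGroup V] [InnerProductSpace ℂ V]

/-- the expression of `nsq1` as a function of the components -/
def nsqF (G : Matrix (Fin 2) (Fin 2) ℂ) (w : Fin 2 → V) : ℝ :=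
  (∑ i, ∑ j, G⁻¹ j i * inner ℂ (w i) (w j)).re

theorem loc11_eq {e : Ch M} {x : M} (hx : x ∈ e.source) (g : M → Matrix (Fin 2) (Fin 2) ℂ) :
    loc11 e g (e x) = (jac e x)ᵀ * g x * (jac e x).map conj := by
  ext i j
  simp only [loc11, e.left_inv hx, Matrix.of_apply, Matrix.mul_apply, Matrix.transpose_apply,
    Matrix.map_apply, Fin.sum_univ_two, smul_eq_mul]
  ring

theorem nsq1_chart {e : Ch M} (he : e ∈ atlas C2 M) {x : M} (hx : x ∈ e.source)
    (w : M → Fin 2 → V) :
    nsq1 h w x = nsqF (loc11 e h (e x)) (loc1 0 e w (e x)) := by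
  set J := jac e x with hJ
  have hJd : IsUnit J.det := (jac_det_ne_zero he hx).isUnit
  have hJT : IsUnit Jᵀ.det := by rwa [Matrix.det_transpose]
  have hJc : IsUnit (J.map conj).det := by
    rw [← RingHom.mapMatrix_apply, ← RingHom.map_det]
    exact hJd.map _
  have key : J.map conj * (Jᵀ * h x * J.map conj)⁻¹ * Jᵀ = (h x)⁻¹ := by
    rw [Matrix.mul_inv_rev, Matrix.mul_inv_rev, ← Matrix.mul_assoc, Matrix.mul_nonsing_inv _ hJc,
      Matrix.one_mul, Matrix.mul_assoc, Matrix.nonsing_inv_mul _ hJT, Matrix.mul_one]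
  rw [nsqF, loc11_eq hx, nsq1, ← key]
  congr 1
  simp only [Fin.sum_univ_two, Matrix.mul_apply, Matrix.map_apply, Matrix.transpose_apply,
    loc1_source hx, zpow_zero, one_smul, inner_add_left, inner_add_right, inner_smul_left,
    inner_smul_right, Complex.conj_conj, ← hJ]
  ring

theorem continuousAt_nsqF {G : M → Matrix (Fin 2) (Fin 2) ℂ} {w : M → Fin 2 → V} {x : M}
    (hG : ContinuousAt G x) (hw : ContinuousAt w x) (h0 : (G x).det ≠ 0) :
    ContinuousAt (fun y => nsqF (G y) (w y)) x := by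
  have h1 : ContinuousAt (fun y => (G y)⁻¹) x := by
    have h2 : ContinuousAt (Inv.inv : Matrix (Fin 2) (Fin 2) ℂ → _) (G x) := by
      apply continuousAt_matrix_inv
      rw [Ring.inverse_eq_inv']
      exact continuousAt_inv₀ h0
    exact h2.comp hG
  unfold nsqF
  refine Complex.continuous_re.continuousAt.comp ?_
  refine tendsto_finsetSum _ fun i _ => tendsto_finsetSum _ fun j _ => ?_
  have h2 : ContinuousAt (fun y => (G y)⁻¹ j i) x :=
    (continuous_id.matrix_elem j i).continuousAt.comp h1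
  have h3 : ∀ i, ContinuousAt (fun y => w y i) x := fun i =>
    (continuous_apply i).continuousAt.comp hw
  exact Tendsto.mul h2 ((h3 i).inner (𝕜 := ℂ) (h3 j))

theorem IsHerm.contLoc (hh : IsHerm h) {e : Ch M} (he : e ∈ atlas C2 M) {x : M}
    (hx : x ∈ e.source) : ContinuousAt (fun y => loc11 e h (e y)) x := by
  have h1 : ContinuousAt (loc11 e h) (e x) := by
    refine continuousAt_pi.2 fun i => continuousAt_pi.2 fun j => ?_
    exact ((hh.smooth e he i j).contDiffAt (e.open_target.mem_nhds (e.map_source hx))).continuousAt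
  exact h1.comp (e.continuousAt hx)

theorem loc11_det_ne (hh : IsHerm h) {e : Ch M} (he : e ∈ atlas C2 M) {x : M}
    (hx : x ∈ e.source) : (loc11 e h (e x)).det ≠ 0 := by
  rw [loc11_eq hx, Matrix.det_mul, Matrix.det_mul, Matrix.det_transpose]
  have hJd := jac_det_ne_zero he hx
  have hJc : ((jac e x).map conj).det ≠ 0 := by
    rw [← RingHom.mapMatrix_apply, ← RingHom.map_det]
    simpa using hJd
  exact mul_ne_zero (mul_ne_zero hJd (hh.posDef x).det_pos.ne') hJc

theorem continuous_n1 (hh : IsHerm h) {w : M → Fin 2 → V} (hw : Reg1 ∞ 0 w) :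
    Continuous (n1 h 0 w) := by
  rw [continuous_iff_continuousAt]
  intro x
  set e := chartAt C2 x with he
  have hea := chart_mem_atlas C2 x
  have hx := mem_chart_source C2 x
  have h1 : ContinuousAt (fun y => nsqF (loc11 e h (e y)) (loc1 0 e w (e y))) x := by
    refine continuousAt_nsqF (IsHerm.contLoc hh hea hx) ?_ (loc11_det_ne hh hea hx)
    exact ((hw.contDiffAt hea (e.map_source hx)).continuousAt).comp (e.continuousAt hx)
  have h2 : (fun y => n1 h 0 w y) =ᶠ[𝓝 x]
      fun y => Real.sqrt (nsqF (loc11 e h (e y)) (loc1 0 e w (e y))) := by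
    filter_upwards [e.open_source.mem_nhds hx] with y hy
    rw [n1, nsq1_chart hea hy]
    simp [he]
  exact (Real.continuous_sqrt.continuousAt.comp h1).congr h2.symm

theorem continuous_n2 (hh : IsHerm h) {b : M → V} (hb : Reg2 ∞ 0 b) :
    Continuous (n2 h 0 b) := by
  rw [continuous_iff_continuousAt]
  intro x
  set e := chartAt C2 x with he
  have hea := chart_mem_atlas C2 x
  have hx := mem_chart_source C2 x
  have hdet : ∀ y ∈ e.source, (loc11 e h (e y)).det.re = ‖(jac e y).det‖ ^ 2 * dh h y := by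
    intro y hy
    rw [loc11_eq hy, Matrix.det_mul, Matrix.det_mul, Matrix.det_transpose,
      ← RingHom.mapMatrix_apply, ← RingHom.map_det, mul_right_comm, Complex.mul_conj,
      Complex.normSq_eq_norm_sq, Complex.re_ofReal_mul, dh]
  have h1 : ContinuousAt (fun y => ‖loc2 0 e b (e y)‖ *
      ((loc11 e h (e y)).det.re) ^ (-(1 / 2) : ℝ)) x := by
    refine ContinuousAt.mul ?_ ?_
    · exact (((hb.contDiffAt hea (e.map_source hx)).continuousAt).comp (e.continuousAt hx)).norm
    · refine ContinuousAt.rpow_const ?_ (Or.inl ?_)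
      · exact Complex.continuous_re.continuousAt.comp
          ((Continuous.matrix_det continuous_id).continuousAt.comp (IsHerm.contLoc hh hea hx))
      · rw [hdet x hx]
        have := dh_pos hh x
        have h3 := jac_det_ne_zero hea hx
        positivity
  refine h1.congr ?_
  filter_upwards [e.open_source.mem_nhds hx] with y hy
  rw [hdet y hy, loc2_source hy, n2_eq]
  have h3 : (0 : ℝ) < ‖(jac e y).det‖ := norm_pos_iff.2 (jac_det_ne_zero hea hy)
  rw [Real.mul_rpow (by positivity) (dh_pos hh y).le, zpow_zero, one_smul, norm_smul,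
    RCLike.norm_conj, ← Real.rpow_natCast, ← Real.rpow_mul h3.le]
  have h4 : ((2 : ℕ) : ℝ) * -(1 / 2) = -1 := by norm_num
  rw [h4, Real.rpow_neg_one]
  field_simp

end cont

/-! ### weights of compactly supported forms -/

section weights

variable [IsManifold 𝓘(ℂ, C2) ω M] (D : XTData M)
variable {V : Type*} [NormedAddCommGroup V] [InnerProductSpace ℂ V]

theorem continuous_f : Continuous D.f := by
  have h1 : Continuous fun x => ((D.f x : ℝ) : ℂ) :=
    continuous_iff_continuousAt.2 fun x => (reg0.1 D.f_smooth x).continuousAt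
  exact Complex.continuous_re.comp h1

theorem exists_weight_bound {n : M → ℝ} (hn : Continuous n) (hc : HasCompactSupport n) (d : ℝ) :
    ∃ C : ℝ, ∀ x, n x ≤ C * Real.exp (-d * D.f x) := by
  have h1 : Continuous fun x => n x * Real.exp (d * D.f x) :=
    hn.mul (Real.continuous_exp.comp (continuous_const.mul (continuous_f D)))
  have h2 : HasCompactSupport fun x => n x * Real.exp (d * D.f x) := hc.mul_right
  obtain ⟨C, hC⟩ := h1.bddAbove_range_of_hasCompactSupport h2
  refine ⟨C, fun x => ?_⟩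
  have h3 : n x * Real.exp (d * D.f x) ≤ C := hC ⟨x, rfl⟩
  calc n x = (n x * Real.exp (d * D.f x)) * Real.exp (-d * D.f x) := by
        rw [mul_assoc, ← Real.exp_add]; simp
    _ ≤ C * Real.exp (-d * D.f x) := mul_le_mul_of_nonneg_right h3 (Real.exp_pos _).le

theorem W1.of_compact {w : M → Fin 2 → V} (hw : Reg1 ∞ 0 w) (hc : HasCompactSupport w) (d : ℝ) :
    W1 D d w := by
  refine ⟨hw, exists_weight_bound D (continuous_n1 D.herm hw) ?_ d⟩
  refine hc.mono' ?_
  intro x hx
  refine subset_tsupport _ ?_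
  intro h0
  apply hx
  show n1 D.h 0 w x = 0
  rw [n1_eq D.herm, h0]
  have : fr D.herm x (0 : Fin 2 → V) = 0 := by ext k; simp [fr]
  rw [this, norm_zero]

theorem W2.of_compact {b : M → V} (hb : Reg2 ∞ 0 b) (hc : HasCompactSupport b) (d : ℝ) :
    W2 D d b := by
  refine ⟨hb, exists_weight_bound D (continuous_n2 D.herm hb) ?_ d⟩
  refine hc.mono' ?_
  intro x hx
  refine subset_tsupport _ ?_
  intro h0
  apply hx
  show n2 D.h 0 b x = 0
  rw [n2_eq, h0, norm_zero, zero_mul]

end weights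

end Vale.Agent.P267.H692
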