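import Vale.Agent.P267.H994.PD
import Vale.Agent.P267.H53.GoodTI
import Vale.Agent.P267.H533.InstChart
import Vale.Agent.P267.H368.Cover
import Vale.Agent.P267.H995.Pz

/-!
# P267, package UNI-PDIN (helper692): the input of the duality theorem on a compact surface

* `exists_sqPart`, `exists_sqSeq` : square partitions of unity of small mesh;
* `partOf` : the partition `φ²` in the algebra `AX X`;
* `pdIn` : `H994.PDIn (TI X) P U` for a good cover `U` and partitions of mesh tending to zero.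
-/

set_option linter.unusedVariables false
set_option linter.unusedSectionVars false

open scoped Manifold ContDiff Topology Uniformity
open Set Filter TopologicalSpace

noncomputable section

namespace Vale.Agent.P267.H692

open Vale.Agent.P267.FL Vale.Agent.P267.H533 Vale.Agent.P267.H995

/-! ### square partitions of unity -/

section sq

variable {X : Type} [MetricSpace X] [CompactSpace X] [ChartedSpace C2 X]
  [IsManifold 𝓘(ℂ, C2) ω X]

omit [CompactSpace X] [IsManifold 𝓘(ℂ, C2) ω X] in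
/-- composition with a function which is smooth on the positive numbers -/
theorem rsm_comp_pos {f : X → ℝ} (hf : RSm f) (hpos : ∀ x, 0 < f x) {g : ℝ → ℝ}
    (hg : ContDiffOn ℝ ∞ g (Ioi 0)) : RSm (fun x => g (f x)) :=
  fun e he => hg.comp (hf e he) fun z _ => hpos (e.symm z)

theorem contDiffOn_inv_sqrt : ContDiffOn ℝ ∞ (fun s : ℝ => (Real.sqrt s)⁻¹) (Ioi 0) := by
  intro s hs
  have hs' : (0 : ℝ) < s := hs
  have h1 : ContDiffAt ℝ ∞ Real.sqrt s := Real.contDiffAt_sqrt hs'.ne'
  exact (h1.inv (Real.sqrt_pos.2 hs').ne').contDiffWithinAt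

/-- **square partitions of unity of small mesh** -/
theorem exists_sqPart {η : ℝ} (hη : 0 < η) :
    ∃ (n : ℕ) (S : SqPart X (Fin n)) (v : Fin n → X), ∀ a, S.U a = Metric.ball (v a) η := by
  classical
  have hb : ∀ x : X, ∃ χ : X → ℝ, RSm χ ∧ HasCompactSupport χ ∧
      tsupport χ ⊆ (chartAt C2 x).source ∩ Metric.ball x η ∧
      (∀ y, 0 ≤ χ y ∧ χ y ≤ 1) ∧ ∀ᶠ y in 𝓝 x, χ y = 1 := fun x =>
    exists_bump_at Metric.isOpen_ball (Metric.mem_ball_self hη)
  choose χ h1 h2 h3 h4 h5 using hb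
  obtain ⟨t, -, ht⟩ := isCompact_univ.elim_nhds_subcover (fun x : X => {y | χ x y = 1})
    (fun x _ => h5 x)
  let v : Fin t.card → X := fun i => (t.equivFin.symm i : t)
  have hcov : ∀ x, ∃ a, χ (v a) x = 1 := by
    intro x
    obtain ⟨y, hy, hxy⟩ := mem_iUnion₂.1 (ht (mem_univ x))
    exact ⟨t.equivFin ⟨y, hy⟩, by simpa [v] using hxy⟩
  set q : X → ℝ := fun x => ∑ a, χ (v a) x * χ (v a) x with hq
  have hqs : RSm q := RSm.sum _ fun a _ => (h1 (v a)).mul (h1 (v a))
  have hqpos : ∀ x, 0 < q x := by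
    intro x
    obtain ⟨a, ha⟩ := hcov x
    refine lt_of_lt_of_le one_pos ?_
    have h := Finset.single_le_sum (f := fun a => χ (v a) x * χ (v a) x)
      (fun b _ => mul_self_nonneg (χ (v b) x)) (Finset.mem_univ a)
    simp only [ha, mul_one] at h
    exact h
  set w : X → ℝ := fun x => (Real.sqrt (q x))⁻¹ with hw
  have hws : RSm w := rsm_comp_pos hqs hqpos contDiffOn_inv_sqrt
  refine ⟨t.card, ⟨fun a => Metric.ball (v a) η, fun a => Metric.isOpen_ball,
    fun a x => χ (v a) x * w x, fun a => ((h1 (v a)).mul hws).reg, fun a => ?_, fun x => ?_⟩,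
    v, fun a => rfl⟩
  · exact (tsupport_mul_subset_left).trans ((h3 (v a)).trans inter_subset_right)
  · have e1 : ∀ a, (χ (v a) x * w x) ^ 2 = (χ (v a) x * χ (v a) x) * w x ^ 2 := fun a => by ring
    simp only [e1]
    rw [← Finset.sum_mul]
    have e2 : w x ^ 2 = (q x)⁻¹ := by
      rw [hw]
      simp only
      rw [inv_pow, Real.sq_sqrt (hqpos x).le]
    rw [e2]
    exact mul_inv_cancel₀ (hqpos x).ne'

/-- a sequence of square partitions of unity with mesh tending to zero -/
theorem exists_sqSeq : ∃ (N : ℕ → ℕ) (S : ∀ k, SqPart X (Fin (N k))) (v : ∀ k, Fin (N k) → X),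
    ∀ k a, (S k).U a = Metric.ball (v k a) (1 / ((k : ℝ) + 1)) := by
  have h : ∀ k : ℕ, ∃ (n : ℕ) (S : SqPart X (Fin n)) (v : Fin n → X),
      ∀ a, S.U a = Metric.ball (v a) (1 / ((k : ℝ) + 1)) := fun k => exists_sqPart (by positivity)
  choose N S v h using h
  exact ⟨N, S, v, h⟩

/-- the partition of unity `φ²` in the algebra `AX X` -/
def partOf {n : ℕ} (S : SqPart X (Fin n)) (v : Fin n → X) : Part (AX X) (Fin n) where
  ψ a := ⟨fun x => S.φ a x ^ 2, mem_AX_of_compact (by
    have h := (rsm_iff.2 (S.smooth a)).mul (rsm_iff.2 (S.smooth a))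
    have e : (fun x => S.φ a x ^ 2) = fun x => S.φ a x * S.φ a x := by
      funext x
      ring
    rw [e]
    exact h)⟩
  v := v
  sum_one := by
    apply Subtype.ext
    funext x
    rw [AddSubmonoidClass.coe_finsetSum, Finset.sum_apply]
    exact S.sum x

theorem partOf_ψ {n : ℕ} (S : SqPart X (Fin n)) (v : Fin n → X) (a : Fin n) (x : X) :
    ((partOf S v).ψ a : X → ℝ) x = S.φ a x ^ 2 := rfl

theorem partOf_v {n : ℕ} (S : SqPart X (Fin n)) (v : Fin n → X) : (partOf S v).v = v := rfl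

theorem tsupport_partOf {n : ℕ} (S : SqPart X (Fin n)) (v : Fin n → X) (a : Fin n) :
    tsupport ((partOf S v).ψ a : X → ℝ) ⊆ tsupport (S.φ a) := by
  refine closure_mono fun x hx h => hx ?_
  rw [partOf_ψ, h]
  simp

theorem partOf_fine {n : ℕ} {S : SqPart X (Fin n)} {v : Fin n → X} {η η' : ℝ} (hη : η ≤ η')
    (h : ∀ a, S.U a ⊆ Metric.ball (v a) η) : (partOf S v).Fine η' := by
  intro a x hx
  have h1 := h a (S.supp a (tsupport_partOf S v a hx))
  exact (Metric.mem_ball.1 h1).trans_le hη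

/-- the sequence of partitions is eventually fine -/
theorem eventually_partOf_fine {N : ℕ → ℕ} {S : ∀ k, SqPart X (Fin (N k))}
    {v : ∀ k, Fin (N k) → X} (h : ∀ k a, (S k).U a = Metric.ball (v k a) (1 / ((k : ℝ) + 1)))
    {η : ℝ} (hη : 0 < η) : ∀ᶠ k in atTop, (partOf (S k) (v k)).Fine η := by
  have h1 : ∀ᶠ k : ℕ in atTop, 1 / ((k : ℝ) + 1) < η :=
    tendsto_one_div_add_atTop_nhds_zero_nat.eventually (gt_mem_nhds hη)
  filter_upwards [h1] with k hk
  exact partOf_fine hk.le fun a => (h k a).subset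

end sq

/-! ### uniform fineness -/

section fine

variable {X : Type*} [PseudoMetricSpace X] {A : Subalgebra ℝ (X → ℝ)} {N : ℕ → ℕ}
  {P : ∀ k, Part A (Fin (N k))}

theorem eventually_ASFine (hP : ∀ η > 0, ∀ᶠ k in atTop, (P k).Fine η) {V : Set (X × X)}
    (hV : V ∈ 𝓤 X) : ∀ᶠ k in atTop, AS.Fine V (P k) := by
  obtain ⟨ε, hε, h⟩ := Metric.mem_uniformity_dist.1 hV
  filter_upwards [hP ε hε] with k hk a x hx
  exact h (hk a x hx)

/-- the value on the generator, along the sequence -/
theorem good_lam {T : TopInt A} (hP : ∀ η > 0, ∀ᶠ k in atTop, (P k).Fine η) {U : Set X}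
    (h : AS.Good T U) : ∃ c : Fin 4 → X → ℝ, AS.ChartPiece U c ∧
      ∀ᶠ l in atTop, lam T (P l) (H994.toR (AS.rhoU U c)) = 1 := by
  obtain ⟨c, χ, t, δ, h1, h2, h3⟩ := h
  refine ⟨c, h1, ?_⟩
  obtain ⟨V, hV, h4⟩ := h1.lam_rhoU T h2
  filter_upwards [eventually_ASFine hP hV] with l hl
  exact (h4 _ (P l) hl).trans h3

theorem good_cls {T : TopInt A} (hP : ∀ η > 0, ∀ᶠ k in atTop, (P k).Fine η) {U : Set X}
    (h : AS.Good T U) : ∃ ρ : H994.Co X 4, H994.Closed ρ ∧ H994.CS U ρ ∧
      ∀ᶠ l in atTop, lam T (P l) (H994.toR ρ) = 1 := by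
  obtain ⟨c, h1, h2⟩ := good_lam hP h
  exact ⟨AS.rhoU U c, h1.closed_rhoU, h1.cs_rhoU, h2⟩

theorem good_B3 {T : TopInt A} {U : Set X} (h : AS.Good T U) (S : H994.Co X 3)
    (hS : H994.Closed S) (hs : H994.CS U S) :
    ∃ τ : H994.Co X 2, H994.CS U τ ∧ H994.Eqv (H994.d τ) S := by
  obtain ⟨c, χ, t, δ, h1, -⟩ := h
  exact h1.B3 S hS hs

theorem good_B4 {T : TopInt A} (hP : ∀ η > 0, ∀ᶠ k in atTop, (P k).Fine η) {U : Set X}
    (h : AS.Good T U) (F : H994.Co X 4) (hF : H994.Closed F) (hs : H994.CS U F)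
    (h0 : ∀ᶠ l in atTop, lam T (P l) (H994.toR F) = 0) :
    ∃ σ : H994.Co X 3, H994.CS U σ ∧ H994.Eqv (H994.d σ) F := by
  obtain ⟨c, h1, h2⟩ := good_lam hP h
  refine h1.B4 (H994.lamGZ T P) (H994.lamGZ_eqv T P hP) (H994.lamGZ_d T P) ?_ F hF hs ?_
  · intro k hk
    have h3 : H994.lamGZ T P (AS.rhoU U c) = (((1 : ℝ) : ℝ) : (atTop : Filter ℕ).Germ ℝ) :=
      (H994.lamG_eq_const T P).2 h2
    rw [h3] at hk
    exact H994.germ_one_torsion_free k hk
  · exact (H994.lamG_eq_const T P (r := 0)).2 h0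

end fine

/-! ### the good cover -/

section cover

variable {X : Type*} [TopologicalSpace X] {E F : Type*} [NormedAddCommGroup E] [NormedSpace ℝ E]
  [NormedAddCommGroup F] [InnerProductSpace ℝ F] [FiniteDimensional ℝ F]
  [ChartedSpace E X] {A : E ≃L[ℝ] F} (G : H368.GoodCover X A)

/-- the compact chart ball around a member -/
def bK (i : Fin G.n) : Set X := (G.e i).symm '' {w | ‖A w - A (G.c i)‖ ≤ G.r}

theorem isCompact_bK (i : Fin G.n) : IsCompact (bK G i) :=
  (H368.isCompact_closed_aball A (G.c i) G.r).image_of_continuousOn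
    ((G.e i).continuousOn_symm.mono (G.closed_sub i))

omit [FiniteDimensional ℝ F] in
theorem bK_sub (i : Fin G.n) : bK G i ⊆ (G.e i).source := by
  rintro _ ⟨w, hw, rfl⟩
  exact (G.e i).map_target (G.closed_sub i hw)

omit [FiniteDimensional ℝ F] in
theorem U_sub_bK (i : Fin G.n) : G.U i ⊆ bK G i := by
  rintro _ ⟨w, hw, rfl⟩
  exact ⟨w, mem_ofPred.2 (le_of_lt (H368.mem_aball.1 hw)), rfl⟩

omit [FiniteDimensional ℝ F] in
/-- one, two and three members -/
theorem conv3 (i j k : Fin G.n) (hne : (G.U i ∩ G.U j ∩ G.U k).Nonempty) :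
    Convex ℝ (G.e i '' (G.U i ∩ G.U j ∩ G.U k)) := by
  have e : (⋂ l ∈ ({i, j, k} : Finset (Fin G.n)), G.U l) = G.U i ∩ G.U j ∩ G.U k := by
    ext x
    simp [and_assoc]
  have h := (G.inter_convex (s := {i, j, k}) (i := i) (by simp) (by rwa [e])).2.1
  rwa [e] at h

omit [FiniteDimensional ℝ F] in
theorem conv2 (i j : Fin G.n) (hne : (G.U i ∩ G.U j).Nonempty) :
    Convex ℝ (G.e i '' (G.U i ∩ G.U j)) := by
  have e : G.U i ∩ G.U j ∩ G.U j = G.U i ∩ G.U j := by
    rw [inter_assoc, inter_self]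
  have h := conv3 G i j j (by rwa [e])
  rwa [e] at h

omit [FiniteDimensional ℝ F] in
theorem conv1 (i : Fin G.n) (hne : (G.U i).Nonempty) : Convex ℝ (G.e i '' G.U i) := by
  have h := conv2 G i i (by rwa [inter_self])
  rwa [inter_self] at h

/-- the members as open sets -/
def cov (i : Fin G.n) : Opens X := ⟨G.U i, G.isOpen_U i⟩

omit [FiniteDimensional ℝ F] in
@[simp] theorem coe_cov (i : Fin G.n) : (cov G i : Set X) = G.U i := rfl

omit [FiniteDimensional ℝ F] in
theorem cov_cover : (⋃ i, (cov G i : Set X)) = univ := by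
  rw [eq_univ_iff_forall]
  intro x
  obtain ⟨i, hi⟩ := G.exists_mem_U x
  exact mem_iUnion.2 ⟨i, hi⟩

end cover

section main

variable {X : Type} [MetricSpace X] [CompactSpace X] [ChartedSpace C2 X]
  [IsManifold 𝓘(ℂ, C2) ω X]

variable {F : Type} [NormedAddCommGroup F] [InnerProductSpace ℝ F] {A : C2 ≃L[ℝ] F}
  (G : H368.GoodCover X A)

omit [CompactSpace X] in
theorem good_inter [FiniteDimensional ℝ F] {i : Fin G.n} {W : Set X}
    (hW : W ⊆ G.U i) (hWo : IsOpen W) (hc : Convex ℝ (G.e i '' W)) (hne : W.Nonempty) :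
    AS.Good (TI X) W := by
  have h1 : closure W ⊆ bK G i :=
    closure_minimal (hW.trans (U_sub_bK G i)) (isCompact_bK G i).isClosed
  exact AS.good_TI (G.e_mem i) hWo hne
    ((isCompact_bK G i).of_isClosed_subset isClosed_closure h1) (h1.trans (bK_sub G i)) hc

/-- **the input of the duality theorem** -/
theorem pdIn {N : ℕ → ℕ} {P : ∀ k, Part (AX X) (Fin (N k))}
    (hP : ∀ η > 0, ∀ᶠ k in atTop, (P k).Fine η) : H994.PDIn (TI X) P (cov G) := by
  have : FiniteDimensional ℝ F := LinearEquiv.finiteDimensional A.toLinearEquiv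
  refine ⟨hP, ?_, ?_, ?_, ?_, ?_, ?_⟩
  · intro i hne
    exact H994.SmallContr.of_chart (G.e i) (U_sub_bK G i) (isCompact_bK G i) (bK_sub G i) hne
      (conv1 G i hne)
  · intro i j hne
    exact H994.SmallContr.of_chart (G.e i) (inter_subset_left.trans (U_sub_bK G i))
      (isCompact_bK G i) (bK_sub G i) hne (conv2 G i j hne)
  · intro i j k hne
    exact H994.SmallContr.of_chart (G.e i)
      ((inter_subset_left.trans inter_subset_left).trans (U_sub_bK G i))
      (isCompact_bK G i) (bK_sub G i) hne (conv3 G i j k hne)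
  · intro i j k hne
    exact good_cls hP (good_inter G (inter_subset_left.trans inter_subset_left)
      (((G.isOpen_U i).inter (G.isOpen_U j)).inter (G.isOpen_U k)) (conv3 G i j k hne) hne)
  · intro j k hne F hF hs h0
    exact good_B4 hP (good_inter G inter_subset_left
      ((G.isOpen_U j).inter (G.isOpen_U k)) (conv2 G j k hne) hne) F hF hs h0
  · intro k hne S hS hs
    exact good_B3 (good_inter G subset_rfl (G.isOpen_U k) (conv1 G k hne) hne) S hS hs

/-- square partitions of unity of mesh tending to zero give the input of the duality theorem -/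
theorem pdIn_sqSeq {N : ℕ → ℕ} {S : ∀ k, SqPart X (Fin (N k))} {v : ∀ k, Fin (N k) → X}
    (h : ∀ k a, (S k).U a = Metric.ball (v k a) (1 / ((k : ℝ) + 1))) :
    H994.PDIn (TI X) (fun k => partOf (S k) (v k)) (cov G) :=
  pdIn G fun _ hη => eventually_partOf_fine h hη

end main

/-! ### existence of the cover and of the metric -/

/-- the real linear identification of `C2` with a Euclidean space -/
def eucC2 : C2 ≃L[ℝ] EuclideanSpace ℝ (Fin 4) :=
  ContinuousLinearEquiv.ofFinrankEq (by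
    rw [finrank_euclideanSpace, Fintype.card_fin, Module.finrank_pi_fintype ℝ]
    simp [Complex.finrank_real_complex])

section exist

variable (X : Type) [TopologicalSpace X] [T2Space X] [CompactSpace X] [ChartedSpace C2 X]

/-- a compact Hausdorff surface is metrizable -/
theorem metrizable_of_compact : TopologicalSpace.MetrizableSpace X := by
  have : SecondCountableTopology X := ChartedSpace.secondCountable_of_sigmaCompact C2 X
  infer_instance

variable [IsManifold 𝓘(ℂ, C2) ω X]

variable {X} in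
/-- a good cover subordinate to a given open cover -/
theorem exists_goodCover {κ : Type*} (V : κ → Set X) (hV : ∀ k, IsOpen (V k))
    (hVc : ∀ x, ∃ k, x ∈ V k) : ∃ G : H368.GoodCover X eucC2, ∀ i, ∃ k, G.U i ⊆ V k :=
  H368.exists_goodCover_manifold (𝕜 := ℂ) (n := ω) (by norm_num) eucC2 V hV hVc

/-- **Everything which is needed for Poincare duality.**  There are a metric, a good cover
(subordinate to a given open cover) and a sequence of square partitions of unity such that
`H994.PDIn` holds. -/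
theorem exists_pdIn {κ : Type*} (V : κ → Set X) (hV : ∀ k, IsOpen (V k))
    (hVc : ∀ x, ∃ k, x ∈ V k) :
    letI := metrizable_of_compact X
    letI : MetricSpace X := TopologicalSpace.metrizableSpaceMetric X
    ∃ (G : H368.GoodCover X eucC2) (N : ℕ → ℕ) (S : ∀ k, SqPart X (Fin (N k)))
      (v : ∀ k, Fin (N k) → X), (∀ i, ∃ k, G.U i ⊆ V k) ∧
      (∀ k a, (S k).U a = Metric.ball (v k a) (1 / ((k : ℝ) + 1))) ∧
      H994.PDIn (TI X) (fun k => partOf (S k) (v k)) (cov G) := by
  let _ := metrizable_of_compact X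
  let _ : MetricSpace X := TopologicalSpace.metrizableSpaceMetric X
  obtain ⟨G, hG⟩ := exists_goodCover V hV hVc
  obtain ⟨N, S, v, h⟩ := exists_sqSeq (X := X)
  exact ⟨G, N, S, v, hG, h, pdIn_sqSeq G h⟩

end exist

end Vale.Agent.P267.H692
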